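import Vale.Agent.P181.H536.Main
import Vale.Agent.P181.H280.Final

set_option autoImplicit false

open scoped TensorProduct

namespace Vale.Agent.P181.H536

open Vale.Agent.P181 MvPolynomial H280

variable {n : ℕ}

/-- The variables other than the first two. -/
noncomputable def ZZ (n : ℕ) : Submodule ℂ (MvPolynomial (Fin (n + 2)) ℂ) :=
  Submodule.span ℂ (Set.range (fun i : Fin n => (X i.succ.succ : MvPolynomial (Fin (n + 2)) ℂ)))

/-- Scaling of the variables other than the first two. -/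
noncomputable def scal (n : ℕ) (t : ℂ) :
    MvPolynomial (Fin (n + 2)) ℂ →ₐ[ℂ] MvPolynomial (Fin (n + 2)) ℂ :=
  aeval (Fin.cons (X 0) (Fin.cons (X 1) (fun i : Fin n => t • X i.succ.succ)))

/-- Shears. -/
noncomputable def shr (n : ℕ) (z₁ z₂ : MvPolynomial (Fin (n + 2)) ℂ) :
    MvPolynomial (Fin (n + 2)) ℂ →ₐ[ℂ] MvPolynomial (Fin (n + 2)) ℂ :=
  aeval (Fin.cons (X 0 + z₁) (Fin.cons (X 1 + z₂) (fun i : Fin n => X i.succ.succ)))

lemma scal_zero (t : ℂ) : scal n t (X 0) = X 0 := by
  rw [scal, aeval_X, Fin.cons_zero]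

lemma scal_one (t : ℂ) : scal n t (X 1) = X 1 := by
  rw [scal, aeval_X]
  rfl

lemma scal_succ (t : ℂ) (i : Fin n) : scal n t (X i.succ.succ) = t • X i.succ.succ := by
  rw [scal, aeval_X, Fin.cons_succ, Fin.cons_succ]

lemma shr_zero (z₁ z₂ : MvPolynomial (Fin (n + 2)) ℂ) : shr n z₁ z₂ (X 0) = X 0 + z₁ := by
  rw [shr, aeval_X, Fin.cons_zero]

lemma shr_one (z₁ z₂ : MvPolynomial (Fin (n + 2)) ℂ) : shr n z₁ z₂ (X 1) = X 1 + z₂ := by
  rw [shr, aeval_X]
  rfl

lemma shr_succ (z₁ z₂ : MvPolynomial (Fin (n + 2)) ℂ) (i : Fin n) :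
    shr n z₁ z₂ (X i.succ.succ) = X i.succ.succ := by
  rw [shr, aeval_X, Fin.cons_succ, Fin.cons_succ]

lemma setup (n : ℕ) : Setup (X 0 : MvPolynomial (Fin (n + 2)) ℂ) (X 1) (ZZ n) (scal n) where
  τp := scal_zero
  τq := scal_one
  τz := by
    intro t z hz
    induction hz using Submodule.span_induction with
    | mem x hx =>
      obtain ⟨i, rfl⟩ := hx
      exact scal_succ t i
    | zero => rw [map_zero, smul_zero]
    | add x y _ _ hx hy => rw [map_add, hx, hy, smul_add]
    | smul c x _ hx => rw [map_smul, hx, smul_comm]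
  shear := by
    intro z₁ hz₁ z₂ hz₂
    have hz : ∀ z ∈ ZZ n, shr n z₁ z₂ z = z := by
      intro z hz
      induction hz using Submodule.span_induction with
      | mem x hx =>
        obtain ⟨i, rfl⟩ := hx
        exact shr_succ z₁ z₂ i
      | zero => rw [map_zero]
      | add x y _ _ hx hy => rw [map_add, hx, hy]
      | smul c x _ hx => rw [map_smul, hx]
    refine ⟨shr n z₁ z₂, ⟨hz, ?_⟩, shr_zero z₁ z₂, shr_one z₁ z₂⟩
    intro u hu
    obtain ⟨α, β, rfl⟩ := Submodule.mem_span_pair.1 hu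
    rw [map_add, map_smul, map_smul, shr_zero, shr_one, smul_add, smul_add]
    have h1 : α • (X 0 : MvPolynomial (Fin (n + 2)) ℂ) + α • z₁ + (β • X 1 + β • z₂) -
        (α • X 0 + β • X 1) = α • z₁ + β • z₂ := by abel
    rw [h1]
    exact (ZZ n).add_mem ((ZZ n).smul_mem _ hz₁) ((ZZ n).smul_mem _ hz₂)

lemma sup_eq (n : ℕ) :
    Submodule.span ℂ {(X 0 : MvPolynomial (Fin (n + 2)) ℂ), X 1} ⊔ ZZ n = linS (n + 2) := by
  apply le_antisymm
  · apply sup_le
    · rw [Submodule.span_le]
      rintro _ (rfl | rfl)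
      · exact X_mem_linS _
      · exact X_mem_linS _
    · rw [ZZ, Submodule.span_le]
      rintro _ ⟨i, rfl⟩
      exact X_mem_linS _
  · rw [linS, Submodule.span_le]
    rintro _ ⟨i, rfl⟩
    refine Fin.cases ?_ (fun i => ?_) i
    · exact mem_p _ _ _
    · refine Fin.cases ?_ (fun i => ?_) i
      · exact mem_q _ _ _
      · exact mem_Z (Submodule.subset_span ⟨i, rfl⟩)

/-- The form of an element of the kernel of the canonical map vanishes at products. -/
lemma isK_formOf {a b N : ℕ} (l : (Fin a → Fin b → (Fin N → ℂ)) →₀ ℂ)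
    (h0 : foulkesHowe a b (Fin N → ℂ) (elOf l) = 0) : IsK (linS N) b (formOf l) := by
  classical
  intro m hm hmL
  obtain ⟨f, hf⟩ := exists_fin_map m b hm
  have hfL : ∀ j, f j ∈ linS N := by
    intro j
    apply hmL
    rw [hf]
    exact Multiset.mem_map_of_mem f (Finset.mem_univ_val j)
  choose ξ hξ using fun j => exists_dual (hfL j)
  have hmp : m.prod = ∏ j, f j := by
    rw [hf]; rfl
  rw [hmp, formOf_lin l (fun _ j => f j) (fun _ j => ξ j) (fun _ j => hξ j)]
  have h1 : ((Fintype.card (Equiv.Perm (Fin b)) : ℕ) : ℂ) • symEval (fun _ : Fin a => symEval ξ) =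
      ((Fintype.card (Equiv.Perm (Fin a)) : ℕ) : ℂ) •
        (symEval (fun j => evalPow a (ξ j)) ∘ₗ foulkesHowe a b (Fin N → ℂ)) := by
    apply pure_hom_ext
    intro v
    rw [LinearMap.smul_apply, LinearMap.smul_apply, LinearMap.comp_apply, symEval_foulkesHowe,
      symEval_tprod]
    have h2 : ∀ e : Equiv.Perm (Fin a), ∏ i, symEval ξ (SymmetricPower.tprod ℂ (v (e i))) =
        ∏ i, ryser (v i) (∏ j, (fun v => ξ j v)) := by
      intro e
      rw [← Equiv.prod_comp e (fun i => ryser (v i) (∏ j, (fun v => ξ j v)))]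
      apply Finset.prod_congr rfl
      intro i _
      rw [symEval_tprod, ryser_prod]
    rw [Finset.sum_congr rfl (fun e _ => h2 e), Finset.sum_const, Finset.card_univ, nsmul_eq_mul,
      smul_eq_mul, smul_eq_mul]
    ring
  have h2 := LinearMap.congr_fun h1 (elOf l)
  rw [LinearMap.smul_apply, LinearMap.smul_apply, LinearMap.comp_apply, h0, map_zero, smul_zero,
    smul_eq_mul] at h2
  refine (mul_eq_zero.1 h2).resolve_left ?_
  exact_mod_cast Fintype.card_ne_zero

/-- The matrix of a shear composed with a scaling. -/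
def mat (t : ℂ) (m₁ m₂ : Fin n → ℂ) : Matrix (Fin (n + 2)) (Fin (n + 2)) ℂ :=
  Matrix.of (Fin.cons (Fin.cons 1 (Fin.cons 0 m₁)) (Fin.cons (Fin.cons 0 (Fin.cons 1 m₂))
    (fun i => Fin.cons 0 (Fin.cons 0 (fun j => if i = j then t else 0)))))

lemma mat_borel {t : ℂ} (ht : t ≠ 0) (m₁ m₂ : Fin n → ℂ) : IsBorel (mat t m₁ m₂) := by
  constructor
  · intro i j hij
    refine Fin.cases (motive := fun i => j < i → mat t m₁ m₂ i j = 0) ?_ ?_ i hij
    · intro h
      exact absurd h (Fin.not_lt_zero j)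
    · intro i
      refine Fin.cases ?_ (fun i => ?_) i
      · intro h
        have hj : j = 0 := by
          apply Fin.ext
          have : (j : ℕ) < 1 := h
          simpa using this
        rw [hj]
        rfl
      · refine Fin.cases ?_ (fun j => ?_) j
        · intro _; rfl
        · refine Fin.cases ?_ (fun j => ?_) j
          · intro _; rfl
          · intro h
            have h1 : j ≠ i := by
              rintro rfl
              exact lt_irrefl _ h
            change (if i = j then t else 0) = 0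
            rw [if_neg (Ne.symm h1)]
  · intro i
    refine Fin.cases ?_ (fun i => ?_) i
    · exact one_ne_zero
    · refine Fin.cases ?_ (fun i => ?_) i
      · exact one_ne_zero
      · change (if i = i then t else 0) ≠ 0
        rw [if_pos rfl]
        exact ht

lemma mat_prod (t : ℂ) (m₁ m₂ : Fin n → ℂ) (lam : Fin (n + 2) → ℕ) :
    ∏ i, mat t m₁ m₂ i i ^ lam i = t ^ (∑ i : Fin n, lam i.succ.succ) := by
  rw [Fin.prod_univ_succ, Fin.prod_univ_succ]
  have h0 : mat t m₁ m₂ 0 0 = 1 := rfl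
  have h1 : mat t m₁ m₂ (Fin.succ 0) (Fin.succ 0) = 1 := rfl
  have h2 : ∀ i : Fin n, mat t m₁ m₂ i.succ.succ i.succ.succ = t := by
    intro i
    change (if i = i then t else 0) = t
    rw [if_pos rfl]
  rw [h0, h1, one_pow, one_pow, one_mul, one_mul]
  simp only [h2]
  rw [Finset.prod_pow_eq_pow_sum]

/-- The action of upper triangular matrices on the form of a highest weight vector. -/
lemma formOf_act {a b N : ℕ} (lam : Fin N → ℕ) (l : (Fin a → Fin b → (Fin N → ℂ)) →₀ ℂ)
    (hx : elOf l ∈ hwSpace lam (plethAct a b N)) (g : Matrix (Fin N) (Fin N) ℂ)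
    (c : Fin a → Fin b → Fin N) (p : Fin a → Fin b → MvPolynomial (Fin N) ℂ) (hg : IsBorel g)
    (hp : ∀ i j, evL N (p i j) = fun v => (Matrix.toLin' g v) (c i j)) :
    formOf l (fun i => ∏ j, p i j) =
      (∏ i, g i i ^ lam i) * formOf l (fun i => ∏ j, X (c i j)) := by
  have h1 := formOf_lin l p (fun i j => (LinearMap.proj (c i j)) ∘ₗ Matrix.toLin' g)
    (fun i j => hp i j)
  rw [h1, ← symEval_act (Matrix.toLin' g) (fun i j => LinearMap.proj (c i j)) (elOf l)]
  have h2 : symMap a (symMap b (Matrix.toLin' g)) (elOf l) =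
      (∏ i, g i i ^ lam i) • elOf l := hx g hg
  rw [h2, map_smul, smul_eq_mul]
  congr 1
  exact (formOf_lin l (fun i j => X (c i j)) (fun i j => LinearMap.proj (c i j))
    (fun i j => evL_X _)).symm

lemma good_formOf {a b : ℕ} (lam : Fin (n + 2) → ℕ)
    (l : (Fin a → Fin b → (Fin (n + 2) → ℂ)) →₀ ℂ)
    (hx : elOf l ∈ hwSpace lam (plethAct a b (n + 2))) :
    Good (Submodule.span ℂ {(X 0 : MvPolynomial (Fin (n + 2)) ℂ), X 1}) (ZZ n) (scal n) b
      (∑ i : Fin n, lam i.succ.succ) (formOf l) := by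
  intro g hg P hP
  rw [sup_eq] at hP
  set r := ∑ i : Fin n, lam i.succ.succ with hr
  refine ⟨Polynomial.C (formOf l P) * Polynomial.X ^ r,
    Polynomial.natDegree_C_mul_X_pow_le _ _, fun t ht => ?_⟩
  rw [Polynomial.eval_mul, Polynomial.eval_C, Polynomial.eval_pow, Polynomial.eval_X]
  -- the coefficients of the shear
  obtain ⟨m₁, hm₁⟩ := Submodule.mem_span_range_iff_exists_fun ℂ |>.1
    (hg.2 (X 0) (Submodule.subset_span (by simp)))
  obtain ⟨m₂, hm₂⟩ := Submodule.mem_span_range_iff_exists_fun ℂ |>.1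
    (hg.2 (X 1) (Submodule.subset_span (by simp)))
  have hM : ∀ c : Fin (n + 2), evL (n + 2) (g (scal n t (X c))) =
      fun v => (Matrix.toLin' (mat t m₁ m₂) v) c := by
    intro c
    funext v
    rw [Matrix.toLin'_apply, Matrix.mulVec, dotProduct, Fin.sum_univ_succ, Fin.sum_univ_succ]
    refine Fin.cases ?_ (fun c => ?_) c
    · have h1 : g (scal n t (X 0)) = X 0 + ∑ i, m₁ i • X i.succ.succ := by
        rw [scal_zero, hm₁]; abel
      rw [h1, map_add, map_sum, evL_X]
      simp only [map_smul, evL_X, Pi.add_apply, Finset.sum_apply, Pi.smul_apply, smul_eq_mul]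
      change _ = 1 * v 0 + (0 * v 1 + ∑ i, m₁ i * v i.succ.succ)
      ring
    · refine Fin.cases ?_ (fun c => ?_) c
      · have h1 : g (scal n t (X 1)) = X 1 + ∑ i, m₂ i • X i.succ.succ := by
          rw [scal_one, hm₂]; abel
        change evL (n + 2) (g (scal n t (X 1))) v = _
        rw [h1, map_add, map_sum, evL_X]
        simp only [map_smul, evL_X, Pi.add_apply, Finset.sum_apply, Pi.smul_apply, smul_eq_mul]
        change _ = 0 * v 0 + (1 * v 1 + ∑ i, m₂ i * v i.succ.succ)
        ring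
      · have h1 : g (scal n t (X c.succ.succ)) = t • X c.succ.succ := by
          rw [scal_succ, map_smul, hg.1 _ (Submodule.subset_span ⟨c, rfl⟩)]
        rw [h1, map_smul, evL_X]
        change t * v c.succ.succ = 0 * v 0 + (0 * v 1 +
          ∑ i : Fin n, (if c = i then t else 0) * v i.succ.succ)
        simp
  let Φ : MultilinearMap ℂ (fun _ : Fin a => MvPolynomial (Fin (n + 2)) ℂ) ℂ :=
    comp (comp (formOf l) g) (scal n t) - t ^ r • formOf l
  have hΦ : Φ P = 0 := by
    apply multilinear_zero_of_span Φ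
      (Set.range (fun c : Fin b → Fin (n + 2) => ∏ j, (X (c j) : MvPolynomial (Fin (n + 2)) ℂ)))
    · intro w hw
      choose c hc using hw
      have hw' : w = fun i => ∏ j, X (c i j) := by
        funext i; exact (hc i).symm
      have h1 := formOf_act lam l hx (mat t m₁ m₂) c (fun i j => g (scal n t (X (c i j))))
        (mat_borel ht m₁ m₂) (fun i j => hM (c i j))
      rw [mat_prod] at h1
      rw [hw']
      have h2 : Φ (fun i => ∏ j, X (c i j)) =
          formOf l (fun i => g (scal n t (∏ j, X (c i j)))) -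
            t ^ r * formOf l (fun i => ∏ j, X (c i j)) := rfl
      rw [h2]
      simp only [map_prod]
      rw [h1, sub_self]
    · intro i
      exact span_pow_eq _ _ (hP i)
  have h1 : Φ P = comp (formOf l) g (fun i => scal n t (P i)) - t ^ r * formOf l P := rfl
  rw [h1, sub_eq_zero] at hΦ
  rw [hΦ, mul_comm]

/-- **The canonical map is injective on highest weight vectors with few boxes below the second
row.** -/
theorem foulkesHowe_injOn {a b N : ℕ} (hN : 1 ≤ N) (ha : a ≤ N + 1) (lam : Fin (n + 2) → ℕ)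
    (hlam : (∑ i : Fin n, lam i.succ.succ) + N ≤ b) (x : Sym[ℂ]^a (Sym[ℂ]^b (Fin (n + 2) → ℂ)))
    (hx : x ∈ hwSpace lam (plethAct a b (n + 2)))
    (h0 : foulkesHowe a b (Fin (n + 2) → ℂ) x = 0) : x = 0 := by
  obtain ⟨l, rfl⟩ := exists_elOf x
  apply elOf_eq_zero
  have hK := isK_formOf l h0
  rw [← sup_eq] at hK ⊢
  exact firstOrder_main (setup n) hN hlam a ha (formOf l)
    ⟨formOf_symm l, hK, good_formOf lam l hx⟩

lemma foulkesHowe_hwSpace {a b N : ℕ} (lam : Fin N → ℕ)
    (x : Sym[ℂ]^a (Sym[ℂ]^b (Fin N → ℂ))) (hx : x ∈ hwSpace lam (plethAct a b N)) :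
    foulkesHowe a b (Fin N → ℂ) x ∈ hwSpace lam (plethAct b a N) := by
  intro g hg
  have h1 := LinearMap.congr_fun (foulkesHowe_equivariant a b (Matrix.toLin' g)) x
  rw [LinearMap.comp_apply, LinearMap.comp_apply] at h1
  have h2 : symMap a (symMap b (Matrix.toLin' g)) x = (∏ i, g i i ^ lam i) • x := hx g hg
  rw [h2, map_smul] at h1
  exact h1.symm

theorem plethMult_le {a b N : ℕ} (hN : 1 ≤ N) (ha : a ≤ N + 1) (lam : Fin (n + 2) → ℕ)
    (hlam : (∑ i : Fin n, lam i.succ.succ) + N ≤ b) :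
    plethMult a b (n + 2) lam ≤ plethMult b a (n + 2) lam :=
  finrank_le_of_inj (foulkesHowe a b (Fin (n + 2) → ℂ)) _ _
    (fun x hx => foulkesHowe_hwSpace lam x hx)
    (fun x hx h0 => foulkesHowe_injOn hN ha lam hlam x hx h0)

end Vale.Agent.P181.H536
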