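import Vale.Agent.P181.H536.Steps3

set_option autoImplicit false

open Polynomial
open scoped Pointwise

namespace Vale.Agent.P181.H536

open Vale.Agent.P181

variable {A : Type*} [CommRing A] [Algebra ℂ A]

variable {p q : A} {Z : Submodule ℂ A} {τ : ℂ → A →ₐ[ℂ] A} {b r k N : ℕ}

theorem DD_all (h : Setup p q Z τ) (hN : 1 ≤ N) (hk : k ≤ N) (hr : r + N ≤ b) (j : ℕ) :
    ∀ G : MultilinearMap ℂ (fun _ : Fin (k + 1) => A) ℂ, Cls p q Z τ b r G →
      DD (Submodule.span ℂ {p, q} ⊔ Z) b G j := by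
  have key : ∀ j, (∀ G : MultilinearMap ℂ (fun _ : Fin (k + 1) => A) ℂ, Cls p q Z τ b r G →
      DD (Submodule.span ℂ {p, q} ⊔ Z) b G j) ∧
      (∀ G : MultilinearMap ℂ (fun _ : Fin (k + 1) => A) ℂ, Cls p q Z τ b r G →
      DD (Submodule.span ℂ {p, q} ⊔ Z) b G (j + 1)) := by
    intro j
    induction j with
    | zero => exact ⟨fun G hG => DD_zero hG.isK, fun G hG => DD_one hG.symm hG.isK⟩
    | succ j ih => exact ⟨ih.2, fun G hG => stepG h hN hk hr ih.2 hG⟩
  exact (key j).1

/-- Monomials are homogeneous for the scaling. -/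
lemma tau_monomial (h : Setup p q Z τ) (b : ℕ) :
    ∀ x ∈ (({p, q} : Set A) ∪ (Z : Set A)) ^ b, ∃ κ : ℕ, ∀ t : ℂ, τ t x = t ^ κ • x := by
  induction b with
  | zero =>
    intro x hx
    rw [pow_zero, Set.mem_one] at hx
    exact ⟨0, fun t => by rw [hx, map_one, pow_zero, one_smul]⟩
  | succ b ih =>
    intro x hx
    rw [pow_succ] at hx
    obtain ⟨y, hy, l, hl, rfl⟩ := Set.mem_mul.1 hx
    obtain ⟨κ, hκ⟩ := ih y hy
    rcases hl with (rfl | rfl) | hl
    · exact ⟨κ, fun t => by rw [map_mul, hκ, h.τp, smul_mul_assoc]⟩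
    · exact ⟨κ, fun t => by rw [map_mul, hκ, h.τq, smul_mul_assoc]⟩
    · exact ⟨κ + 1, fun t => by
        rw [map_mul, hκ, h.τz t l hl, smul_mul_smul_comm, pow_succ]⟩

lemma span_L (p q : A) (Z : Submodule ℂ A) :
    Submodule.span ℂ {p, q} ⊔ Z = Submodule.span ℂ (({p, q} : Set A) ∪ (Z : Set A)) := by
  rw [Submodule.span_union, Submodule.span_eq]

lemma pow_L (p q : A) (Z : Submodule ℂ A) (b : ℕ) :
    (Submodule.span ℂ {p, q} ⊔ Z) ^ b =
      Submodule.span ℂ ((({p, q} : Set A) ∪ (Z : Set A)) ^ b) := by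
  rw [span_L, Submodule.span_pow]

/-- The scaling gives polynomial curves. -/
lemma tau_curve (h : Setup p q Z τ) (b : ℕ) (x : A)
    (hx : x ∈ (Submodule.span ℂ {p, q} ⊔ Z) ^ b) :
    ∃ P : A[X], ∀ t : ℂ, P.eval (algebraMap ℂ A t) = τ t x := by
  rw [pow_L] at hx
  induction hx using Submodule.span_induction with
  | mem x hx =>
    obtain ⟨κ, hκ⟩ := tau_monomial h b x hx
    exact ⟨C x * X ^ κ, fun t => by
      rw [eval_mul, eval_C, eval_pow, eval_X, hκ, Algebra.smul_def, map_pow, mul_comm]⟩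
  | zero => exact ⟨0, fun t => by rw [eval_zero, map_zero]⟩
  | add x y _ _ hx hy =>
    obtain ⟨P, hP⟩ := hx
    obtain ⟨Q, hQ⟩ := hy
    exact ⟨P + Q, fun t => by rw [eval_add, hP, hQ, map_add]⟩
  | smul c x _ hx =>
    obtain ⟨P, hP⟩ := hx
    exact ⟨C (algebraMap ℂ A c) * P, fun t => by
      rw [eval_mul, eval_C, hP, map_smul, Algebra.smul_def]⟩

lemma ZDeg_curry (h : Setup p q Z τ) {m : ℕ} {G : MultilinearMap ℂ (fun _ : Fin (m + 1) => A) ℂ}
    (hG : ZDeg (Submodule.span ℂ {p, q} ⊔ Z) τ b r G) (x : A)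
    (hx : x ∈ (Submodule.span ℂ {p, q} ⊔ Z) ^ b) :
    ZDeg (Submodule.span ℂ {p, q} ⊔ Z) τ b r (G.curryLeft x) := by
  intro P hP
  have hx0 := hx
  rw [pow_L] at hx
  induction hx using Submodule.span_induction with
  | mem x hx =>
    obtain ⟨κ, hκ⟩ := tau_monomial h b x hx
    choose R hR using fun i => tau_curve h b (P i) (hP i)
    obtain ⟨Q, hQ⟩ := poly_exists (G.curryLeft x) R
    obtain ⟨Q', hQ'd, hQ'⟩ := hG (Fin.cons x P) (by
      intro i
      refine Fin.cases ?_ (fun i => ?_) i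
      · rw [Fin.cons_zero]; exact hx0
      · rw [Fin.cons_succ]; exact hP i)
    have h1 : X ^ κ * Q = Q' := by
      apply Polynomial.eq_of_infinite_eval_eq
      apply Set.Infinite.mono (s := ({0} : Set ℂ)ᶜ)
      · intro t ht
        rw [Set.mem_ofPred_eq, hQ' t ht, eval_mul, eval_pow, eval_X, hQ]
        have h2 : (fun i => τ t ((Fin.cons x P : Fin (m + 1) → A) i)) =
            Fin.cons (t ^ κ • x) (fun i => τ t (P i)) := by
          funext i
          refine Fin.cases ?_ (fun i => ?_) i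
          · rw [Fin.cons_zero, Fin.cons_zero, hκ]
          · rw [Fin.cons_succ, Fin.cons_succ]
        rw [h2, ← MultilinearMap.curryLeft_apply, map_smul, smul_apply, smul_eq_mul]
        simp only [hR]
      · exact (Set.finite_singleton (0 : ℂ)).infinite_compl
    refine ⟨Q, ?_, ?_⟩
    · by_cases hQ0 : Q = 0
      · rw [hQ0]; simp
      · rw [← h1, natDegree_mul (pow_ne_zero _ X_ne_zero) hQ0, natDegree_X_pow] at hQ'd
        omega
    · intro t _
      rw [hQ]
      simp only [hR]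
  | zero => exact ⟨0, by simp, fun t _ => by rw [eval_zero, map_zero]; rfl⟩
  | add x y hx1 hy1 hx hy =>
    obtain ⟨P₁, h1, h1'⟩ := hx (by rw [pow_L]; exact hx1)
    obtain ⟨P₂, h2, h2'⟩ := hy (by rw [pow_L]; exact hy1)
    exact ⟨P₁ + P₂, (natDegree_add_le _ _).trans (max_le h1 h2), fun t ht => by
      rw [eval_add, h1' t ht, h2' t ht, map_add]; rfl⟩
  | smul c x hx1 hx =>
    obtain ⟨P₁, h1, h1'⟩ := hx (by rw [pow_L]; exact hx1)
    exact ⟨C c * P₁, (natDegree_C_mul_le _ _).trans h1, fun t ht => by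
      rw [eval_mul, eval_C, h1' t ht, map_smul]; rfl⟩

lemma IsShear.exists_preimage_pow {U Z : Submodule ℂ A} {g : A →ₐ[ℂ] A} (hg : IsShear U Z g)
    (b : ℕ) {x : A} (hx : x ∈ (U ⊔ Z) ^ b) : ∃ x' ∈ (U ⊔ Z) ^ b, g x' = x := by
  have h1 : (U ⊔ Z) ^ b ≤ ((U ⊔ Z) ^ b).map g.toLinearMap := by
    have h2 : U ⊔ Z ≤ (U ⊔ Z).map g.toLinearMap := by
      intro l hl
      obtain ⟨l', hl', hgl⟩ := hg.exists_preimage hl
      exact ⟨l', hl', hgl⟩
    rw [Submodule.map_pow]
    exact pow_le_pow_left' h2 b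
  obtain ⟨x', hx', hgx⟩ := h1 hx
  exact ⟨x', hx', hgx⟩

/-- **First-order theorem.** -/
theorem firstOrder_main (h : Setup p q Z τ) (hN : 1 ≤ N) (hr : r + N ≤ b) (a : ℕ) :
    a ≤ N + 1 → ∀ F : MultilinearMap ℂ (fun _ : Fin a => A) ℂ, Cls p q Z τ b r F →
      ∀ P : Fin a → A, (∀ i, P i ∈ (Submodule.span ℂ {p, q} ⊔ Z) ^ b) → F P = 0 := by
  induction a with
  | zero =>
    intro _ F hF P _
    have h1 := hF.isK (Multiset.replicate b 0) (by simp) (by
      intro x hx
      rw [Multiset.eq_of_mem_replicate hx]; exact Submodule.zero_mem _)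
    rw [← h1]
    congr 1
    funext i
    exact i.elim0
  | succ k ih =>
    intro ha F hF P hP
    have h1 : P = Fin.cons (P 0) (fun i => P i.succ) := by
      funext i
      refine Fin.cases ?_ (fun i => ?_) i
      · rfl
      · rfl
    rw [h1, ← MultilinearMap.curryLeft_apply]
    refine ih (by omega) (F.curryLeft (P 0)) ?_ _ (fun i => hP i.succ)
    refine ⟨hF.symm.curryLeft _, ?_, ?_⟩
    · intro m hm hmL
      have hD := DD_all (k := k) h hN (by omega) hr b F hF
      let φ : A →ₗ[ℂ] ℂ :=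
        { toFun := fun u => F.curryLeft u (fun _ => m.prod)
          map_add' := fun a b => by rw [map_add]; rfl
          map_smul' := fun c a => by rw [map_smul]; rfl }
      have hle : (Submodule.span ℂ {p, q} ⊔ Z) ^ b ≤ LinearMap.ker φ := by
        refine (pow_le_span_pow _ _).trans ?_
        rw [Submodule.span_le]
        rintro _ ⟨θ, hθ, rfl⟩
        have h2 := hD (Multiset.replicate b θ) m 0 (by simp) hm (by simp)
          (fun x hx => by rw [Multiset.eq_of_mem_replicate hx]; exact hθ) hmL (by simp)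
        rw [Multiset.prod_replicate, Multiset.prod_zero, mul_one, mul_one] at h2
        exact h2
      exact hle (hP 0)
    · intro g hg
      obtain ⟨x', hx', hgx⟩ := hg.exists_preimage_pow b (hP 0)
      have h2 : comp (F.curryLeft (P 0)) g = (comp F g).curryLeft x' := by
        ext Q
        rw [comp_apply, MultilinearMap.curryLeft_apply, MultilinearMap.curryLeft_apply, comp_apply]
        congr 1
        funext i
        refine Fin.cases ?_ (fun i => ?_) i
        · rw [Fin.cons_zero, Fin.cons_zero, hgx]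
        · rw [Fin.cons_succ, Fin.cons_succ]
      rw [h2]
      exact ZDeg_curry h (hF.good g hg) x' hx'

end Vale.Agent.P181.H536
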