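import Vale.Agent.P181.Bdl.B2

set_option autoImplicit false

open Polynomial

namespace Vale.Agent.P181.H536

open Vale.Agent.P181

variable {A : Type*} [CommRing A] [Algebra ℂ A]

/-- Shears: algebra maps fixing `Z` and moving `U` along `Z`. -/
def IsShear (U Z : Submodule ℂ A) (g : A →ₐ[ℂ] A) : Prop :=
  (∀ z ∈ Z, g z = z) ∧ ∀ u ∈ U, g u - u ∈ Z

/-- Composing a form with a linear map in all arguments. -/
noncomputable def comp {m : ℕ} (G : MultilinearMap ℂ (fun _ : Fin m => A) ℂ) (g : A →ₐ[ℂ] A) :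
    MultilinearMap ℂ (fun _ : Fin m => A) ℂ :=
  G.compLinearMap (fun _ => g.toLinearMap)

lemma comp_apply {m : ℕ} (G : MultilinearMap ℂ (fun _ : Fin m => A) ℂ) (g : A →ₐ[ℂ] A)
    (P : Fin m → A) : comp G g P = G (fun i => g (P i)) := rfl

/-- On `L ^ b` the form has degree at most `r` with respect to the scaling `τ` of `Z`. -/
def ZDeg (L : Submodule ℂ A) (τ : ℂ → A →ₐ[ℂ] A) (b r : ℕ) {m : ℕ}
    (G : MultilinearMap ℂ (fun _ : Fin m => A) ℂ) : Prop :=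
  ∀ P : Fin m → A, (∀ i, P i ∈ L ^ b) →
    ∃ p : ℂ[X], p.natDegree ≤ r ∧ ∀ t : ℂ, t ≠ 0 → p.eval t = G (fun i => τ t (P i))

/-- `ZDeg` after every shear. -/
def Good (U Z : Submodule ℂ A) (τ : ℂ → A →ₐ[ℂ] A) (b r : ℕ) {m : ℕ}
    (G : MultilinearMap ℂ (fun _ : Fin m => A) ℂ) : Prop :=
  ∀ g : A →ₐ[ℂ] A, IsShear U Z g → ZDeg (U ⊔ Z) τ b r (comp G g)

/-- The data: `U` is spanned by `p` and `q`, `τ` scales `Z`, and there are enough shears. -/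
structure Setup (p q : A) (Z : Submodule ℂ A) (τ : ℂ → A →ₐ[ℂ] A) : Prop where
  τp : ∀ t, τ t p = p
  τq : ∀ t, τ t q = q
  τz : ∀ t, ∀ z ∈ Z, τ t z = t • z
  shear : ∀ z₁ ∈ Z, ∀ z₂ ∈ Z, ∃ g : A →ₐ[ℂ] A,
    IsShear (Submodule.span ℂ {p, q}) Z g ∧ g p = p + z₁ ∧ g q = q + z₂

end Vale.Agent.P181.H536
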