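import Vale.Agent.P181.H536.Step

set_option autoImplicit false

namespace Vale.Agent.P181.H536

open Vale.Agent.P181

variable {A : Type*} [CommRing A] [Algebra ℂ A]

/-- The class of forms of the main induction. -/
structure Cls (p q : A) (Z : Submodule ℂ A) (τ : ℂ → A →ₐ[ℂ] A) (b r : ℕ) {m : ℕ}
    (G : MultilinearMap ℂ (fun _ : Fin m => A) ℂ) : Prop where
  symm : IsSymm G
  isK : IsK (Submodule.span ℂ {p, q} ⊔ Z) b G
  good : Good (Submodule.span ℂ {p, q}) Z τ b r G

lemma isShear_id (U Z : Submodule ℂ A) : IsShear U Z (AlgHom.id ℂ A) :=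
  ⟨fun _ _ => rfl, fun u _ => by
    have : (AlgHom.id ℂ A) u - u = 0 := sub_self u
    rw [this]; exact Z.zero_mem⟩

section

variable {p q : A} {Z : Submodule ℂ A} {τ : ℂ → A →ₐ[ℂ] A} {b r k j N : ℕ}
  {G : MultilinearMap ℂ (fun _ : Fin (k + 1) => A) ℂ}

lemma mem_p (p q : A) (Z : Submodule ℂ A) : p ∈ Submodule.span ℂ {p, q} ⊔ Z :=
  Submodule.mem_sup_left (Submodule.subset_span (by simp))

lemma mem_q (p q : A) (Z : Submodule ℂ A) : q ∈ Submodule.span ℂ {p, q} ⊔ Z :=
  Submodule.mem_sup_left (Submodule.subset_span (by simp))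

lemma mem_lin (p q : A) (Z : Submodule ℂ A) (x : ℂ) : lin p q x ∈ Submodule.span ℂ {p, q} ⊔ Z :=
  Submodule.add_mem _ (mem_p p q Z) (Submodule.smul_mem _ _ (mem_q p q Z))

lemma mem_Z {p q z : A} {Z : Submodule ℂ A} (hz : z ∈ Z) : z ∈ Submodule.span ℂ {p, q} ⊔ Z :=
  Submodule.mem_sup_right hz

lemma tau_lin (h : Setup p q Z τ) (t x : ℂ) : τ t (lin p q x) = lin p q x := by
  rw [lin, map_add, map_smul, h.τp, h.τq]

lemma multiset_prod_mem_pow (L : Submodule ℂ A) (m : Multiset A) (h : ∀ x ∈ m, x ∈ L) :
    m.prod ∈ L ^ (Multiset.card m) := by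
  induction m using Multiset.induction with
  | empty =>
    rw [Multiset.prod_zero, Multiset.card_zero, pow_zero]
    exact Submodule.mem_one.2 ⟨1, map_one _⟩
  | cons a m ih =>
    rw [Multiset.prod_cons, Multiset.card_cons, pow_succ']
    exact Submodule.mul_mem_mul (h a (Multiset.mem_cons_self _ _))
      (ih (fun x hx => h x (Multiset.mem_cons_of_mem hx)))

lemma tau_multiset (h : Setup p q Z τ) (t : ℂ) (v : Multiset A) (hv : ∀ x ∈ v, x ∈ Z) :
    τ t v.prod = t ^ (Multiset.card v) • v.prod := by
  induction v using Multiset.induction with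
  | empty => simp
  | cons a m ih =>
    rw [Multiset.prod_cons, Multiset.card_cons, map_mul,
      h.τz t a (hv a (Multiset.mem_cons_self _ _)),
      ih (fun x hx => hv x (Multiset.mem_cons_of_mem hx)), pow_succ', mul_smul, smul_mul_assoc,
      mul_smul_comm]

/-- (D) The cube argument. -/
lemma stepD (h : Setup p q Z τ) (hN : 1 ≤ N) (hk : k ≤ N) (hr : r + N ≤ b)
    (hG : Cls p q Z τ b r G) (hD : DD (Submodule.span ℂ {p, q} ⊔ Z) b G (j + 1))
    (v : Multiset A) (hv : Multiset.card v = j + 2) (hvZ : ∀ x ∈ v, x ∈ Z) {m : ℕ}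
    (hm : j + 2 + m = b) (x y : ℂ) (s : Fin j → ℂ) (zs : Fin j → A) (hzs : ∀ i, zs i ∈ Z)
    (e : Fin m → ℂ) (he : Function.Injective e) (ze : Fin m → A) (hze : ∀ i, ze i ∈ Z) :
    G.curryLeft (v.prod * ∏ i, (lin p q (e i) + ze i)) (fun _ => lin p q x * lin p q y *
      ((∏ i, (lin p q (s i) + zs i)) * ∏ i, (lin p q (e i) + ze i))) = 0 := by
  classical
  set L := Submodule.span ℂ {p, q} ⊔ Z with hL
  obtain ⟨Q, hQ, -⟩ := mv_exists (σ := Fin j ⊕ Fin m) G
    (Fin.cons (MvPolynomial.C v.prod * ∏ i, (MvPolynomial.C (lin p q (e i)) +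
        MvPolynomial.X (Sum.inr i) * MvPolynomial.C (ze i)))
      (fun _ => MvPolynomial.C (lin p q x * lin p q y) *
        ((∏ i, (MvPolynomial.C (lin p q (s i)) +
          MvPolynomial.X (Sum.inl i) * MvPolynomial.C (zs i))) *
        ∏ i, (MvPolynomial.C (lin p q (e i)) +
          MvPolynomial.X (Sum.inr i) * MvPolynomial.C (ze i)))))
  have hQ' : ∀ ζ : Fin j ⊕ Fin m → ℂ, MvPolynomial.eval ζ Q =
      G.curryLeft (v.prod * ∏ i, (lin p q (e i) + ζ (Sum.inr i) • ze i))
        (fun _ => lin p q x * lin p q y * ((∏ i, (lin p q (s i) + ζ (Sum.inl i) • zs i)) *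
          ∏ i, (lin p q (e i) + ζ (Sum.inr i) • ze i))) := by
    intro ζ
    rw [hQ, MultilinearMap.curryLeft_apply]
    congr 1
    funext i
    refine Fin.cases ?_ (fun i => ?_) i
    · simp only [Fin.cons_zero, map_mul, map_prod, map_add, evA_C, evA_X, Algebra.smul_def]
    · simp only [Fin.cons_succ, map_mul, map_prod, map_add, evA_C, evA_X, Algebra.smul_def]
  -- membership
  have hvL : ∀ x ∈ v, x ∈ L := fun x hx => mem_Z (hvZ x hx)
  have hmemE : ∀ (ζ : ℂ) (i : Fin m), lin p q (e i) + ζ • ze i ∈ L := fun ζ i =>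
    L.add_mem (mem_lin p q Z _) (L.smul_mem _ (mem_Z (hze i)))
  have hmemS : ∀ (ζ : ℂ) (i : Fin j), lin p q (s i) + ζ • zs i ∈ L := fun ζ i =>
    L.add_mem (mem_lin p q Z _) (L.smul_mem _ (mem_Z (hzs i)))
  -- the degree
  have hdeg : ∀ ζ : Fin j ⊕ Fin m → ℂ, ∃ P : Polynomial ℂ,
      (P ≠ 0 → P.natDegree + (j + 2) ≤ r) ∧
      ∀ t, P.eval t = MvPolynomial.eval (fun k => t * ζ k) Q := by
    intro ζ
    let P : Polynomial ℂ := MvPolynomial.aeval (fun k => Polynomial.C (ζ k) * Polynomial.X) Q
    have hP : ∀ t, P.eval t = MvPolynomial.eval (fun k => t * ζ k) Q := by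
      intro t
      have h2 : (Polynomial.aeval t : Polynomial ℂ →ₐ[ℂ] ℂ).comp
          (MvPolynomial.aeval (fun k => Polynomial.C (ζ k) * Polynomial.X) :
            MvPolynomial (Fin j ⊕ Fin m) ℂ →ₐ[ℂ] Polynomial ℂ) =
          MvPolynomial.aeval (fun k => t * ζ k) := by
        apply MvPolynomial.algHom_ext
        intro i
        rw [AlgHom.comp_apply, MvPolynomial.aeval_X, MvPolynomial.aeval_X,
          Polynomial.coe_aeval_eq_eval, Polynomial.eval_mul, Polynomial.eval_C,
          Polynomial.eval_X, mul_comm]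
      have h3 := congrArg (fun f => f Q) h2
      simp only [AlgHom.comp_apply, Polynomial.coe_aeval_eq_eval] at h3
      rw [h3, ← RingHom.coe_coe, MvPolynomial.coe_aeval_eq_eval]
    refine ⟨P, ?_, hP⟩
    intro hP0
    let W : Fin (k + 1) → A := Fin.cons
      (v.prod * ∏ i, (lin p q (e i) + ζ (Sum.inr i) • ze i))
      (fun _ => lin p q x * lin p q y * ((∏ i, (lin p q (s i) + ζ (Sum.inl i) • zs i)) *
          ∏ i, (lin p q (e i) + ζ (Sum.inr i) • ze i)))
    have hW : ∀ i, W i ∈ L ^ b := by
      have hE : ∏ i, (lin p q (e i) + ζ (Sum.inr i) • ze i) ∈ L ^ m :=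
        prod_mem_pow L _ (fun i => hmemE _ i)
      have hS : ∏ i, (lin p q (s i) + ζ (Sum.inl i) • zs i) ∈ L ^ j :=
        prod_mem_pow L _ (fun i => hmemS _ i)
      intro i
      refine Fin.cases ?_ (fun i => ?_) i
      · simp only [W, Fin.cons_zero]
        rw [← hm, pow_add, ← hv]
        exact Submodule.mul_mem_mul (multiset_prod_mem_pow L v hvL) hE
      · simp only [W, Fin.cons_succ]
        have h1 : b = 2 + (j + m) := by omega
        rw [h1, pow_add, pow_add]
        refine Submodule.mul_mem_mul ?_ (Submodule.mul_mem_mul hS hE)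
        rw [pow_two]
        exact Submodule.mul_mem_mul (mem_lin p q Z _) (mem_lin p q Z _)
    obtain ⟨P', hP'd, hP'⟩ := hG.good (AlgHom.id ℂ A) (isShear_id _ _) W hW
    have h1 : Polynomial.X ^ (j + 2) * P = P' := by
      apply Polynomial.eq_of_infinite_eval_eq
      apply Set.Infinite.mono (s := ({0} : Set ℂ)ᶜ)
      · intro t ht
        rw [Set.mem_ofPred_eq, hP' t ht, Polynomial.eval_mul, Polynomial.eval_pow,
          Polynomial.eval_X, hP, hQ', comp_apply]
        have h2 : (fun i => (AlgHom.id ℂ A) (τ t (W i))) = Fin.cons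
            (t ^ (j + 2) • (v.prod * ∏ i, (lin p q (e i) + (t * ζ (Sum.inr i)) • ze i)))
            (fun _ => lin p q x * lin p q y *
              ((∏ i, (lin p q (s i) + (t * ζ (Sum.inl i)) • zs i)) *
                ∏ i, (lin p q (e i) + (t * ζ (Sum.inr i)) • ze i))) := by
          have hE : τ t (∏ i, (lin p q (e i) + ζ (Sum.inr i) • ze i)) =
              ∏ i, (lin p q (e i) + (t * ζ (Sum.inr i)) • ze i) := by
            rw [map_prod]
            apply Finset.prod_congr rfl
            intro i _
            rw [map_add, map_smul, tau_lin h, h.τz t _ (hze i), smul_smul, mul_comm t]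
          have hS : τ t (∏ i, (lin p q (s i) + ζ (Sum.inl i) • zs i)) =
              ∏ i, (lin p q (s i) + (t * ζ (Sum.inl i)) • zs i) := by
            rw [map_prod]
            apply Finset.prod_congr rfl
            intro i _
            rw [map_add, map_smul, tau_lin h, h.τz t _ (hzs i), smul_smul, mul_comm t]
          funext i
          refine Fin.cases ?_ (fun i => ?_) i
          · simp only [W, Fin.cons_zero, AlgHom.coe_id, id_eq]
            rw [map_mul, hE, tau_multiset h t v hvZ, hv, smul_mul_assoc]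
          · simp only [W, Fin.cons_succ, AlgHom.coe_id, id_eq]
            rw [map_mul, map_mul, map_mul, hE, hS, tau_lin h, tau_lin h]
        rw [h2, ← MultilinearMap.curryLeft_apply, map_smul, smul_apply, smul_eq_mul]
      · exact (Set.finite_singleton (0 : ℂ)).infinite_compl
    rw [← h1, Polynomial.natDegree_mul (pow_ne_zero _ Polynomial.X_ne_zero) hP0,
      Polynomial.natDegree_X_pow] at hP'd
    omega
  have hQ0 : Q = 0 := by
    by_cases hjr : j + 2 ≤ r
    · apply lemmaZ Q (Finset.univ.map Function.Embedding.inr) N (r - (j + 2))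
      · rw [Finset.card_map, Finset.card_univ, Fintype.card_fin]
        omega
      · intro ζ hζ
        -- choose `N` of the lines in the pencil
        have h1 : N ≤ (Finset.univ.filter (fun i : Fin m => ζ (Sum.inr i) = 0)).card := by
          refine hζ.trans ?_
          rw [Finset.filter_map, Finset.card_map]
          exact le_refl _
        obtain ⟨I, hI, hIN⟩ := Finset.exists_subset_card_eq h1
        have hI0 : ∀ i ∈ I, ζ (Sum.inr i) = 0 := fun i hi => (Finset.mem_filter.1 (hI hi)).2
        rw [hQ']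
        have hprod : ∏ i, (lin p q (e i) + ζ (Sum.inr i) • ze i) =
            Lam p q (I.val.map e) *
              (Multiset.map (fun i => lin p q (e i) + ζ (Sum.inr i) • ze i) Iᶜ.val).prod := by
          rw [← Finset.prod_mul_prod_compl I]
          congr 1
          rw [Lam, Multiset.map_map]
          apply Finset.prod_congr rfl
          intro i hi
          rw [hI0 i hi, zero_smul, add_zero]
          rfl
        rw [hprod]
        apply stepC (L := L) hN hk hD (mem_p p q Z) (mem_q p q Z) v
          (Multiset.map (fun i => lin p q (s i) + ζ (Sum.inl i) • zs i) Finset.univ.val)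
          (Multiset.map (fun i => lin p q (e i) + ζ (Sum.inr i) • ze i) Iᶜ.val) hv
          (by rw [Multiset.card_map]; simp) _ hvL
        · intro z hz
          obtain ⟨i, -, rfl⟩ := Multiset.mem_map.1 hz
          exact hmemS _ i
        · intro z hz
          obtain ⟨i, -, rfl⟩ := Multiset.mem_map.1 hz
          exact hmemE _ i
        · rw [Multiset.card_map]
          exact hIN
        · exact Multiset.Nodup.map he I.nodup
        · rw [Multiset.card_map, Finset.card_val, Finset.card_compl, Fintype.card_fin, hIN]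
          have h2 := Finset.card_le_univ I
          rw [hIN, Fintype.card_fin] at h2
          omega
      · intro ζ
        obtain ⟨P, hPd, hP⟩ := hdeg ζ
        by_cases hP0 : P = 0
        · exact ⟨P, by rw [hP0]; simp, fun t _ => hP t⟩
        · exact ⟨P, by have := hPd hP0; omega, fun t _ => hP t⟩
    · apply MvPolynomial.funext
      intro ζ
      obtain ⟨P, hPd, hP⟩ := hdeg ζ
      have hP0 : P = 0 := by
        by_contra hne
        have := hPd hne
        omega
      have h1 := hP 1
      simp only [one_mul, hP0, Polynomial.eval_zero] at h1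
      rw [map_zero]
      exact h1.symm
  have hfin := hQ' (fun _ => 1)
  rw [hQ0, map_zero] at hfin
  simp only [one_smul] at hfin
  exact hfin.symm

end

end Vale.Agent.P181.H536
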