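import Vale.Agent.P181.MathlibUsed
import Mathlib.Algebra.MvPolynomial.PDeriv
import Mathlib.Algebra.MvPolynomial.NoZeroDivisors
import Mathlib.RingTheory.MvPolynomial.Symmetric.FundamentalTheorem
import Mathlib.RingTheory.MvPolynomial.Homogeneous

/-!
Dunkl operators with parameter `-1` on polynomials in finitely many variables.
-/

namespace Vale.Agent.P181.H536.Dk

open MvPolynomial

section basic

variable {σ : Type*} [DecidableEq σ] {K : Type*} [CommRing K]

/-- exchange of two variables -/
noncomputable def sw (i j : σ) : MvPolynomial σ K →ₐ[K] MvPolynomial σ K :=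
  rename (Equiv.swap i j)

theorem sw_X (i j l : σ) : sw (K := K) i j (X l) = X (Equiv.swap i j l) := by
  simp [sw]

theorem sw_C (i j : σ) (c : K) : sw (K := K) i j (C c) = C c := by
  simp [sw]

theorem sw_self (i : σ) (p : MvPolynomial σ K) : sw i i p = p := by
  simp [sw, Equiv.swap_self]

theorem sw_sw (i j : σ) (p : MvPolynomial σ K) : sw i j (sw i j p) = p := by
  simp only [sw, rename_rename]
  have : (⇑(Equiv.swap i j) ∘ ⇑(Equiv.swap i j)) = id := by
    funext x; simp
  rw [this, rename_id_apply]

theorem sw_comm (i j : σ) : sw (K := K) i j = sw j i := by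
  simp [sw, Equiv.swap_comm]

theorem sub_dvd (i j : σ) (p : MvPolynomial σ K) :
    (X i - X j : MvPolynomial σ K) ∣ p - sw i j p := by
  induction p using MvPolynomial.induction_on with
  | C a => simp [sw_C]
  | add p q hp hq =>
      have : p + q - sw i j (p + q) = (p - sw i j p) + (q - sw i j q) := by
        rw [map_add]; ring
      rw [this]; exact dvd_add hp hq
  | mul_X p l hp =>
      have h : p * X l - sw i j (p * X l)
          = (p - sw i j p) * X l + sw i j p * (X l - X (Equiv.swap i j l)) := by
        rw [map_mul, sw_X]; ring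
      rw [h]
      refine dvd_add (Dvd.dvd.mul_right hp _) (Dvd.dvd.mul_left ?_ _)
      by_cases h1 : l = i
      · subst h1; simp
      · by_cases h2 : l = j
        · subst h2
          rw [Equiv.swap_apply_right]
          exact ⟨-1, by ring⟩
        · rw [Equiv.swap_apply_of_ne_of_ne h1 h2]; simp

theorem rename_sw {τ : Type*} [DecidableEq τ] (e : σ ≃ τ) (i j : σ) (p : MvPolynomial σ K) :
    rename e (sw i j p) = sw (e i) (e j) (rename e p) := by
  simp only [sw, rename_rename]
  congr 2
  funext x
  simp only [Function.comp_apply, Equiv.swap_apply_def, EmbeddingLike.apply_eq_iff_eq]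
  split_ifs <;> rfl

theorem X_sub_ne [Nontrivial K] {i j : σ} (h : i ≠ j) :
    (X i - X j : MvPolynomial σ K) ≠ 0 := by
  intro h0
  exact h (MvPolynomial.X_injective (sub_eq_zero.mp h0))

end basic

section dd

variable {σ : Type*} [DecidableEq σ] {K : Type*} [CommRing K] [IsDomain K]

/-- divided difference (zero if `i = j`) -/
noncomputable def dd (i j : σ) (p : MvPolynomial σ K) : MvPolynomial σ K :=
  if i = j then 0 else Classical.choose (sub_dvd i j p)

theorem dd_self (i : σ) (p : MvPolynomial σ K) : dd i i p = 0 := by simp [dd]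

theorem dd_spec (i j : σ) (p : MvPolynomial σ K) :
    (X i - X j) * dd i j p = p - sw i j p := by
  by_cases h : i = j
  · subst h; simp [sw_self]
  · simp only [dd, if_neg h]
    exact (Classical.choose_spec (sub_dvd i j p)).symm

theorem dd_unique {i j : σ} (h : i ≠ j) {p q : MvPolynomial σ K}
    (hq : (X i - X j) * q = p - sw i j p) : dd i j p = q := by
  have := dd_spec i j p
  rw [← hq] at this
  exact mul_left_cancel₀ (X_sub_ne h) this

theorem dd_add (i j : σ) (p q : MvPolynomial σ K) : dd i j (p + q) = dd i j p + dd i j q := by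
  by_cases h : i = j
  · subst h; simp [dd_self]
  · apply dd_unique h
    rw [mul_add, dd_spec, dd_spec, map_add]; ring

theorem dd_smul (i j : σ) (c : K) (p : MvPolynomial σ K) : dd i j (c • p) = c • dd i j p := by
  by_cases h : i = j
  · subst h; simp [dd_self]
  · apply dd_unique h
    rw [mul_smul_comm, dd_spec, map_smul, smul_sub]

theorem dd_mul (i j : σ) (p q : MvPolynomial σ K) :
    dd i j (p * q) = dd i j p * q + sw i j p * dd i j q := by
  by_cases h : i = j
  · subst h; simp [dd_self]
  · apply dd_unique h
    have h1 := dd_spec i j p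
    have h2 := dd_spec i j q
    rw [map_mul]
    linear_combination q * h1 + sw i j p * h2

theorem dd_of_sym {i j : σ} {p : MvPolynomial σ K} (h : sw i j p = p) : dd i j p = 0 := by
  by_cases hij : i = j
  · subst hij; exact dd_self _ _
  · apply dd_unique hij
    rw [h]; ring

theorem dd_X (i j l : σ) (p : MvPolynomial σ K) :
    dd i j (X l * p) = X l * dd i j p + dd i j (X l) * sw i j p := by
  rw [mul_comm (X l) p, dd_mul]; ring

theorem dd_X_left {i j : σ} (h : i ≠ j) : dd (K := K) i j (X i) = 1 := by
  apply dd_unique h
  rw [sw_X, Equiv.swap_apply_left]; ring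

theorem dd_X_right {i j : σ} (h : i ≠ j) : dd (K := K) i j (X j) = -1 := by
  apply dd_unique h
  rw [sw_X, Equiv.swap_apply_right]; ring

theorem dd_X_ne {i j l : σ} (h1 : l ≠ i) (h2 : l ≠ j) : dd (K := K) i j (X l) = 0 := by
  apply dd_of_sym
  rw [sw_X, Equiv.swap_apply_of_ne_of_ne h1 h2]

theorem dd_C (i j : σ) (c : K) : dd (K := K) i j (C c) = 0 := dd_of_sym (sw_C i j c)

theorem rename_dd {τ : Type*} [DecidableEq τ] (e : σ ≃ τ) (i j : σ) (p : MvPolynomial σ K) :
    rename e (dd i j p) = dd (e i) (e j) (rename e p) := by
  by_cases h : i = j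
  · subst h; simp [dd_self]
  · have h' : e i ≠ e j := fun hh => h (e.injective hh)
    symm
    apply dd_unique h'
    have := congrArg (rename (R := K) e) (dd_spec i j p)
    simp only [map_mul, map_sub, rename_X, rename_sw] at this
    exact this

end dd

section T

variable {σ : Type*} [Fintype σ] [DecidableEq σ] {K : Type*} [CommRing K] [IsDomain K]

/-- the Dunkl operator (parameter `-1`) -/
noncomputable def T (i : σ) : Module.End K (MvPolynomial σ K) where
  toFun p := pderiv i p - ∑ j, dd i j p
  map_add' p q := by
    simp only [map_add, dd_add, Finset.sum_add_distrib]; ring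
  map_smul' c p := by
    simp only [Derivation.map_smul, dd_smul, ← Finset.smul_sum, smul_sub, RingHom.id_apply]

theorem T_apply (i : σ) (p : MvPolynomial σ K) : T i p = pderiv i p - ∑ j, dd i j p := rfl

theorem T_C (i : σ) (c : K) : T (K := K) i (C c) = 0 := by
  simp [T_apply, dd_C]

theorem T_one (i : σ) : T (K := K) i 1 = 0 := by
  rw [← C_1, T_C]

theorem T_X_ne {i l : σ} (h : l ≠ i) (p : MvPolynomial σ K) :
    T i (X l * p) = X l * T i p + sw i l p := by
  have h1 : ∑ j, dd i j (X l * p) = X l * ∑ j, dd i j p - sw i l p := by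
    rw [Finset.mul_sum]
    have : ∀ j, dd i j (X l * p) = X l * dd i j p + (if j = l then - sw i l p else 0) := by
      intro j
      rw [dd_X]
      by_cases hj : j = l
      · subst hj
        rw [if_pos rfl, dd_X_right (Ne.symm h)]; ring
      · rw [if_neg hj, dd_X_ne h (Ne.symm hj)]; ring
    simp only [this, Finset.sum_add_distrib, Finset.sum_ite_eq', Finset.mem_univ, if_true]
    ring
  rw [T_apply, T_apply, h1, Derivation.leibniz, pderiv_X_of_ne h]
  simp only [smul_eq_mul]
  ring

theorem T_X_self (i : σ) (p : MvPolynomial σ K) :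
    T i (X i * p) = X i * T i p + p - ∑ j ∈ Finset.univ.erase i, sw i j p := by
  have h1 : ∑ j, dd i j (X i * p) = X i * ∑ j, dd i j p + ∑ j ∈ Finset.univ.erase i, sw i j p := by
    rw [Finset.mul_sum]
    have : ∀ j, dd i j (X i * p) = X i * dd i j p + (if j = i then 0 else sw i j p) := by
      intro j
      by_cases hj : j = i
      · subst hj
        simp [dd_self]
      · rw [dd_X, if_neg hj, dd_X_left (Ne.symm hj)]; ring
    simp only [this, Finset.sum_add_distrib]
    congr 1
    rw [Finset.sum_ite, Finset.sum_const_zero, zero_add]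
    apply Finset.sum_congr _ (fun _ _ => rfl)
    ext j; simp
  rw [T_apply, T_apply, h1, Derivation.leibniz, pderiv_X_self]
  simp only [smul_eq_mul]
  ring

theorem rename_T {τ : Type*} [Fintype τ] [DecidableEq τ] (e : σ ≃ τ) (i : σ)
    (p : MvPolynomial σ K) : rename e (T i p) = T (e i) (rename e p) := by
  rw [T_apply, T_apply, map_sub, map_sum, pderiv_rename e.injective]
  congr 1
  rw [← Equiv.sum_comp e]
  exact Finset.sum_congr rfl fun j _ => rename_dd e i j p

theorem sw_T (i j l : σ) (p : MvPolynomial σ K) :
    sw i j (T l p) = T (Equiv.swap i j l) (sw i j p) :=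
  rename_T (Equiv.swap i j) l p

theorem T_comm_apply (i j : σ) (p : MvPolynomial σ K) : T i (T j p) = T j (T i p) := by
  by_cases hij : i = j
  · subst hij; rfl
  induction p using MvPolynomial.induction_on with
  | C a => rw [T_C, T_C, map_zero, map_zero]
  | add p q hp hq => simp only [map_add, hp, hq]
  | mul_X p l hp =>
      have key : ∀ i j : σ, i ≠ j → ∀ p : MvPolynomial σ K, T i (T j p) = T j (T i p) →
          T i (T j (X i * p)) = T j (T i (X i * p)) := by
        intro i j hij p hp
        have hji : j ≠ i := Ne.symm hij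
        rw [T_X_ne hij, T_X_self i p, map_add, T_X_self i (T j p), map_sub, map_add, T_X_ne hij,
          map_sum]
        have e1 : T i (sw j i p) = sw j i (T j p) := by
          rw [sw_T, Equiv.swap_apply_left]
        have e2 : ∑ k ∈ Finset.univ.erase i, T j (sw i k p)
            = (∑ k ∈ Finset.univ.erase i, sw i k (T j p)) - sw i j (T j p) + sw i j (T i p) := by
          have hm : j ∈ Finset.univ.erase i := by simp [hji]
          rw [← Finset.add_sum_erase _ _ hm, ← Finset.add_sum_erase _ (fun k => sw i k (T j p)) hm]
          have : ∀ k ∈ (Finset.univ.erase i).erase j, T j (sw i k p) = sw i k (T j p) := by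
            intro k hk
            simp only [Finset.mem_erase, Finset.mem_univ, and_true] at hk
            rw [sw_T, Equiv.swap_apply_of_ne_of_ne hji (Ne.symm hk.1)]
          rw [Finset.sum_congr rfl this, sw_T i j i, Equiv.swap_apply_left]
          ring
        rw [e1, e2, hp, sw_comm j i]
        ring
      rw [mul_comm p (X l)]
      by_cases h1 : l = i
      · subst h1; exact key l j hij p hp
      by_cases h2 : l = j
      · subst h2; exact (key l i (Ne.symm hij) p hp.symm).symm
      · rw [T_X_ne h2, T_X_ne h1, map_add, map_add, T_X_ne h1, T_X_ne h2, hp, sw_T, sw_T,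
          Equiv.swap_apply_of_ne_of_ne hij (Ne.symm h1),
          Equiv.swap_apply_of_ne_of_ne (Ne.symm hij) (Ne.symm h2)]
        ring

theorem T_comm (i j : σ) : T (K := K) i * T j = T j * T i :=
  LinearMap.ext fun p => T_comm_apply i j p

/-- symmetric polynomials -/
def Sym (p : MvPolynomial σ K) : Prop := ∀ i j : σ, sw i j p = p

theorem T_of_sym {i : σ} {s : MvPolynomial σ K} (hs : ∀ j, sw i j s = s) :
    T i s = pderiv i s := by
  rw [T_apply, Finset.sum_eq_zero (fun j _ => dd_of_sym (hs j)), sub_zero]

theorem T_sym_mul {i : σ} {s : MvPolynomial σ K} (hs : ∀ j, sw i j s = s)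
    (p : MvPolynomial σ K) : T i (s * p) = s * T i p + pderiv i s * p := by
  rw [T_apply, T_apply]
  have : ∀ j, dd i j (s * p) = s * dd i j p := by
    intro j
    rw [dd_mul, dd_of_sym (hs j), hs j]; ring
  rw [Finset.sum_congr rfl (fun j _ => this j), ← Finset.mul_sum, Derivation.leibniz]
  simp only [smul_eq_mul]
  ring

theorem dd_antisym (i j : σ) (p : MvPolynomial σ K) : dd i j p = - dd j i p := by
  by_cases h : i = j
  · subst h; simp [dd_self]
  · apply dd_unique h
    have := dd_spec j i p
    rw [sw_comm j i] at this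
    linear_combination this

theorem sum_T (p : MvPolynomial σ K) : ∑ i, T i p = ∑ i, pderiv i p := by
  simp only [T_apply, Finset.sum_sub_distrib]
  have h : ∑ i : σ, ∑ j : σ, dd i j p = 0 := by
    have h2 : ∑ i : σ, ∑ j : σ, dd i j p = ∑ i : σ, ∑ j : σ, dd j i p := Finset.sum_comm
    have h3 : ∀ i j : σ, i = j ∨ dd i j p + dd j i p = 0 := fun i j => Or.inr (by
      rw [dd_antisym]; ring)
    -- use off-diagonal involution
    rw [← Finset.sum_product']
    apply Finset.sum_involution (fun x _ => (x.2, x.1))
    · intro a _
      rw [dd_antisym]; ring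
    · intro a _ hne heq
      apply hne
      have : a.1 = a.2 := by
        have := congrArg Prod.snd heq
        simpa using this
      rw [this, dd_self]
    · intro a _; simp
    · intro a _; rfl
  rw [h, sub_zero]

end T

end Vale.Agent.P181.H536.Dk
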