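import Vale.Agent.P181.H536.Dk1

/-!
Evaluation of polynomials at the Dunkl operators, degree bounds, and the coefficient of the top
power of one variable.
-/

namespace Vale.Agent.P181.H536.Dk

open MvPolynomial

section ev

variable {σ : Type*} [Fintype σ] [DecidableEq σ] {K : Type*} [CommRing K] [IsDomain K]

theorem exists_ev : ∃ φ : MvPolynomial σ K →ₐ[K] Module.End K (MvPolynomial σ K),
    ∀ i, φ (X i) = T i := by
  have hc : ∀ x ∈ Set.range (T (σ := σ) (K := K)), ∀ y ∈ Set.range (T (σ := σ) (K := K)),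
      x * y = y * x := by
    rintro _ ⟨i, rfl⟩ _ ⟨j, rfl⟩
    exact T_comm i j
  haveI := Algebra.isMulCommutative_adjoin K hc
  letI : CommSemiring (Algebra.adjoin K (Set.range (T (σ := σ) (K := K)))) :=
    { (inferInstance : Semiring (Algebra.adjoin K (Set.range (T (σ := σ) (K := K))))) with
      mul_comm := fun a b => mul_comm' a b }
  refine ⟨(Algebra.adjoin K (Set.range (T (σ := σ) (K := K)))).val.comp
    (aeval fun i => ⟨T i, Algebra.subset_adjoin ⟨i, rfl⟩⟩), fun i => ?_⟩
  simp

/-- evaluation at the Dunkl operators -/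
noncomputable def evT : MvPolynomial σ K →ₐ[K] Module.End K (MvPolynomial σ K) :=
  Classical.choose exists_ev

theorem evT_X (i : σ) : evT (K := K) (X i) = T i := Classical.choose_spec exists_ev i

theorem evT_X_mul (i : σ) (q p : MvPolynomial σ K) : evT (X i * q) p = T i (evT q p) := by
  rw [map_mul, evT_X]; rfl

theorem evT_mul (a q p : MvPolynomial σ K) : evT (a * q) p = evT a (evT q p) := by
  rw [map_mul]; rfl

theorem evT_comm (a q p : MvPolynomial σ K) : evT a (evT q p) = evT q (evT a p) := by
  rw [← evT_mul, mul_comm, evT_mul]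

theorem evT_mul_X (i : σ) (q p : MvPolynomial σ K) : evT (q * X i) p = evT q (T i p) := by
  rw [map_mul, evT_X]; rfl

theorem evT_C (c : K) (p : MvPolynomial σ K) : evT (C c) p = c • p := by
  have : (C c : MvPolynomial σ K) = algebraMap K _ c := rfl
  rw [this, AlgHom.commutes]; rfl

theorem evT_one (p : MvPolynomial σ K) : evT 1 p = p := by
  rw [map_one]; rfl

theorem rename_evT {τ : Type*} [Fintype τ] [DecidableEq τ] (e : σ ≃ τ)
    (q p : MvPolynomial σ K) : rename e (evT q p) = evT (rename e q) (rename e p) := by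
  induction q using MvPolynomial.induction_on generalizing p with
  | C a => rw [evT_C, rename_C, evT_C, map_smul]
  | add q q' hp hq => simp only [map_add, LinearMap.add_apply, hp, hq]
  | mul_X q l hq => rw [evT_mul_X, hq, map_mul, rename_X, evT_mul_X, rename_T]

theorem sw_evT (i j : σ) (q p : MvPolynomial σ K) :
    sw i j (evT q p) = evT (sw i j q) (sw i j p) := rename_evT _ q p

end ev

section deg

variable {σ : Type*} [Fintype σ] [DecidableEq σ] {K : Type*} [CommRing K] [IsDomain K]

theorem degreeOf_sub_le' (l : σ) (p q : MvPolynomial σ K) :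
    degreeOf l (p - q) ≤ max (degreeOf l p) (degreeOf l q) := degreeOf_sub_le l p q

theorem degreeOf_sw (i j l : σ) (p : MvPolynomial σ K) :
    degreeOf l (sw i j p) = degreeOf (Equiv.swap i j l) p := by
  have := degreeOf_rename_of_injective (p := p) (Equiv.swap i j).injective (Equiv.swap i j l)
  rw [Equiv.swap_apply_self] at this
  exact this

theorem degreeOf_dd_le {M : ℕ} {p : MvPolynomial σ K} (hp : ∀ l, degreeOf l p ≤ M) (i j l : σ) :
    degreeOf l (dd i j p) ≤ M := by
  by_cases h : i = j
  · subst h; simp [dd_self]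
  by_cases h0 : dd i j p = 0
  · simp [h0]
  have h1 := degreeOf_mul_eq (n := l) (X_sub_ne (K := K) h) h0
  rw [dd_spec] at h1
  have h2 := degreeOf_sub_le' l p (sw i j p)
  rw [degreeOf_sw] at h2
  have h3 := hp l
  have h4 := hp (Equiv.swap i j l)
  omega

theorem degreeOf_X_sub {i j : σ} (h : i ≠ j) : degreeOf i (X i - X j : MvPolynomial σ K) = 1 := by
  apply le_antisymm
  · refine (degreeOf_sub_le i _ _).trans ?_
    rw [degreeOf_X_self, degreeOf_X_of_ne h]; simp
  · by_contra hlt
    have h0 : degreeOf i (X i - X j : MvPolynomial σ K) = 0 := by omega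
    have hX : (X i : MvPolynomial σ K) = (X i - X j) + X j := by ring
    have := degreeOf_add_le i (X i - X j : MvPolynomial σ K) (X j)
    rw [← hX, h0, degreeOf_X_self, degreeOf_X_of_ne h] at this
    simp at this

theorem degreeOf_dd_lt {M : ℕ} {p : MvPolynomial σ K} (hp : ∀ l, degreeOf l p ≤ M) (i j : σ)
    (h0 : dd i j p ≠ 0) : degreeOf i (dd i j p) < M := by
  by_cases h : i = j
  · subst h; exact absurd (dd_self i p) h0
  have h1 := degreeOf_mul_eq (n := i) (X_sub_ne (K := K) h) h0
  rw [dd_spec, degreeOf_X_sub h] at h1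
  have h2 := degreeOf_sub_le' i p (sw i j p)
  rw [degreeOf_sw] at h2
  have h3 := hp i
  have h4 := hp (Equiv.swap i j i)
  omega

theorem degreeOf_dd_lt' {M : ℕ} {p : MvPolynomial σ K} (hp : ∀ l, degreeOf l p ≤ M) (i j : σ)
    (h0 : dd i j p ≠ 0) : degreeOf j (dd i j p) < M := by
  have h1 : dd j i p ≠ 0 := by
    intro h; apply h0; rw [dd_antisym, h, neg_zero]
  rw [dd_antisym, degreeOf_neg]
  exact degreeOf_dd_lt hp j i h1

theorem degreeOf_pderiv_le (i l : σ) (p : MvPolynomial σ K) :
    degreeOf l (pderiv i p) ≤ degreeOf l p := by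
  rw [degreeOf_le_iff]
  intro m hm
  rw [mem_support_iff, coeff_pderiv] at hm
  have h1 : m + Finsupp.single i 1 ∈ p.support := by
    rw [mem_support_iff]; intro h; rw [h, zero_mul] at hm; exact hm rfl
  have := degreeOf_le_iff.mp (le_refl (degreeOf l p)) _ h1
  have h2 : m l ≤ (m + Finsupp.single i 1 : σ →₀ ℕ) l := by simp
  omega

theorem degreeOf_pderiv_lt (i : σ) (p : MvPolynomial σ K) (h0 : pderiv i p ≠ 0) :
    degreeOf i (pderiv i p) < degreeOf i p := by
  obtain ⟨m, hm⟩ := (MvPolynomial.support_nonempty).mpr h0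
  have hpos : 0 < degreeOf i p := by
    rw [mem_support_iff, coeff_pderiv] at hm
    have h1 : m + Finsupp.single i 1 ∈ p.support := by
      rw [mem_support_iff]; intro h; rw [h, zero_mul] at hm; exact hm rfl
    have := degreeOf_le_iff.mp (le_refl (degreeOf i p)) _ h1
    have h2 : m i + 1 = (m + Finsupp.single i 1 : σ →₀ ℕ) i := by simp
    omega
  rw [degreeOf_lt_iff hpos]
  intro m hm
  rw [mem_support_iff, coeff_pderiv] at hm
  have h1 : m + Finsupp.single i 1 ∈ p.support := by
    rw [mem_support_iff]; intro h; rw [h, zero_mul] at hm; exact hm rfl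
  have := degreeOf_le_iff.mp (le_refl (degreeOf i p)) _ h1
  have h2 : m i + 1 = (m + Finsupp.single i 1 : σ →₀ ℕ) i := by simp
  omega

theorem degreeOf_sum_le' {ι : Type*} (s : Finset ι) (l : σ) (g : ι → MvPolynomial σ K) {M : ℕ}
    (h : ∀ j ∈ s, degreeOf l (g j) ≤ M) : degreeOf l (∑ j ∈ s, g j) ≤ M := by
  classical
  induction s using Finset.induction_on with
  | empty => simp
  | insert a s ha ih =>
      rw [Finset.sum_insert ha]
      refine (degreeOf_add_le l _ _).trans (max_le (h a (by simp)) (ih fun j hj => h j ?_))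
      simp [hj]

theorem degreeOf_T_le {M : ℕ} {p : MvPolynomial σ K} (hp : ∀ l, degreeOf l p ≤ M) (i l : σ) :
    degreeOf l (T i p) ≤ M := by
  rw [T_apply]
  refine (degreeOf_sub_le' l _ _).trans (max_le ((degreeOf_pderiv_le i l p).trans (hp l)) ?_)
  exact degreeOf_sum_le' _ l _ fun j _ => degreeOf_dd_le hp i j l

theorem degreeOf_evT_le {M : ℕ} (q : MvPolynomial σ K) {p : MvPolynomial σ K}
    (hp : ∀ l, degreeOf l p ≤ M) (l : σ) : degreeOf l (evT q p) ≤ M := by
  induction q using MvPolynomial.induction_on generalizing p l with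
  | C a =>
      rw [evT_C, smul_eq_C_mul]
      refine (degreeOf_C_mul_le _ _ _).trans (hp l)
  | add q q' hq hq' =>
      rw [map_add, LinearMap.add_apply]
      exact (degreeOf_add_le l _ _).trans (max_le (hq hp l) (hq' hp l))
  | mul_X q j hq =>
      rw [evT_mul_X]
      exact hq (fun l => degreeOf_T_le hp j l) l

end deg

section tc

variable {N : ℕ} {K : Type*} [CommRing K]

/-- coefficient of `X_0 ^ M` -/
noncomputable def tc (M : ℕ) : MvPolynomial (Fin (N + 1)) K →ₗ[K] MvPolynomial (Fin N) K where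
  toFun p := (finSuccEquiv K N p).coeff M
  map_add' p q := by rw [map_add, Polynomial.coeff_add]
  map_smul' c p := by rw [map_smul, Polynomial.coeff_smul, RingHom.id_apply]

theorem tc_apply (M : ℕ) (p : MvPolynomial (Fin (N + 1)) K) :
    tc M p = (finSuccEquiv K N p).coeff M := rfl

theorem finSuccEquiv_C' (a : K) :
    finSuccEquiv K N (C a) = Polynomial.C (C a) := by
  simp [finSuccEquiv_apply]

theorem finSuccEquiv_rename_succ' (a : MvPolynomial (Fin N) K) :
    finSuccEquiv K N (rename Fin.succ a) = Polynomial.C a := by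
  induction a using MvPolynomial.induction_on with
  | C a =>
      rw [rename_C, finSuccEquiv_C']
  | add p q hp hq => rw [map_add, map_add, hp, hq, map_add]
  | mul_X p l hp => rw [map_mul, map_mul, hp, rename_X, finSuccEquiv_X_succ, map_mul]

theorem tc_rename_mul (M : ℕ) (a : MvPolynomial (Fin N) K) (p : MvPolynomial (Fin (N + 1)) K) :
    tc M (rename Fin.succ a * p) = a * tc M p := by
  rw [tc_apply, map_mul, finSuccEquiv_rename_succ', Polynomial.coeff_C_mul, tc_apply]

theorem tc_X_succ_mul (M : ℕ) (i : Fin N) (p : MvPolynomial (Fin (N + 1)) K) :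
    tc M (X i.succ * p) = X i * tc M p := by
  rw [← tc_rename_mul, rename_X]

theorem finSuccEquiv_sw (i j : Fin N) (p : MvPolynomial (Fin (N + 1)) K) :
    finSuccEquiv K N (sw i.succ j.succ p)
      = Polynomial.map (sw i j : MvPolynomial (Fin N) K →ₐ[K] _).toRingHom (finSuccEquiv K N p) := by
  induction p using MvPolynomial.induction_on with
  | C a =>
      rw [sw_C, finSuccEquiv_C', Polynomial.map_C]
      simp [sw_C]
  | add p q hp hq => simp only [map_add, hp, hq, Polynomial.map_add]
  | mul_X p l hp =>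
      rw [map_mul, map_mul, hp, map_mul, Polynomial.map_mul, sw_X]
      congr 1
      refine Fin.cases ?_ (fun l => ?_) l
      · rw [Equiv.swap_apply_of_ne_of_ne (Fin.succ_ne_zero i).symm (Fin.succ_ne_zero j).symm,
          finSuccEquiv_X_zero, Polynomial.map_X]
      · rw [finSuccEquiv_X_succ, Polynomial.map_C]
        have : Equiv.swap i.succ j.succ l.succ = (Equiv.swap i j l).succ := by
          simp only [Equiv.swap_apply_def, Fin.succ_inj]
          split_ifs <;> rfl
        rw [this, finSuccEquiv_X_succ]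
        simp [sw_X]

theorem tc_sw (M : ℕ) (i j : Fin N) (p : MvPolynomial (Fin (N + 1)) K) :
    tc M (sw i.succ j.succ p) = sw i j (tc M p) := by
  rw [tc_apply, finSuccEquiv_sw, Polynomial.coeff_map]; rfl

theorem tc_pderiv (M : ℕ) (i : Fin N) (p : MvPolynomial (Fin (N + 1)) K) :
    tc M (pderiv i.succ p) = pderiv i (tc M p) := by
  ext m
  rw [coeff_pderiv, tc_apply, tc_apply, finSuccEquiv_coeff_coeff, finSuccEquiv_coeff_coeff,
    coeff_pderiv]
  have : m.cons M + Finsupp.single i.succ 1 = (m + Finsupp.single i 1).cons M := by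
    ext l
    refine Fin.cases ?_ (fun l => ?_) l
    · simp
    · simp [Finsupp.single_apply]
  rw [this]; simp

theorem tc_zero_of_lt {M : ℕ} {p : MvPolynomial (Fin (N + 1)) K} (h : degreeOf 0 p < M) :
    tc M p = 0 := by
  rw [tc_apply]
  apply Polynomial.coeff_eq_zero_of_natDegree_lt
  rw [natDegree_finSuccEquiv]; exact h

variable [IsDomain K]

theorem tc_dd (M : ℕ) (i j : Fin N) (p : MvPolynomial (Fin (N + 1)) K) :
    tc M (dd i.succ j.succ p) = dd i j (tc M p) := by
  by_cases h : i = j
  · subst h; simp [dd_self]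
  · symm
    apply dd_unique h
    have := congrArg (tc M) (dd_spec i.succ j.succ p)
    rw [sub_mul, map_sub, map_sub, tc_X_succ_mul, tc_X_succ_mul, tc_sw] at this
    rw [sub_mul]; exact this

theorem tc_T_succ {M : ℕ} {p : MvPolynomial (Fin (N + 1)) K} (hp : ∀ l, degreeOf l p ≤ M)
    (i : Fin N) : tc M (T i.succ p) = T i (tc M p) := by
  rw [T_apply, T_apply, map_sub, map_sum, Fin.sum_univ_succ, tc_pderiv]
  have h0 : tc M (dd i.succ 0 p) = 0 := by
    by_cases h : dd i.succ 0 p = 0
    · rw [h, map_zero]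
    · exact tc_zero_of_lt (degreeOf_dd_lt' hp _ _ h)
  rw [h0, zero_add]
  congr 1
  exact Finset.sum_congr rfl fun j _ => tc_dd M i j p

theorem tc_T_zero {M : ℕ} {p : MvPolynomial (Fin (N + 1)) K} (hp : ∀ l, degreeOf l p ≤ M) :
    tc M (T 0 p) = 0 := by
  rw [T_apply, map_sub, map_sum, Finset.sum_eq_zero, sub_zero]
  · by_cases h : pderiv 0 p = 0
    · rw [h, map_zero]
    · exact tc_zero_of_lt ((degreeOf_pderiv_lt 0 p h).trans_le (hp 0))
  · intro j _
    by_cases h : dd 0 j p = 0
    · rw [h, map_zero]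
    · exact tc_zero_of_lt (degreeOf_dd_lt hp _ _ h)

/-- set `X_0 = 0` -/
noncomputable def ev0 : MvPolynomial (Fin (N + 1)) K →ₐ[K] MvPolynomial (Fin N) K :=
  aeval (Fin.cases 0 X)

theorem tc_evT {M : ℕ} (q : MvPolynomial (Fin (N + 1)) K) {p : MvPolynomial (Fin (N + 1)) K}
    (hp : ∀ l, degreeOf l p ≤ M) : tc M (evT q p) = evT (ev0 q) (tc M p) := by
  induction q using MvPolynomial.induction_on generalizing p with
  | C a =>
      rw [evT_C, map_smul]
      have : (ev0 (C a) : MvPolynomial (Fin N) K) = C a := by simp [ev0]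
      rw [this, evT_C]
  | add q q' hq hq' =>
      rw [map_add, LinearMap.add_apply, map_add, hq hp, hq' hp, map_add, map_add,
        LinearMap.add_apply]
  | mul_X q j hq =>
      rw [evT_mul_X, hq (fun l => degreeOf_T_le hp j l)]
      refine Fin.cases ?_ (fun j => ?_) j
      · rw [tc_T_zero hp, map_zero]
        have : (ev0 (q * X 0) : MvPolynomial (Fin N) K) = 0 := by simp [ev0]
        rw [this, map_zero]; rfl
      · rw [tc_T_succ hp]
        have : (ev0 (q * X j.succ) : MvPolynomial (Fin N) K) = ev0 q * X j := by simp [ev0]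
        rw [this, evT_mul_X]

omit [IsDomain K] in
theorem multiset_esymm_zero_cons (s : Multiset (MvPolynomial (Fin N) K)) (k : ℕ) :
    Multiset.esymm (0 ::ₘ s) k = s.esymm k := by
  cases k with
  | zero => simp [Multiset.esymm]
  | succ k =>
      simp only [Multiset.esymm, Multiset.powersetCard_cons, Multiset.map_add, Multiset.sum_add,
        Multiset.map_map, Function.comp_apply, Multiset.prod_cons, zero_mul]
      simp

omit [IsDomain K] in
theorem ev0_esymm (k : ℕ) :
    ev0 (esymm (Fin (N + 1)) K k) = esymm (Fin N) K k := by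
  rw [ev0, aeval_esymm_eq_multiset_esymm]
  have : (Finset.univ : Finset (Fin (N + 1))).val.map
      (Fin.cases (0 : MvPolynomial (Fin N) K) X)
      = 0 ::ₘ (Finset.univ : Finset (Fin N)).val.map X := by
    rw [Fin.univ_succ]
    simp [Multiset.map_map, Function.comp_def]
  rw [this, multiset_esymm_zero_cons, ← aeval_esymm_eq_multiset_esymm (Fin N) K k,
    aeval_X_left_apply]

theorem tc_evT_esymm {M : ℕ} {p : MvPolynomial (Fin (N + 1)) K}
    (hp : ∀ l, degreeOf l p ≤ M) (k : ℕ) :
    tc M (evT (esymm (Fin (N + 1)) K k) p) = evT (esymm (Fin N) K k) (tc M p) := by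
  rw [tc_evT _ hp, ev0_esymm]

end tc

end Vale.Agent.P181.H536.Dk
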