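import Vale.Agent.P181.H536.Dk2

/-!
The pairing `[q, p] = (q(T) p)(0)`; total degrees; symmetrisation.
-/

namespace Vale.Agent.P181.H536.Dk

open MvPolynomial

section pairing

variable {σ : Type*} [Fintype σ] [DecidableEq σ] {K : Type*} [CommRing K] [IsDomain K]

/-- `[q, p] = (q(T) p)(0)` -/
noncomputable def pr (q p : MvPolynomial σ K) : K := constantCoeff (evT q p)

theorem pr_add_left (q q' p : MvPolynomial σ K) : pr (q + q') p = pr q p + pr q' p := by
  simp [pr]

theorem pr_sub_left (q q' p : MvPolynomial σ K) : pr (q - q') p = pr q p - pr q' p := by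
  simp [pr]

theorem pr_add_right (q p p' : MvPolynomial σ K) : pr q (p + p') = pr q p + pr q p' := by
  simp [pr]

theorem pr_sub_right (q p p' : MvPolynomial σ K) : pr q (p - p') = pr q p - pr q p' := by
  simp [pr]

theorem pr_sum_left {ι : Type*} (s : Finset ι) (q : ι → MvPolynomial σ K) (p : MvPolynomial σ K) :
    pr (∑ i ∈ s, q i) p = ∑ i ∈ s, pr (q i) p := by
  simp [pr, map_sum, LinearMap.sum_apply]

theorem pr_sum_right {ι : Type*} (s : Finset ι) (p : MvPolynomial σ K) (q : ι → MvPolynomial σ K) :
    pr p (∑ i ∈ s, q i) = ∑ i ∈ s, pr p (q i) := by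
  simp [pr, map_sum]

theorem pr_X_mul (i : σ) (q p : MvPolynomial σ K) : pr (X i * q) p = pr q (T i p) := by
  rw [pr, mul_comm, evT_mul_X, pr]

theorem constantCoeff_rename' {τ : Type*} (e : σ → τ) (p : MvPolynomial σ K) :
    constantCoeff (rename e p) = constantCoeff p := by
  simp

theorem pr_rename (e : σ ≃ σ) (q p : MvPolynomial σ K) :
    pr (rename e q) (rename e p) = pr q p := by
  rw [pr, ← rename_evT, constantCoeff_rename', pr]

theorem pr_sw (i j : σ) (q p : MvPolynomial σ K) : pr (sw i j q) p = pr q (sw i j p) := by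
  have := pr_rename (Equiv.swap i j) q (sw i j p)
  rw [← this]
  congr 1
  exact (sw_sw i j p).symm

theorem pr_T (i : σ) (q p : MvPolynomial σ K) : pr (T i q) p = pr q (X i * p) := by
  induction q using MvPolynomial.induction_on generalizing i p with
  | C a =>
      rw [T_C, pr, map_zero, pr, evT_C]
      simp
  | add q q' hq hq' => rw [map_add, pr_add_left, hq, hq', pr_add_left]
  | mul_X q l hq =>
      rw [mul_comm q (X l)]
      by_cases h : l = i
      · subst h
        rw [T_X_self, pr_sub_left, pr_add_left, pr_X_mul, hq, pr_sum_left, pr_X_mul, T_X_self,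
          pr_sub_right, pr_add_right, pr_sum_right]
        congr 1
        exact Finset.sum_congr rfl fun j _ => pr_sw l j q p
      · rw [T_X_ne h, pr_add_left, pr_X_mul, hq, pr_X_mul, T_X_ne (Ne.symm h), pr_add_right, pr_sw,
          sw_comm]

theorem evT_apply_one (p : MvPolynomial σ K) : evT p 1 = C (constantCoeff p) := by
  induction p using MvPolynomial.induction_on with
  | C a => rw [evT_C]; simp [smul_eq_C_mul]
  | add q q' hq hq' => rw [map_add, LinearMap.add_apply, hq, hq']; simp
  | mul_X q l _ => rw [evT_mul_X, T_one]; simp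

theorem pr_C_left (a : K) (p : MvPolynomial σ K) : pr (C a) p = a * constantCoeff p := by
  rw [pr, evT_C]; simp

theorem pr_C_right (a : K) (p : MvPolynomial σ K) : pr p (C a) = a * constantCoeff p := by
  have : (C a : MvPolynomial σ K) = a • 1 := by simp [smul_eq_C_mul]
  rw [pr, this, map_smul, evT_apply_one]
  simp

theorem pr_comm (q p : MvPolynomial σ K) : pr q p = pr p q := by
  induction q using MvPolynomial.induction_on generalizing p with
  | C a => rw [pr_C_left, pr_C_right]
  | add q q' hq hq' => rw [pr_add_left, hq, hq', pr_add_right]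
  | mul_X q l hq =>
      rw [mul_comm q (X l), pr_X_mul, hq, pr_T]

end pairing

section total

variable {σ : Type*} [Fintype σ] [DecidableEq σ] {K : Type*} [CommRing K] [IsDomain K]

theorem totalDegree_X_sub {i j : σ} (h : i ≠ j) :
    1 ≤ totalDegree (X i - X j : MvPolynomial σ K) := by
  have := degreeOf_le_totalDegree (X i - X j : MvPolynomial σ K) i
  rw [degreeOf_X_sub h] at this
  exact this

theorem totalDegree_dd {d : ℕ} {p : MvPolynomial σ K} (hp : totalDegree p ≤ d + 1) (i j : σ) :
    totalDegree (dd i j p) ≤ d := by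
  by_cases h : i = j
  · subst h; simp [dd_self]
  by_cases h0 : dd i j p = 0
  · simp [h0]
  have h1 := totalDegree_mul_of_isDomain (X_sub_ne (K := K) h) h0
  rw [dd_spec] at h1
  have h2 := totalDegree_sub p (sw i j p)
  have h3 : totalDegree (sw i j p) ≤ totalDegree p := totalDegree_rename_le _ _
  have h4 := totalDegree_X_sub (K := K) h
  have h5 : max p.totalDegree (totalDegree (sw i j p)) ≤ d + 1 := max_le hp (h3.trans hp)
  omega

theorem totalDegree_pderiv' {d : ℕ} {p : MvPolynomial σ K} (hp : totalDegree p ≤ d + 1) (i : σ) :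
    totalDegree (pderiv i p) ≤ d := by
  rw [totalDegree]
  apply Finset.sup_le
  intro m hm
  rw [mem_support_iff, coeff_pderiv] at hm
  have h1 : m + Finsupp.single i 1 ∈ p.support := by
    rw [mem_support_iff]; intro h; rw [h, zero_mul] at hm; exact hm rfl
  have h2 := le_totalDegree h1
  rw [Finsupp.sum_add_index' (fun _ => rfl) (fun _ _ _ => rfl), Finsupp.sum_single_index rfl] at h2
  omega

theorem totalDegree_T {d : ℕ} {p : MvPolynomial σ K} (hp : totalDegree p ≤ d + 1) (i : σ) :
    totalDegree (T i p) ≤ d := by
  rw [T_apply]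
  refine (totalDegree_sub _ _).trans (max_le (totalDegree_pderiv' hp i) ?_)
  exact totalDegree_finsetSum_le fun j _ => totalDegree_dd hp i j

theorem totalDegree_T_le {d : ℕ} {p : MvPolynomial σ K} (hp : totalDegree p ≤ d) (i : σ) :
    totalDegree (T i p) ≤ d := totalDegree_T (hp.trans (Nat.le_succ d)) i

theorem totalDegree_evT_le {d : ℕ} (q : MvPolynomial σ K) {p : MvPolynomial σ K}
    (hp : totalDegree p ≤ d) : totalDegree (evT q p) ≤ d := by
  induction q using MvPolynomial.induction_on generalizing p with
  | C a =>
      rw [evT_C]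
      exact (totalDegree_smul_le a p).trans hp
  | add q q' hq hq' =>
      rw [map_add, LinearMap.add_apply]
      exact (totalDegree_add _ _).trans (max_le (hq hp) (hq' hp))
  | mul_X q j hq =>
      rw [evT_mul_X]
      exact hq (totalDegree_T_le hp j)

theorem totalDegree_evT_sub {d : ℕ} (q : MvPolynomial σ K) {p : MvPolynomial σ K}
    (hp : totalDegree p ≤ d + 1) : totalDegree (evT q p - constantCoeff q • p) ≤ d := by
  induction q using MvPolynomial.induction_on with
  | C a => rw [evT_C]; simp
  | add q q' hq hq' =>
      have : evT (q + q') p - constantCoeff (q + q') • p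
          = (evT q p - constantCoeff q • p) + (evT q' p - constantCoeff q' • p) := by
        rw [map_add, LinearMap.add_apply, map_add, add_smul]; ring
      rw [this]
      exact (totalDegree_add _ _).trans (max_le hq hq')
  | mul_X q j _ =>
      rw [evT_mul_X]
      have : constantCoeff (q * X j) = 0 := by simp
      rw [this, zero_smul, sub_zero]
      exact totalDegree_evT_le q (totalDegree_T hp j)

theorem totalDegree_evT_lt {d : ℕ} {q : MvPolynomial σ K} (hq : constantCoeff q = 0)
    {p : MvPolynomial σ K} (hp : totalDegree p ≤ d + 1) : totalDegree (evT q p) ≤ d := by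
  have := totalDegree_evT_sub q hp
  rwa [hq, zero_smul, sub_zero] at this

end total

section symm

variable {σ : Type*} [Fintype σ] [DecidableEq σ] {K : Type*} [Field K] [CharZero K]

theorem sum_rename_symm (q : MvPolynomial σ K) :
    (∑ e : Equiv.Perm σ, rename e q).IsSymmetric := by
  intro f
  rw [map_sum]
  simp only [rename_rename]
  have : ∀ e : Equiv.Perm σ, (⇑f ∘ ⇑e) = ⇑(f * e) := fun e => rfl
  simp only [this]
  exact Fintype.sum_equiv (Equiv.mulLeft f) _ _ (fun e => rfl)

theorem constantCoeff_esymm {k : ℕ} (hk : 1 ≤ k) : constantCoeff (esymm σ K k) = 0 := by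
  rw [esymm, map_sum]
  apply Finset.sum_eq_zero
  intro t ht
  rw [Finset.mem_powersetCard_univ] at ht
  have : t.Nonempty := by rw [← Finset.card_pos]; omega
  obtain ⟨i, hi⟩ := this
  rw [map_prod]
  exact Finset.prod_eq_zero hi (by simp)

theorem pr_symm_zero {g q : MvPolynomial σ K} (hg : g.IsSymmetric)
    (hk : ∀ k, 1 ≤ k → evT (esymm σ K k) g = 0) (hq : constantCoeff q = 0) : pr q g = 0 := by
  classical
  set Q := ∑ e : Equiv.Perm σ, rename e q with hQ
  have h1 : pr Q g = (Fintype.card (Equiv.Perm σ) : K) * pr q g := by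
    rw [hQ, pr_sum_left]
    have : ∀ e : Equiv.Perm σ, pr (rename e q) g = pr q g := by
      intro e
      have h := pr_rename e q g
      rw [hg e] at h
      exact h
    simp only [this, Finset.sum_const, Finset.card_univ, nsmul_eq_mul]
  obtain ⟨R, hR⟩ := esymmAlgHom_surjective (σ := σ) (R := K) (le_refl (Fintype.card σ))
    ⟨Q, sum_rename_symm q⟩
  have hR' : Q = aeval (fun i : Fin (Fintype.card σ) => esymm σ K (i + 1)) R := by
    rw [← esymmAlgHom_apply, hR]
  have key : ∀ R : MvPolynomial (Fin (Fintype.card σ)) K,
      evT (aeval (fun i : Fin (Fintype.card σ) => esymm σ K (i + 1)) R) g = constantCoeff R • g := by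
    intro R
    induction R using MvPolynomial.induction_on with
    | C a => simp [evT_C, MvPolynomial.algebraMap_eq]
    | add R R' h h' => rw [map_add, map_add, LinearMap.add_apply, h, h', map_add, add_smul]
    | mul_X R i _ =>
        rw [map_mul, aeval_X, evT_mul, hk _ (Nat.succ_pos _)]
        simp
  have hc : ∀ R : MvPolynomial (Fin (Fintype.card σ)) K,
      constantCoeff (aeval (fun i : Fin (Fintype.card σ) => esymm σ K (i + 1)) R)
        = constantCoeff R := by
    intro R
    induction R using MvPolynomial.induction_on with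
    | C a => simp [MvPolynomial.algebraMap_eq]
    | add R R' h h' => rw [map_add, map_add, h, h', map_add]
    | mul_X R i _ =>
        rw [map_mul, aeval_X, map_mul, constantCoeff_esymm (Nat.succ_pos _)]
        simp
  have h2 : pr Q g = 0 := by
    rw [pr, hR', key R]
    have : constantCoeff R = 0 := by
      rw [← hc R, ← hR', hQ, map_sum]
      apply Finset.sum_eq_zero
      intro e _
      rw [constantCoeff_rename', hq]
    rw [this]; simp
  rw [h1] at h2
  have h3 : (Fintype.card (Equiv.Perm σ) : K) ≠ 0 := by
    exact_mod_cast Fintype.card_ne_zero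
  exact (mul_eq_zero.mp h2).resolve_left h3

end symm

end Vale.Agent.P181.H536.Dk
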