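import Vale.Agent.P181.H536.Dk3

/-!
Elements killed by all `T_j`, `j ≠ 0`, and the two vanishing lemmas.
-/

namespace Vale.Agent.P181.H536.Dk

open MvPolynomial

theorem coeff_X_sub_C_pow' {R : Type*} [CommRing R] (r : R) (n k : ℕ) :
    ((Polynomial.X - Polynomial.C r) ^ n).coeff k = (-r) ^ (n - k) * (n.choose k : R) := by
  rw [sub_eq_add_neg, ← Polynomial.C_neg, Polynomial.coeff_X_add_C_pow]

section Bp

variable {σ : Type*} [Fintype σ] [DecidableEq σ] {K : Type*} [Field K] [CharZero K]

/-- `∏ (u - x_k)`, `k ∈ S` -/
noncomputable def Bp (S : Finset σ) : Polynomial (MvPolynomial σ K) :=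
  ∏ k ∈ S, (Polynomial.X - Polynomial.C (X k))

omit [Fintype σ] [CharZero K] in
theorem Bp_map_sw (S : Finset σ) (i j : σ) (h : i ∈ S ↔ j ∈ S) :
    (Bp (K := K) S).map (sw i j : MvPolynomial σ K →ₐ[K] _).toRingHom = Bp S := by
  rw [Bp, Polynomial.map_prod]
  have h1 : ∀ k, Polynomial.map (sw i j : MvPolynomial σ K →ₐ[K] _).toRingHom
      (Polynomial.X - Polynomial.C (X k))
      = Polynomial.X - Polynomial.C (X (Equiv.swap i j k)) := by
    intro k
    rw [Polynomial.map_sub, Polynomial.map_X, Polynomial.map_C]
    congr 2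
    exact sw_X i j k
  simp only [h1]
  apply Finset.prod_equiv (Equiv.swap i j)
  · intro k
    by_cases hi : k = i
    · subst hi; rw [Equiv.swap_apply_left]; exact h
    · by_cases hj : k = j
      · subst hj; rw [Equiv.swap_apply_right]; exact h.symm
      · rw [Equiv.swap_apply_of_ne_of_ne hi hj]
  · intro k _; rfl

omit [Fintype σ] [CharZero K] in
theorem Bp_coeff_sw (S : Finset σ) (i j : σ) (h : i ∈ S ↔ j ∈ S) (r : ℕ) :
    sw i j ((Bp (K := K) S).coeff r) = (Bp S).coeff r := by
  have := congrArg (fun P => Polynomial.coeff P r) (Bp_map_sw (K := K) S i j h)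
  simp only [Polynomial.coeff_map] at this
  exact this

omit [Fintype σ] [CharZero K] in
theorem Bp_coeff_pderiv (S : Finset σ) (j : σ) (hj : j ∉ S) (r : ℕ) :
    pderiv j ((Bp (K := K) S).coeff r) = 0 := by
  induction S using Finset.induction_on generalizing r with
  | empty =>
      rw [Bp, Finset.prod_empty, Polynomial.coeff_one]
      split_ifs <;> simp
  | insert k S hk ih =>
      have hjk : k ≠ j := by rintro rfl; exact hj (Finset.mem_insert_self _ _)
      have hjS : j ∉ S := fun h => hj (Finset.mem_insert_of_mem h)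
      have hB : Bp (K := K) (insert k S) = (Polynomial.X - Polynomial.C (X k)) * Bp S := by
        rw [Bp, Finset.prod_insert hk, Bp]
      rw [hB, sub_mul, Polynomial.coeff_sub, Polynomial.coeff_C_mul, map_sub, Derivation.leibniz,
        ih hjS, pderiv_X_of_ne hjk]
      cases r with
      | zero => simp
      | succ r => rw [Polynomial.coeff_X_mul, ih hjS]; simp

theorem T_Bp {S : Finset σ} {o : σ} (hS : ∀ k, k ∈ S ↔ k ≠ o) {j : σ} (hj : j ≠ o) (r : ℕ) :
    T j ((Bp (K := K) S).coeff r) = 0 := by
  have hjS : j ∈ S := (hS j).mpr hj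
  have hoS : o ∉ S := fun h => (hS o).mp h rfl
  set S' := S.erase j with hS'
  have hB : Bp (K := K) S = (Polynomial.X - Polynomial.C (X j)) * Bp S' := by
    rw [Bp, hS', Bp]
    exact (Finset.mul_prod_erase S (fun k => (Polynomial.X - Polynomial.C (X k) :
      Polynomial (MvPolynomial σ K))) hjS).symm
  have hjS' : j ∉ S' := Finset.notMem_erase _ _
  have hoS' : o ∉ S' := fun h => hoS (Finset.mem_of_mem_erase h)
  have h1 : ∑ l, dd j l ((Bp (K := K) S).coeff r) = dd j o ((Bp (K := K) S).coeff r) := by
    apply Finset.sum_eq_single o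
    · intro l _ hl
      apply dd_of_sym
      exact Bp_coeff_sw S j l (by simp [hjS, (hS l).mpr hl]) r
    · intro h; exact absurd (Finset.mem_univ _) h
  have h2 : ∀ r, sw j o ((Bp (K := K) S').coeff r) = (Bp S').coeff r := fun r =>
    Bp_coeff_sw S' j o (by simp [hjS', hoS']) r
  have h3 : ∀ r, dd j o ((Bp (K := K) S').coeff r) = 0 := fun r => dd_of_sym (h2 r)
  rw [T_apply, h1, hB, sub_mul, Polynomial.coeff_sub, Polynomial.coeff_C_mul]
  have hsub : ∀ a b : MvPolynomial σ K, dd j o (a - b) = dd j o a - dd j o b := by
    intro a b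
    have h := dd_add j o (a - b) b
    rw [sub_add_cancel] at h
    rw [h]; ring
  rw [hsub, dd_X, h3, dd_X_left hj, h2, map_sub, Derivation.leibniz,
    Bp_coeff_pderiv S' j hjS', pderiv_X_self]
  have h4 : ∀ r, dd j o ((Polynomial.X * Bp (K := K) S').coeff r) = 0 := by
    intro r
    cases r with
    | zero => simp [dd_of_sym]
    | succ r => rw [Polynomial.coeff_X_mul, h3]
  have h5 : ∀ r, pderiv j ((Polynomial.X * Bp (K := K) S').coeff r) = 0 := by
    intro r
    cases r with
    | zero => simp
    | succ r => rw [Polynomial.coeff_X_mul, Bp_coeff_pderiv S' j hjS']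
  rw [h4, h5]
  simp

end Bp

section phi

variable {σ : Type*} [Fintype σ] [DecidableEq σ] {K : Type*} [Field K] [CharZero K]

/-- set all variables equal -/
noncomputable def phi : MvPolynomial σ K →ₐ[K] Polynomial K := aeval fun _ => Polynomial.X

theorem phi_pderiv (p : MvPolynomial σ K) :
    phi (∑ i, pderiv i p) = Polynomial.derivative (phi p) := by
  induction p using MvPolynomial.induction_on with
  | C a => simp [phi]
  | add p q hp hq =>
      rw [map_add, Polynomial.derivative_add, ← hp, ← hq, ← map_add, ← Finset.sum_add_distrib]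
      simp only [map_add]
  | mul_X p l hp =>
      have h1 : ∑ i, pderiv i (p * X l) = (∑ i, pderiv i p) * X l + p := by
        simp only [Derivation.leibniz, smul_eq_mul]
        rw [Finset.sum_add_distrib, add_comm, Finset.sum_mul]
        congr 1
        · exact Finset.sum_congr rfl fun i _ => mul_comm _ _
        · rw [← Finset.mul_sum, Finset.sum_eq_single l]
          · simp
          · intro i _ hi; exact pderiv_X_of_ne (Ne.symm hi)
          · intro h; exact absurd (Finset.mem_univ _) h
      have hX : (phi (X l) : Polynomial K) = Polynomial.X := by simp [phi]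
      rw [h1, map_add, map_mul, hp, map_mul, hX, Polynomial.derivative_mul,
        Polynomial.derivative_X, mul_one]

theorem constantCoeff_eq_phi (p : MvPolynomial σ K) :
    constantCoeff p = (phi p).coeff 0 := by
  induction p using MvPolynomial.induction_on with
  | C a => simp [phi]
  | add p q hp hq => rw [map_add, hp, hq, map_add, Polynomial.coeff_add]
  | mul_X p l _ => simp [phi]

end phi

section kern

variable {N : ℕ} {K : Type*} [Field K] [CharZero K]

/-- killed by all `T_j` with `j ≠ 0` -/
def Kil (q : MvPolynomial (Fin (N + 1)) K) : Prop := ∀ j, j ≠ 0 → T j q = 0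

theorem Kil.T {q : MvPolynomial (Fin (N + 1)) K} (hq : Kil q) : Kil (T 0 q) := by
  intro j hj
  rw [T_comm_apply, hq j hj, map_zero]

theorem Kil.phi {q : MvPolynomial (Fin (N + 1)) K} (hq : Kil q) :
    phi (Dk.T 0 q) = Polynomial.derivative (Dk.phi q) := by
  rw [← phi_pderiv, ← sum_T, Finset.sum_eq_single 0]
  · intro j _ hj; exact hq j hj
  · intro h; exact absurd (Finset.mem_univ _) h

theorem Kil.pow {q : MvPolynomial (Fin (N + 1)) K} (hq : Kil q) (k : ℕ) :
    constantCoeff (evT (X 0 ^ k) q) = (k.factorial : K) * (Dk.phi q).coeff k := by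
  rw [constantCoeff_eq_phi]
  have h : ∀ (k : ℕ) (q : MvPolynomial (Fin (N + 1)) K), Kil q →
      Dk.phi (evT (X 0 ^ k) q) = Polynomial.derivative^[k] (Dk.phi q) := by
    intro k
    induction k with
    | zero => intro q _; simp [evT_one]
    | succ k ih =>
        intro q hq
        rw [pow_succ, evT_mul_X, ih _ hq.T, hq.phi, Function.iterate_succ_apply]
  rw [h k q hq, Polynomial.coeff_iterate_derivative, zero_add, Nat.descFactorial_self,
    nsmul_eq_mul]

theorem Kil.pr {q : MvPolynomial (Fin (N + 1)) K} (hq : Kil q) {s : ℕ} {γ : K}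
    (hφ : Dk.phi q = Polynomial.C γ * Polynomial.X ^ s) (g : MvPolynomial (Fin (N + 1)) K) :
    Dk.pr g q = coeff (Finsupp.single 0 s) g * ((s.factorial : K) * γ) := by
  induction g using MvPolynomial.induction_on' with
  | add p q hp hq => rw [pr_add_left, hp, hq, coeff_add, add_mul]
  | monomial α a =>
      by_cases h : ∃ j, j ≠ 0 ∧ α j ≠ 0
      · obtain ⟨j, hj, hα⟩ := h
        have h0 : α - Finsupp.single j 1 + Finsupp.single j 1 = α := by
          ext l
          by_cases hl : l = j
          · subst hl; simp; omega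
          · simp [Finsupp.single_apply, Ne.symm hl]
        have h1 : monomial α a = monomial (α - Finsupp.single j 1) a * X j := by
          rw [X, monomial_mul, mul_one, h0]
        have h2 : coeff (Finsupp.single 0 s) (monomial α a) = 0 := by
          rw [coeff_monomial, if_neg]
          intro h; apply hα; rw [h, Finsupp.single_apply, if_neg (Ne.symm hj)]
        rw [h2, zero_mul, Dk.pr, h1, evT_mul_X, hq j hj, map_zero, map_zero]
      · push Not at h
        have h1 : α = Finsupp.single 0 (α 0) := by
          ext l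
          by_cases hl : l = 0
          · subst hl; simp
          · rw [h l hl, Finsupp.single_apply, if_neg (Ne.symm hl)]
        have h2 : monomial α a = C a * (X 0 : MvPolynomial (Fin (N + 1)) K) ^ (α 0) := by
          conv_lhs => rw [h1]
          rw [X_pow_eq_monomial, C_mul_monomial, mul_one]
        rw [Dk.pr, h2, evT_mul, evT_C, constantCoeff_smul, hq.pow, hφ, ← h2, coeff_monomial]
        by_cases hs : α 0 = s
        · have : α = Finsupp.single 0 s := by rw [h1, hs]
          rw [if_pos this, hs]
          simp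
        · have : α ≠ Finsupp.single 0 s := by
            intro h; apply hs; rw [h]; simp
          rw [if_neg this, Polynomial.coeff_C_mul, Polynomial.coeff_X_pow, if_neg hs]
          simp

/-- integration over `[0, 1]` -/
noncomputable def Psi : Polynomial K →ₗ[K] K :=
  Polynomial.lsum fun k => ((k : K) + 1)⁻¹ • LinearMap.id

omit [CharZero K] in
theorem Psi_C_mul_X_pow (a : K) (k : ℕ) :
    Psi (Polynomial.C a * Polynomial.X ^ k) = a * ((k : K) + 1)⁻¹ := by
  rw [Psi, Polynomial.C_mul_X_pow_eq_monomial, Polynomial.lsum_apply,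
    Polynomial.sum_monomial_index]
  · simp [mul_comm]
  · simp

theorem Psi_val (N e : ℕ) : Psi (Polynomial.X ^ e * (Polynomial.X - 1) ^ N : Polynomial K)
    = (-1) ^ N * N.factorial * e.factorial / (N + e + 1).factorial := by
  induction N generalizing e with
  | zero =>
      have := Psi_C_mul_X_pow (1 : K) e
      rw [Polynomial.C_1, one_mul] at this
      rw [pow_zero, mul_one, this, zero_add, Nat.factorial_succ]
      push_cast
      have h1 : (e.factorial : K) ≠ 0 := by exact_mod_cast e.factorial_ne_zero
      have h2 : (e : K) + 1 ≠ 0 := by exact_mod_cast Nat.succ_ne_zero e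
      field_simp
      simp
  | succ N ih =>
      have h : (Polynomial.X ^ e * (Polynomial.X - 1) ^ (N + 1) : Polynomial K)
          = Polynomial.X ^ (e + 1) * (Polynomial.X - 1) ^ N
            - Polynomial.X ^ e * (Polynomial.X - 1) ^ N := by ring
      rw [h, map_sub, ih, ih]
      have e1 : N + (e + 1) + 1 = (N + e + 1) + 1 := by ring
      have e2 : N + 1 + e + 1 = (N + e + 1) + 1 := by ring
      rw [e1, e2, Nat.factorial_succ (N + e + 1), Nat.factorial_succ N, Nat.factorial_succ e]
      push_cast
      have h1 : ((N + e + 1).factorial : K) ≠ 0 := by exact_mod_cast (N + e + 1).factorial_ne_zero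
      have h2 : (N : K) + e + 1 + 1 ≠ 0 := by exact_mod_cast Nat.succ_ne_zero (N + e + 1)
      field_simp
      ring

theorem exists_Kil (s : ℕ) : ∃ q : MvPolynomial (Fin (N + 1)) K, Kil q ∧
    ∃ γ : K, γ ≠ 0 ∧ phi q = Polynomial.C γ * Polynomial.X ^ s := by
  classical
  set S : Finset (Fin (N + 1)) := Finset.univ.erase 0 with hSdef
  have hS : ∀ k, k ∈ S ↔ k ≠ 0 := by intro k; simp [hSdef]
  have hcard : S.card = N := by simp [hSdef]
  have hB : ∀ r, Kil ((Bp (K := K) S).coeff r) := fun r j hj => T_Bp hS hj r
  have hφ : ∀ r, phi ((Bp (K := K) S).coeff r)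
      = (-Polynomial.X) ^ (N - r) * ((N.choose r : ℕ) : Polynomial K) := by
    intro r
    have h1 : (Bp (K := K) S).map (phi : MvPolynomial (Fin (N + 1)) K →ₐ[K] _).toRingHom
        = (Polynomial.X - Polynomial.C Polynomial.X) ^ N := by
      rw [Bp, Polynomial.map_prod]
      have : ∀ k ∈ S, Polynomial.map (phi : MvPolynomial (Fin (N + 1)) K →ₐ[K] _).toRingHom
          (Polynomial.X - Polynomial.C (X k)) = Polynomial.X - Polynomial.C Polynomial.X := by
        intro k _
        rw [Polynomial.map_sub, Polynomial.map_X, Polynomial.map_C]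
        congr 2
        simp [phi]
      rw [Finset.prod_congr rfl this, Finset.prod_const, hcard]
    have h2 := congrArg (fun P => Polynomial.coeff P r) h1
    simp only [Polynomial.coeff_map, coeff_X_sub_C_pow'] at h2
    exact h2
  by_cases hs : s ≤ N
  · refine ⟨(Bp (K := K) S).coeff (N - s), hB _, (-1) ^ s * (N.choose (N - s) : K), ?_, ?_⟩
    · refine mul_ne_zero (pow_ne_zero _ (by norm_num)) ?_
      exact_mod_cast (Nat.choose_pos (Nat.sub_le N s)).ne'
    · rw [hφ, Nat.sub_sub_self hs, neg_pow]
      simp only [map_mul, map_pow, map_neg, map_one, Polynomial.C_eq_natCast]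
      ring
  · obtain ⟨e, rfl⟩ : ∃ e, s = N + e + 1 := ⟨s - (N + 1), by omega⟩
    refine ⟨∑ r ∈ Finset.range (N + 1),
      C (((r + e : ℕ) : K) + 1)⁻¹ * (psum (Fin (N + 1)) K (r + e + 1) * (Bp (K := K) S).coeff r),
      ?_, ((N : K) + 1) * ((-1) ^ N * N.factorial * e.factorial / (N + e + 1).factorial), ?_, ?_⟩
    · intro j hj
      have h1 : ∀ r, T j (C (((r + e : ℕ) : K) + 1)⁻¹ *
          (psum (Fin (N + 1)) K (r + e + 1) * (Bp (K := K) S).coeff r))
          = X j ^ e * ((Bp (K := K) S).coeff r * X j ^ r) := by
        intro r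
        rw [← smul_eq_C_mul, map_smul, T_sym_mul, hB r j hj, mul_zero, zero_add]
        · rw [psum, map_sum, Finset.sum_eq_single j]
          · rw [pderiv_pow, pderiv_X_self, smul_eq_C_mul]
            have hne : ((r + e : ℕ) : K) + 1 ≠ 0 := by exact_mod_cast Nat.succ_ne_zero (r + e)
            have hc : (C (((r + e : ℕ) : K) + 1)⁻¹ : MvPolynomial (Fin (N + 1)) K)
                * ((r + e + 1 : ℕ) : MvPolynomial (Fin (N + 1)) K) = 1 := by
              have : ((r + e + 1 : ℕ) : MvPolynomial (Fin (N + 1)) K)
                  = C (((r + e : ℕ) : K) + 1) := by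
                push_cast; simp
              rw [this, ← C_mul, inv_mul_cancel₀ hne, C_1]
            have hp : (r + e + 1 - 1) = e + r := by omega
            rw [hp, pow_add]
            linear_combination (X j ^ e * X j ^ r * (Bp (K := K) S).coeff r) * hc
          · intro i _ hi
            rw [pderiv_pow, pderiv_X_of_ne hi, mul_zero]
          · intro h; exact absurd (Finset.mem_univ _) h
        · intro i
          exact (psum_isSymmetric (Fin (N + 1)) K (r + e + 1)) (Equiv.swap j i)
      rw [map_sum, Finset.sum_congr rfl (fun r _ => h1 r), ← Finset.mul_sum]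
      have h2 : ∑ r ∈ Finset.range (N + 1), (Bp (K := K) S).coeff r * X j ^ r
          = Polynomial.eval (X j) (Bp (K := K) S) := by
        rw [Polynomial.eval_eq_sum_range' (n := N + 1)]
        have : (Bp (K := K) S).natDegree ≤ N := by
          rw [Bp]
          refine (Polynomial.natDegree_prod_le _ _).trans ?_
          refine (Finset.sum_le_card_nsmul _ _ 1 ?_).trans (by simp [hcard])
          intro k _
          simp
        omega
      rw [h2, Bp, Polynomial.eval_prod, Finset.prod_eq_zero ((hS j).mpr hj) (by simp), mul_zero]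
    · refine mul_ne_zero (by exact_mod_cast Nat.succ_ne_zero N) (div_ne_zero (mul_ne_zero
        (mul_ne_zero (pow_ne_zero _ (by norm_num)) ?_) ?_) ?_)
      · exact_mod_cast N.factorial_ne_zero
      · exact_mod_cast e.factorial_ne_zero
      · exact_mod_cast (N + e + 1).factorial_ne_zero
    · have hps : ∀ k, phi (psum (Fin (N + 1)) K k)
          = ((N + 1 : ℕ) : Polynomial K) * Polynomial.X ^ k := by
        intro k
        rw [psum, map_sum]
        simp [phi]
      have hterm : ∀ r ∈ Finset.range (N + 1), phi (C (((r + e : ℕ) : K) + 1)⁻¹ *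
          (psum (Fin (N + 1)) K (r + e + 1) * (Bp (K := K) S).coeff r))
          = Polynomial.C (((N : K) + 1) * (((-1) ^ (N - r) * (N.choose r : K))
              * (((r + e : ℕ) : K) + 1)⁻¹)) * Polynomial.X ^ (N + e + 1) := by
        intro r hr
        have hr' : r ≤ N := by simpa [Nat.lt_succ_iff] using hr
        rw [map_mul, map_mul, hps, hφ, neg_pow]
        have : (phi (C (((r + e : ℕ) : K) + 1)⁻¹ : MvPolynomial (Fin (N + 1)) K))
            = Polynomial.C (((r + e : ℕ) : K) + 1)⁻¹ := by simp [phi]
        rw [this]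
        have hX : (Polynomial.X : Polynomial K) ^ (N + e + 1)
            = Polynomial.X ^ (r + e + 1) * Polynomial.X ^ (N - r) := by
          rw [← pow_add]; congr 1; omega
        rw [hX]
        simp only [map_mul, map_pow, map_neg, map_one, Polynomial.C_eq_natCast, map_add,
          map_natCast]
        push_cast
        ring
      rw [map_sum, Finset.sum_congr rfl hterm, ← Finset.sum_mul, ← map_sum, ← Finset.mul_sum]
      congr 3
      rw [← Psi_val]
      have hx : ((Polynomial.X : Polynomial K) - 1) ^ N = ∑ r ∈ Finset.range (N + 1),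
          Polynomial.C ((-1) ^ (N - r) * (N.choose r : K)) * Polynomial.X ^ r := by
        have hnat : (((Polynomial.X : Polynomial K) - Polynomial.C 1) ^ N).natDegree < N + 1 := by
          rw [Polynomial.natDegree_pow, Polynomial.natDegree_X_sub_C]; omega
        have := Polynomial.as_sum_range_C_mul_X_pow' _ hnat
        rw [Polynomial.C_1] at this
        rw [this]
        refine Finset.sum_congr rfl fun r _ => ?_
        rw [← Polynomial.C_1, coeff_X_sub_C_pow']
      rw [hx, Finset.mul_sum, map_sum]
      refine Finset.sum_congr rfl fun r _ => ?_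
      have : (Polynomial.X : Polynomial K) ^ e * (Polynomial.C ((-1) ^ (N - r) * (N.choose r : K))
          * Polynomial.X ^ r)
          = Polynomial.C ((-1) ^ (N - r) * (N.choose r : K)) * Polynomial.X ^ (r + e) := by
        rw [pow_add]; ring
      rw [this, Psi_C_mul_X_pow]

end kern

end Vale.Agent.P181.H536.Dk
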