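import Vale.Agent.P181.H536.Dk4

/-!
Symmetric polynomials killed by the symmetric Dunkl operators are constant, and the vanishing of
the top coefficient.
-/

namespace Vale.Agent.P181.H536.Dk

open MvPolynomial

section main

variable {K : Type*} [Field K] [CharZero K]

theorem tc_symm {N : ℕ} (M : ℕ) {p : MvPolynomial (Fin (N + 1)) K} (hp : p.IsSymmetric) :
    (tc M p).IsSymmetric := by
  have hsw : ∀ i j : Fin N, rename (Equiv.swap i j) (tc M p) = tc M p := by
    intro i j
    have := tc_sw M i j p
    rw [show sw i.succ j.succ p = p from hp _] at this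
    exact this.symm
  intro e
  induction e using Equiv.Perm.swap_induction_on with
  | one =>
      have : (⇑(1 : Equiv.Perm (Fin N))) = id := rfl
      rw [this, rename_id_apply]
  | swap_mul f x y _ hf =>
      have : (⇑(Equiv.swap x y * f)) = ⇑(Equiv.swap x y) ∘ ⇑f := rfl
      rw [this, ← rename_rename, hf, hsw]

theorem degreeOf_symm {σ : Type*} [Fintype σ] [DecidableEq σ] {p : MvPolynomial σ K} (hp : p.IsSymmetric)
    (i j : σ) : degreeOf i p = degreeOf j p := by
  have h1 : sw i j p = p := hp _
  have h2 := degreeOf_sw i j i p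
  rw [h1, Equiv.swap_apply_left] at h2
  exact h2

theorem eq_C_of_degreeOf {σ : Type*} {p : MvPolynomial σ K} (hp : ∀ i, degreeOf i p = 0) :
    p = C (constantCoeff p) := by
  classical
  ext m
  rw [coeff_C, constantCoeff_eq]
  by_cases hm : m = 0
  · subst hm; simp
  · rw [if_neg (Ne.symm hm)]
    by_contra hne
    apply hm
    ext i
    have := degreeOf_le_iff.mp (le_of_eq (hp i)) m (by rwa [mem_support_iff])
    simpa using this

theorem tc_coeff_zero {N : ℕ} (M : ℕ) (p : MvPolynomial (Fin (N + 1)) K) :
    coeff 0 (tc M p) = coeff (Finsupp.single 0 M) p := by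
  rw [tc_apply, finSuccEquiv_coeff_coeff]
  congr 1
  ext l
  refine Fin.cases ?_ (fun l => ?_) l
  · simp
  · simp [Finsupp.single_apply]

theorem symm_T_stable {σ : Type*} [Fintype σ] [DecidableEq σ] {q p : MvPolynomial σ K}
    (hq : q.IsSymmetric) (hp : p.IsSymmetric) : (evT q p).IsSymmetric := by
  intro e
  have := rename_evT e q p
  rw [hq e, hp e] at this
  exact this

theorem H_lemma : ∀ (N : ℕ) (g : MvPolynomial (Fin N) K), g.IsSymmetric →
    (∀ k, 1 ≤ k → evT (esymm (Fin N) K k) g = 0) → g = C (constantCoeff g) := by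
  intro N
  induction N with
  | zero =>
      intro g _ _
      exact MvPolynomial.eq_C_of_isEmpty g
  | succ N ih =>
      intro g hg hk
      by_contra hne
      set s := degreeOf 0 g with hs
      have hdeg : ∀ i, degreeOf i g = s := fun i => degreeOf_symm hg i 0
      have hs0 : s ≠ 0 := by
        intro h
        exact hne (eq_C_of_degreeOf fun i => by rw [hdeg i, h])
      have hg0 : g ≠ 0 := by rintro rfl; simp at hne
      have htc0 : tc s g ≠ 0 := by
        rw [tc_apply, hs, ← natDegree_finSuccEquiv]
        have : finSuccEquiv K N g ≠ 0 := by simpa using hg0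
        simpa using this
      have hle : ∀ i, degreeOf i g ≤ s := fun i => (hdeg i).le
      have h1 := ih (tc s g) (tc_symm s hg) (fun k hk1 => by
        rw [← tc_evT_esymm hle, hk k hk1, map_zero])
      obtain ⟨q, hq, γ, hγ, hφ⟩ := exists_Kil (K := K) (N := N) s
      have h2 := hq.pr hφ g
      have hq0 : constantCoeff q = 0 := by
        rw [constantCoeff_eq_phi, hφ, Polynomial.coeff_C_mul, Polynomial.coeff_X_pow,
          if_neg (Ne.symm hs0), mul_zero]
      rw [pr_comm, pr_symm_zero hg hk hq0, ← tc_coeff_zero] at h2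
      have h3 : coeff 0 (tc s g) ≠ 0 := by
        intro h
        apply htc0
        rw [h1, constantCoeff_eq, h, C_0]
      have h4 : ((s.factorial : K) * γ) ≠ 0 :=
        mul_ne_zero (by exact_mod_cast s.factorial_ne_zero) hγ
      exact mul_ne_zero h3 h4 h2.symm

theorem Kil_prod (m : ℕ) : Kil (∏ i : Fin m, X i.succ : MvPolynomial (Fin (m + 1)) K) := by
  classical
  intro j hj
  have hS : ∀ k, k ∈ (Finset.univ.erase 0 : Finset (Fin (m + 1))) ↔ k ≠ 0 := by
    intro k; simp
  have h1 := T_Bp (K := K) hS hj 0
  have h2 : (Bp (K := K) (Finset.univ.erase 0 : Finset (Fin (m + 1)))).coeff 0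
      = C ((-1) ^ m) * ∏ i : Fin m, X i.succ := by
    rw [Bp, Polynomial.coeff_zero_prod]
    have h3 : (Finset.univ.erase 0 : Finset (Fin (m + 1))) = Finset.univ.map (Fin.succEmb m) := by
      ext k
      simp only [Finset.mem_erase, Finset.mem_univ, and_true, Finset.mem_map, true_and,
        Fin.coe_succEmb]
      constructor
      · intro h; exact Fin.exists_succ_eq.mpr h
      · rintro ⟨i, rfl⟩; exact Fin.succ_ne_zero i
    rw [h3, Finset.prod_map]
    simp [Finset.prod_neg]
  rw [h2, ← smul_eq_C_mul, map_smul] at h1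
  exact (smul_eq_zero.mp h1).resolve_left (pow_ne_zero _ (by norm_num))

theorem phi_prod (m : ℕ) : phi (∏ i : Fin m, X i.succ : MvPolynomial (Fin (m + 1)) K)
    = Polynomial.C 1 * Polynomial.X ^ m := by
  rw [map_prod]
  simp [phi]

theorem top_zero {m : ℕ} (F : MvPolynomial (Fin (m + 1)) K) (hF : F.IsSymmetric)
    (hd : ∀ i, degreeOf i F ≤ m + 1) (h : evT (∏ i, X i) F = 0) : tc (m + 1) F = 0 := by
  have key : ∀ (d : ℕ) (F : MvPolynomial (Fin (m + 1)) K), totalDegree F ≤ d → F.IsSymmetric →
      (∀ i, degreeOf i F ≤ m + 1) → evT (∏ i, X i) F = 0 → tc (m + 1) F = 0 := by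
    intro d
    induction d with
    | zero =>
        intro F hd0 _ _ _
        apply tc_zero_of_lt
        have := degreeOf_le_totalDegree F 0
        omega
    | succ d ih =>
        intro F hd0 hF hd h
        have h1 : ∀ k, 1 ≤ k → evT (esymm (Fin m) K k) (tc (m + 1) F) = 0 := by
          intro k hk
          rw [← tc_evT_esymm hd]
          apply ih
          · exact totalDegree_evT_lt (constantCoeff_esymm hk) hd0
          · exact symm_T_stable (esymm_isSymmetric (Fin (m + 1)) K k) hF
          · exact fun i => degreeOf_evT_le _ hd i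
          · rw [evT_comm, h, map_zero]
        have h2 := H_lemma m (tc (m + 1) F) (tc_symm _ hF) h1
        have h3 : constantCoeff (evT (∏ i, X i) F) = 0 := by rw [h, map_zero]
        have h4 : pr F (X 0 * ∏ i : Fin m, X i.succ) = 0 := by
          rw [← Fin.prod_univ_succ (fun i : Fin (m + 1) => (X i : MvPolynomial (Fin (m + 1)) K)),
            pr_comm]
          exact h3
        rw [← pr_T, T_of_sym (fun j => hF (Equiv.swap 0 j)), (Kil_prod m).pr (phi_prod m),
          coeff_pderiv, ← Finsupp.single_add, ← tc_coeff_zero] at h4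
        rw [h2, constantCoeff_eq]
        have h5 : (m.factorial : K) ≠ 0 := by exact_mod_cast m.factorial_ne_zero
        have h6 : (m : K) + 1 ≠ 0 := by exact_mod_cast Nat.succ_ne_zero m
        simp only [Finsupp.single_eq_same, mul_one, mul_eq_zero, h5, h6, or_false] at h4
        rw [h4, C_0]
  exact key _ F le_rfl hF hd h

end main

end Vale.Agent.P181.H536.Dk
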