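import Vale.Agent.P181.H536.Dk5
import Mathlib.LinearAlgebra.Lagrange
import Mathlib.LinearAlgebra.Matrix.Adjugate
import Mathlib.Algebra.MvPolynomial.Funext

/-!
The Cramer argument.
-/

set_option autoImplicit false

namespace Vale.Agent.P181.H536.Dk

open MvPolynomial

/-- the Wronskian -/
noncomputable def Wr (f g : Polynomial ℂ) : Polynomial ℂ :=
  f * Polynomial.derivative g - Polynomial.derivative f * g

/-- the product formula for the Dunkl operators -/
def DP : Prop := ∀ (m : ℕ) (f : Polynomial ℂ),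
  (∏ i : Fin m, ∏ j ∈ Finset.Ioi i, (X j - X i : MvPolynomial (Fin m) ℂ)) *
    evT (∏ i, X i) (∏ i, Polynomial.aeval (X i : MvPolynomial (Fin m) ℂ) f)
  = (-1) ^ m * Matrix.det (Matrix.of fun i k : Fin m =>
      (Polynomial.aeval (X i) (Wr f (Polynomial.X ^ (k : ℕ))) : MvPolynomial (Fin m) ℂ))

theorem eval_aeval_X {σ : Type*} (x : σ → ℂ) (i : σ) (f : Polynomial ℂ) :
    eval x (Polynomial.aeval (X i) f) = f.eval (x i) := by
  induction f using Polynomial.induction_on' with
  | add p q hp hq => rw [map_add, map_add, hp, hq, Polynomial.eval_add]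
  | monomial n a =>
      rw [← Polynomial.C_mul_X_pow_eq_monomial]
      simp [MvPolynomial.algebraMap_eq]

theorem rename_aeval_X {σ τ : Type*} (e : σ → τ) (i : σ) (f : Polynomial ℂ) :
    rename e (Polynomial.aeval (X i : MvPolynomial σ ℂ) f)
      = Polynomial.aeval (X (e i) : MvPolynomial τ ℂ) f := by
  induction f using Polynomial.induction_on' with
  | add p q hp hq => rw [map_add, map_add, hp, hq, map_add]
  | monomial n a =>
      rw [← Polynomial.C_mul_X_pow_eq_monomial]
      simp [MvPolynomial.algebraMap_eq]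

theorem tc_aeval_zero {N : ℕ} (M : ℕ) (f : Polynomial ℂ) :
    tc M (Polynomial.aeval (X 0 : MvPolynomial (Fin (N + 1)) ℂ) f) = C (f.coeff M) := by
  have h : finSuccEquiv ℂ N (Polynomial.aeval (X 0) f) = f.map C := by
    induction f using Polynomial.induction_on' with
    | add p q hp hq => rw [map_add, map_add, hp, hq, Polynomial.map_add]
    | monomial n a =>
        rw [← Polynomial.C_mul_X_pow_eq_monomial]
        simp [MvPolynomial.algebraMap_eq, finSuccEquiv_C', finSuccEquiv_X_zero]
  rw [tc_apply, h, Polynomial.coeff_map]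

theorem tc_prod {N : ℕ} (M : ℕ) (f : Polynomial ℂ) :
    tc M (∏ i : Fin (N + 1), Polynomial.aeval (X i : MvPolynomial (Fin (N + 1)) ℂ) f)
      = C (f.coeff M) * ∏ i : Fin N, Polynomial.aeval (X i : MvPolynomial (Fin N) ℂ) f := by
  rw [Fin.prod_univ_succ]
  have h : ∏ i : Fin N, Polynomial.aeval (X i.succ : MvPolynomial (Fin (N + 1)) ℂ) f
      = rename Fin.succ (∏ i : Fin N, Polynomial.aeval (X i : MvPolynomial (Fin N) ℂ) f) := by
    rw [map_prod]
    exact Finset.prod_congr rfl fun i _ => (rename_aeval_X Fin.succ i f).symm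
  rw [h, mul_comm, tc_rename_mul, tc_aeval_zero, mul_comm]

theorem degreeOf_aeval_X_le {σ : Type*} [DecidableEq σ] (i l : σ) (f : Polynomial ℂ) :
    degreeOf l (Polynomial.aeval (X i : MvPolynomial σ ℂ) f) ≤ if l = i then f.natDegree else 0 := by
  rw [Polynomial.aeval_eq_sum_range]
  refine (degreeOf_sum_le _ _ _).trans ?_
  apply Finset.sup_le
  intro k hk
  rw [smul_eq_C_mul]
  refine (degreeOf_C_mul_le _ _ _).trans ?_
  split_ifs with h
  · subst h
    rw [degreeOf_X_self_pow]
    simpa [Nat.lt_succ_iff] using hk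
  · rw [degreeOf_X_pow_of_ne _ h]

theorem degreeOf_prod_aeval_le {m : ℕ} (f : Polynomial ℂ) (l : Fin m) :
    degreeOf l (∏ i : Fin m, Polynomial.aeval (X i : MvPolynomial (Fin m) ℂ) f)
      ≤ f.natDegree := by
  refine (degreeOf_prod_le _ _ _).trans ?_
  refine (Finset.sum_le_sum fun i _ => degreeOf_aeval_X_le i l f).trans ?_
  simp

theorem exists_vec {N : ℕ} (R : Multiset ℂ) (hR : R.card = N) :
    ∃ y : Fin N → ℂ, (Finset.univ : Finset (Fin N)).val.map y = R := by
  obtain ⟨l, rfl⟩ := Quot.exists_rep R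
  have hl : l.length = N := hR
  subst hl
  refine ⟨l.get, ?_⟩
  rw [Fin.univ_val_map, List.ofFn_get]
  rfl

section

variable {m n : ℕ}

theorem ml (f : Fin n → Polynomial ℂ) (hf : ∀ s, (f s).natDegree ≤ m) (w : Fin n → ℂ) (N : ℕ)
    (h : ∀ R : Multiset ℂ, R.card = N →
      ∑ s, w s * (R.map (fun x => (f s).eval x)).prod = 0)
    {ι : Type*} [DecidableEq ι] (I : Finset ι) (L : ι → (Polynomial ℂ →ₗ[ℂ] ℂ))
    (R : Multiset ℂ) (hR : R.card + I.card = N) :
    ∑ s, w s * ((∏ i ∈ I, L i (f s)) * (R.map (fun x => (f s).eval x)).prod) = 0 := by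
  induction I using Finset.induction_on generalizing R with
  | empty =>
      simp only [Finset.prod_empty, one_mul]
      exact h R (by simpa using hR)
  | insert a I ha ih =>
      rw [Finset.card_insert_of_notMem ha] at hR
      let v : Fin (m + 1) → ℂ := fun k => (k : ℕ)
      have hv : Function.Injective v := by
        intro a b hab
        have : ((a : ℕ) : ℂ) = (b : ℕ) := hab
        exact Fin.ext (by exact_mod_cast this)
      have hL : ∀ s, L a (f s)
          = ∑ k, (f s).eval (v k) * L a (Lagrange.basis Finset.univ v k) := by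
        intro s
        have hdeg : (f s).degree < (Finset.univ : Finset (Fin (m + 1))).card := by
          have h2 : (Finset.univ : Finset (Fin (m + 1))).card = m + 1 := by simp
          rw [h2]
          exact (Polynomial.degree_le_natDegree).trans_lt
            (by exact_mod_cast Nat.lt_succ_of_le (hf s))
        have hP := Lagrange.eq_interpolate (s := Finset.univ) (v := v)
          (fun a _ b _ h => hv h) hdeg
        conv_lhs => rw [hP]
        rw [Lagrange.interpolate_apply, map_sum]
        refine Finset.sum_congr rfl fun k _ => ?_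
        rw [← Polynomial.smul_eq_C_mul, map_smul, smul_eq_mul]
      have h1 : ∀ s, w s * ((∏ i ∈ insert a I, L i (f s)) *
          (R.map (fun x => (f s).eval x)).prod)
          = ∑ k, L a (Lagrange.basis Finset.univ v k) *
            (w s * ((∏ i ∈ I, L i (f s)) * ((v k ::ₘ R).map (fun x => (f s).eval x)).prod)) := by
        intro s
        rw [Finset.prod_insert ha, hL s, Finset.sum_mul, Finset.sum_mul, Finset.mul_sum]
        refine Finset.sum_congr rfl fun k _ => ?_
        rw [Multiset.map_cons, Multiset.prod_cons]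
        ring
      rw [Finset.sum_congr rfl fun s _ => h1 s, Finset.sum_comm]
      apply Finset.sum_eq_zero
      intro k _
      rw [← Finset.mul_sum, ih _ (by rw [Multiset.card_cons]; omega), mul_zero]

/-- `p ↦ W(p, q)(x)` -/
noncomputable def WL (q : Polynomial ℂ) (x : ℂ) : Polynomial ℂ →ₗ[ℂ] ℂ where
  toFun p := (Wr p q).eval x
  map_add' p p' := by simp only [Wr, Polynomial.derivative_add, Polynomial.eval_sub,
    Polynomial.eval_mul, Polynomial.eval_add]; ring
  map_smul' c p := by
    simp only [Wr, Polynomial.derivative_smul, Polynomial.eval_sub,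
      Polynomial.eval_mul, Polynomial.eval_smul, smul_eq_mul, RingHom.id_apply]; ring

theorem Wr_sum (f h : Polynomial ℂ) (hh : h.natDegree < m) :
    Wr f h = ∑ k : Fin m, Polynomial.C (h.coeff k) * Wr f (Polynomial.X ^ (k : ℕ)) := by
  have h1 : h = ∑ k : Fin m, Polynomial.C (h.coeff k) * Polynomial.X ^ (k : ℕ) := by
    rw [Fin.sum_univ_eq_sum_range (fun k => Polynomial.C (h.coeff k) * Polynomial.X ^ k) m]
    exact Polynomial.as_sum_range_C_mul_X_pow' h hh
  conv_lhs => rw [h1]
  rw [Wr, map_sum, Finset.mul_sum, Finset.mul_sum, ← Finset.sum_sub_distrib]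
  refine Finset.sum_congr rfl fun k _ => ?_
  rw [Wr, Polynomial.derivative_C_mul]
  ring

theorem det_mul_eq {R : Type*} [CommRing R] {k : ℕ} (A : Matrix (Fin k) (Fin k) R)
    (v : Fin k → R) (j : Fin k) : A.det * v j = (A.updateCol j (A.mulVec v)).det := by
  rw [← Matrix.cramer_apply, Matrix.cramer_eq_adjugate_mulVec, Matrix.mulVec_mulVec,
    Matrix.adjugate_mul, Matrix.smul_mulVec, Matrix.one_mulVec]
  rfl

theorem core_det {N : ℕ} (f h : Fin n → Polynomial ℂ) (hf : ∀ s, (f s).natDegree ≤ N + 1)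
    (hh : ∀ s, (h s).natDegree < N + 1)
    (hH : ∀ (z : ℂ) (R : Multiset ℂ), R.card = N →
      ∑ s, (Wr (f s) (h s)).eval z * (R.map (fun x => (f s).eval x)).prod = 0)
    (x : Fin (N + 1) → ℂ) (j : Fin (N + 1)) :
    ∑ s, (Matrix.of fun i k : Fin (N + 1) =>
      (Wr (f s) (Polynomial.X ^ (k : ℕ))).eval (x i)).det * (h s).coeff j = 0 := by
  have h1 : ∀ s, (Matrix.of fun i k : Fin (N + 1) =>
      (Wr (f s) (Polynomial.X ^ (k : ℕ))).eval (x i)).det * (h s).coeff j
      = ∑ σ : Equiv.Perm (Fin (N + 1)), ((Equiv.Perm.sign σ : ℤ) : ℂ) *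
        ((Wr (f s) (h s)).eval (x (σ j)) *
          ((∏ i ∈ Finset.univ.erase j, WL (Polynomial.X ^ (i : ℕ)) (x (σ i)) (f s)) *
            ((0 : Multiset ℂ).map (fun x => (f s).eval x)).prod)) := by
    intro s
    rw [det_mul_eq _ (fun k : Fin (N + 1) => (h s).coeff k) j, Matrix.det_apply]
    refine Finset.sum_congr rfl fun σ _ => ?_
    rw [Units.smul_def, zsmul_eq_mul]
    congr 1
    rw [← Finset.mul_prod_erase Finset.univ _ (Finset.mem_univ j)]
    congr 1
    · rw [Matrix.updateCol_self, Matrix.mulVec, dotProduct, Wr_sum (f s) (h s) (hh s),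
        Polynomial.eval_finsetSum]
      refine Finset.sum_congr rfl fun k _ => ?_
      rw [Matrix.of_apply, Polynomial.eval_mul, Polynomial.eval_C, mul_comm]
    · rw [Multiset.map_zero, Multiset.prod_zero, mul_one]
      refine Finset.prod_congr rfl fun i hi => ?_
      rw [Matrix.updateCol_ne (Finset.ne_of_mem_erase hi), Matrix.of_apply]
      rfl
  rw [Finset.sum_congr rfl fun s _ => h1 s, Finset.sum_comm]
  apply Finset.sum_eq_zero
  intro σ _
  rw [← Finset.mul_sum]
  have h2 := ml f hf (fun s => (Wr (f s) (h s)).eval (x (σ j))) N (hH (x (σ j)))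
    (Finset.univ.erase j) (fun i => WL (Polynomial.X ^ (i : ℕ)) (x (σ i))) 0 (by simp)
  rw [h2, mul_zero]

end

theorem core_aux (hDP : DP) {N n : ℕ} (f h : Fin n → Polynomial ℂ)
    (hf : ∀ s, (f s).Monic ∧ (f s).natDegree = N + 1) (hh : ∀ s, (h s).natDegree < N + 1)
    (hH : ∀ (z : ℂ) (R : Multiset ℂ), R.card = N →
      ∑ s, (Wr (f s) (h s)).eval z * (R.map (fun x => (f s).eval x)).prod = 0)
    (j : Fin (N + 1)) (R : Multiset ℂ) (hR : R.card = N) :
    ∑ s, (h s).coeff j * (R.map (fun x => (f s).eval x)).prod = 0 := by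
  set Φ : MvPolynomial (Fin (N + 1)) ℂ := ∑ s, C ((h s).coeff j) *
    ∏ i : Fin (N + 1), Polynomial.aeval (X i : MvPolynomial (Fin (N + 1)) ℂ) (f s) with hΦ
  have hsym : Φ.IsSymmetric := by
    intro e
    rw [hΦ, map_sum]
    refine Finset.sum_congr rfl fun s _ => ?_
    rw [map_mul, rename_C, map_prod]
    congr 1
    simp only [rename_aeval_X]
    exact Equiv.prod_comp e (fun i => Polynomial.aeval (X i : MvPolynomial (Fin (N + 1)) ℂ) (f s))
  have hdeg : ∀ i, degreeOf i Φ ≤ N + 1 := by
    intro i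
    rw [hΦ]
    refine (degreeOf_sum_le _ _ _).trans ?_
    apply Finset.sup_le
    intro s _
    refine (degreeOf_C_mul_le _ _ _).trans ?_
    exact (degreeOf_prod_aeval_le (f s) i).trans (hf s).2.le
  have hV : (∏ i : Fin (N + 1), ∏ j ∈ Finset.Ioi i,
      (X j - X i : MvPolynomial (Fin (N + 1)) ℂ)) ≠ 0 := by
    rw [Finset.prod_ne_zero_iff]
    intro i _
    rw [Finset.prod_ne_zero_iff]
    intro j hj
    exact X_sub_ne (Finset.mem_Ioi.mp hj).ne'
  have hzero : evT (∏ i, X i) Φ = 0 := by
    apply (mul_eq_zero.mp ?_).resolve_left hV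
    rw [hΦ, map_sum, Finset.mul_sum]
    have h1 : ∀ s, (∏ i : Fin (N + 1), ∏ j ∈ Finset.Ioi i,
        (X j - X i : MvPolynomial (Fin (N + 1)) ℂ)) * evT (∏ i, X i) (C ((h s).coeff j) *
          ∏ i : Fin (N + 1), Polynomial.aeval (X i : MvPolynomial (Fin (N + 1)) ℂ) (f s))
        = (-1) ^ (N + 1) * (Matrix.det (Matrix.of fun i k : Fin (N + 1) =>
          (Polynomial.aeval (X i) (Wr (f s) (Polynomial.X ^ (k : ℕ))) :
            MvPolynomial (Fin (N + 1)) ℂ)) * C ((h s).coeff j)) := by
      intro s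
      rw [← smul_eq_C_mul, map_smul, mul_smul_comm, hDP, smul_eq_C_mul]
      ring
    rw [Finset.sum_congr rfl fun s _ => h1 s, ← Finset.mul_sum]
    apply mul_eq_zero_of_right
    apply MvPolynomial.funext
    intro x
    rw [map_sum, map_zero, ← core_det f h (fun s => (hf s).2.le) hh hH x j]
    refine Finset.sum_congr rfl fun s _ => ?_
    rw [map_mul, eval_C, RingHom.map_det]
    congr 2
    ext i k
    simp only [RingHom.mapMatrix_apply, Matrix.map_apply, Matrix.of_apply]
    exact eval_aeval_X x i _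
  have htop := top_zero Φ hsym hdeg hzero
  obtain ⟨y, hy⟩ := exists_vec R hR
  have h3 := congrArg (eval y) htop
  rw [hΦ, map_sum, map_sum, map_zero] at h3
  rw [← h3]
  refine Finset.sum_congr rfl fun s _ => ?_
  rw [← smul_eq_C_mul, map_smul, tc_prod]
  have hc : (f s).coeff (N + 1) = 1 := by
    have := (hf s).1
    rw [Polynomial.Monic, Polynomial.leadingCoeff, (hf s).2] at this
    exact this
  rw [hc, C_1, one_mul, smul_eval, map_prod, ← hy, Multiset.map_map]
  congr 1
  exact Finset.prod_congr rfl fun i _ => (eval_aeval_X y i (f s)).symm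

theorem core (hDP : DP) {N n : ℕ} (f g : Fin n → Polynomial ℂ)
    (hf : ∀ s, (f s).Monic ∧ (f s).natDegree = N + 1 ∧ (g s).natDegree ≤ N + 1)
    (hH : ∀ (z : ℂ) (R : Multiset ℂ), R.card = N →
      ∑ s, (Wr (f s) (g s)).eval z * (R.map (fun x => (f s).eval x)).prod = 0) :
    ∃ h : Fin n → Polynomial ℂ, (∀ s, (h s).natDegree < N + 1) ∧
      (∀ s, h s = g s - Polynomial.C ((g s).coeff (N + 1)) * f s) ∧
      ∀ (t : ℂ) (R : Multiset ℂ), R.card = N →
      ∑ s, (h s).eval t * (R.map (fun x => (f s).eval x)).prod = 0 := by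
  have hh : ∀ s, (g s - Polynomial.C ((g s).coeff (N + 1)) * f s).natDegree < N + 1 := by
    intro s
    rw [Nat.lt_succ_iff, Polynomial.natDegree_le_iff_coeff_eq_zero]
    intro k hk
    rw [Polynomial.coeff_sub, Polynomial.coeff_C_mul]
    by_cases hk1 : k = N + 1
    · subst hk1
      have hc : (f s).coeff (N + 1) = 1 := by
        have := (hf s).1
        rw [Polynomial.Monic, Polynomial.leadingCoeff, (hf s).2.1] at this
        exact this
      rw [hc]; ring
    · rw [Polynomial.coeff_eq_zero_of_natDegree_lt ((hf s).2.2.trans_lt (by omega)),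
        Polynomial.coeff_eq_zero_of_natDegree_lt ((hf s).2.1.trans_lt (by omega))]
      ring
  refine ⟨_, hh, fun s => rfl, fun t R hR => ?_⟩
  have hW : ∀ s, Wr (f s) (g s - Polynomial.C ((g s).coeff (N + 1)) * f s) = Wr (f s) (g s) := by
    intro s
    simp only [Wr, Polynomial.derivative_sub, Polynomial.derivative_C_mul]
    ring
  have h1 : ∀ j : Fin (N + 1), ∑ s, (g s - Polynomial.C ((g s).coeff (N + 1)) * f s).coeff j *
      (R.map (fun x => (f s).eval x)).prod = 0 := fun j =>
    core_aux hDP f _ (fun s => ⟨(hf s).1, (hf s).2.1⟩) hh (by simpa only [hW] using hH) j R hR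
  have h2 : ∀ s, (g s - Polynomial.C ((g s).coeff (N + 1)) * f s).eval t *
      (R.map (fun x => (f s).eval x)).prod
      = ∑ j : Fin (N + 1), t ^ (j : ℕ) *
        ((g s - Polynomial.C ((g s).coeff (N + 1)) * f s).coeff j *
          (R.map (fun x => (f s).eval x)).prod) := by
    intro s
    rw [Polynomial.eval_eq_sum_range' (hh s), Finset.sum_mul,
      ← Fin.sum_univ_eq_sum_range (fun j =>
        (g s - Polynomial.C ((g s).coeff (N + 1)) * f s).coeff j * t ^ j *
          (R.map (fun x => (f s).eval x)).prod) (N + 1)]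
    exact Finset.sum_congr rfl fun j _ => by ring
  rw [Finset.sum_congr rfl fun s _ => h2 s, Finset.sum_comm]
  apply Finset.sum_eq_zero
  intro j _
  rw [← Finset.mul_sum, h1 j, mul_zero]

end Vale.Agent.P181.H536.Dk
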