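import Vale.Agent.P181.H280.Core
import Mathlib.LinearAlgebra.Lagrange

/-!
Every polynomial in `t₀; t₁, …, t_m`, symmetric in the last `m` variables and of degree at most
`m` in each variable, is a sum of functions `g(t₀) ∏ f(t_i)` with `f` monic of degree `m`.
-/

set_option autoImplicit false

open Polynomial

namespace Vale.Agent.P181.H536.Dk

variable {m : ℕ}

/-- the function `g(t₀) ∏ f(t_i)` -/
noncomputable def gen (m : ℕ) (f g : ℂ[X]) : ℂ → (Fin m → ℂ) → ℂ :=
  fun t0 t => g.eval t0 * ∏ i, f.eval (t i)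

/-- the span of the functions `g(t₀) ∏ f(t_i)` with `f` monic -/
noncomputable def Sp (m : ℕ) : Submodule ℂ (ℂ → (Fin m → ℂ) → ℂ) :=
  Submodule.span ℂ {r | ∃ f g : ℂ[X], f.Monic ∧ f.natDegree = m ∧ g.natDegree ≤ m ∧ r = gen m f g}

theorem gen_mem_a {f g : ℂ[X]} (hf : f.natDegree ≤ m) (hc : f.coeff m ≠ 0) (hg : g.natDegree ≤ m) :
    gen m f g ∈ Sp m := by
  have hdeg : f.natDegree = m := le_antisymm hf (le_natDegree_of_ne_zero hc)
  have hlead : f.leadingCoeff = f.coeff m := by rw [leadingCoeff, hdeg]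
  have hmon : (C (f.coeff m)⁻¹ * f).Monic := by
    rw [Monic, leadingCoeff_mul, leadingCoeff_C, hlead, inv_mul_cancel₀ hc]
  have hmdeg : (C (f.coeff m)⁻¹ * f).natDegree = m := by
    rw [natDegree_C_mul (inv_ne_zero hc), hdeg]
  have h : gen m f g = (f.coeff m) ^ m • gen m (C (f.coeff m)⁻¹ * f) g := by
    funext t0 t
    simp only [gen, Pi.smul_apply, smul_eq_mul, eval_mul, eval_C, Finset.prod_mul_distrib,
      Finset.prod_const, Finset.card_univ, Fintype.card_fin]
    have h1 : (f.coeff m) ^ m * ((f.coeff m)⁻¹) ^ m = 1 := by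
      rw [← mul_pow, mul_inv_cancel₀ hc, one_pow]
    linear_combination (- (eval t0 g * ∏ i, eval (t i) f)) * h1
  rw [h]
  exact Submodule.smul_mem _ _ (Submodule.subset_span ⟨_, _, hmon, hmdeg, hg, rfl⟩)

theorem gen_mem_b {f g : ℂ[X]} (hf : f.natDegree ≤ m) (hg : g.natDegree ≤ m) :
    gen m f g ∈ Sp m := by
  classical
  by_cases hc : f.coeff m = 0
  · let v : Fin (m + 1) → ℂ := fun k => (k : ℕ) + 1
    have hv : Function.Injective v := by
      intro a b hab
      have : ((a : ℕ) : ℂ) = (b : ℕ) := by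
        simpa [v] using hab
      exact Fin.ext (by exact_mod_cast this)
    let b : Fin (m + 1) → ℂ := fun k => (Lagrange.basis Finset.univ v k).eval 0
    have key : gen m f g = ∑ k, b k • gen m (f + C (v k) * X ^ m) g := by
      funext t0 t
      let P : ℂ[X] := C (g.eval t0) * ∏ i, (C (f.eval (t i)) + C ((t i) ^ m) * X)
      have hPdeg : P.degree < (Finset.univ : Finset (Fin (m + 1))).card := by
        have h1 : P.natDegree ≤ m := by
          refine (natDegree_C_mul_le _ _).trans ?_
          refine (natDegree_prod_le _ _).trans ?_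
          refine (Finset.sum_le_card_nsmul _ _ 1 ?_).trans (by simp)
          intro i _
          refine (natDegree_add_le _ _).trans (max_le (by simp) ?_)
          exact (natDegree_C_mul_le _ _).trans (by simp)
        have h2 : (Finset.univ : Finset (Fin (m + 1))).card = m + 1 := by simp
        rw [h2]
        exact (degree_le_natDegree).trans_lt (by exact_mod_cast Nat.lt_succ_of_le h1)
      have hP := Lagrange.eq_interpolate (s := Finset.univ) (v := v)
        (fun a _ b _ h => hv h) hPdeg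
      have h0 := congrArg (eval 0) hP
      rw [Lagrange.interpolate_apply, eval_finsetSum] at h0
      have hev : ∀ x, P.eval x = g.eval t0 * ∏ i, (f.eval (t i) + (t i) ^ m * x) := by
        intro x
        simp [P, eval_prod]
      simp only [eval_mul, eval_C, hev] at h0
      simp only [gen, Finset.sum_apply, Pi.smul_apply, smul_eq_mul, eval_add, eval_mul, eval_C,
        eval_pow, eval_X]
      rw [mul_comm]
      simp only [mul_zero, add_zero] at h0
      rw [mul_comm, h0]
      refine Finset.sum_congr rfl fun k _ => ?_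
      rw [mul_comm]
      congr 2
      refine Finset.prod_congr rfl fun i _ => ?_
      ring
    rw [key]
    refine Submodule.sum_mem _ fun k _ => Submodule.smul_mem _ _ (gen_mem_a ?_ ?_ hg)
    · refine (natDegree_add_le _ _).trans (max_le hf ?_)
      exact (natDegree_C_mul_le _ _).trans (by simp)
    · rw [coeff_add, hc, zero_add, coeff_C_mul, coeff_X_pow_self, mul_one]
      simp only [v]
      exact_mod_cast Nat.succ_ne_zero (k : ℕ)
  · exact gen_mem_a hf hc hg

/-- the multilinear map `v ↦ g(t₀) ∏ v_i(t_i)` -/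
noncomputable def Mg (m : ℕ) (g : ℂ[X]) :
    MultilinearMap ℂ (fun _ : Fin m => ℂ[X]) (ℂ → (Fin m → ℂ) → ℂ) where
  toFun v := fun t0 t => g.eval t0 * ∏ i, (v i).eval (t i)
  map_update_add' := by
    intro _ v i x y
    funext t0 t
    simp only [Pi.add_apply]
    rw [← mul_add]
    congr 1
    rw [← Finset.mul_prod_erase Finset.univ (fun j => (Function.update v i (x + y) j).eval (t j))
        (Finset.mem_univ i),
      ← Finset.mul_prod_erase Finset.univ (fun j => (Function.update v i x j).eval (t j))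
        (Finset.mem_univ i),
      ← Finset.mul_prod_erase Finset.univ (fun j => (Function.update v i y j).eval (t j))
        (Finset.mem_univ i)]
    have h : ∀ z : ℂ[X], ∏ j ∈ Finset.univ.erase i, (Function.update v i z j).eval (t j)
        = ∏ j ∈ Finset.univ.erase i, (v j).eval (t j) := by
      intro z
      refine Finset.prod_congr rfl fun j hj => ?_
      rw [Function.update_of_ne (Finset.ne_of_mem_erase hj)]
    rw [h, h, h]
    simp only [Function.update_self, eval_add]
    ring
  map_update_smul' := by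
    intro _ v i c x
    funext t0 t
    simp only [Pi.smul_apply, smul_eq_mul]
    rw [mul_left_comm]
    congr 1
    rw [← Finset.mul_prod_erase Finset.univ (fun j => (Function.update v i (c • x) j).eval (t j))
        (Finset.mem_univ i),
      ← Finset.mul_prod_erase Finset.univ (fun j => (Function.update v i x j).eval (t j))
        (Finset.mem_univ i)]
    have h : ∀ z : ℂ[X], ∏ j ∈ Finset.univ.erase i, (Function.update v i z j).eval (t j)
        = ∏ j ∈ Finset.univ.erase i, (v j).eval (t j) := by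
      intro z
      refine Finset.prod_congr rfl fun j hj => ?_
      rw [Function.update_of_ne (Finset.ne_of_mem_erase hj)]
    rw [h, h]
    simp only [Function.update_self, eval_smul, smul_eq_mul]
    ring

theorem Mg_symm_mem {g : ℂ[X]} (hg : g.natDegree ≤ m) (y : Fin m → ℂ[X])
    (hy : ∀ i, (y i).natDegree ≤ m) :
    ∑ π : Equiv.Perm (Fin m), Mg m g (fun i => y (π i)) ∈ Sp m := by
  have h := H280.polar ((Sp m).mkQ.compMultilinearMap (Mg m g)) (degreeLE ℂ m)
    (fun f hf => by
      rw [LinearMap.compMultilinearMap_apply, Submodule.mkQ_apply, Submodule.Quotient.mk_eq_zero]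
      exact gen_mem_b (natDegree_le_iff_degree_le.mpr (mem_degreeLE.mp hf)) hg) y
    (fun i => mem_degreeLE.mpr (natDegree_le_iff_degree_le.mp (hy i)))
  simp only [LinearMap.compMultilinearMap_apply] at h
  rw [← map_sum, Submodule.mkQ_apply, Submodule.Quotient.mk_eq_zero] at h
  exact h

theorem rep_mem (U : MvPolynomial (Fin (m + 1)) ℂ) (hd : ∀ i, MvPolynomial.degreeOf i U ≤ m)
    (u : ℂ → (Fin m → ℂ) → ℂ) (hu : ∀ t0 t, u t0 t = MvPolynomial.eval (Fin.cons t0 t) U)
    (hs : ∀ (t0 : ℂ) (t : Fin m → ℂ) (σ : Equiv.Perm (Fin m)), u t0 (t ∘ σ) = u t0 t) :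
    u ∈ Sp m := by
  have h1 : ((m.factorial : ℕ) : ℂ) • u
      = ∑ α ∈ U.support, U.coeff α •
        ∑ π : Equiv.Perm (Fin m), Mg m (X ^ (α 0)) (fun i => X ^ (α (π i).succ)) := by
    funext t0 t
    have h2 : ((m.factorial : ℕ) : ℂ) * u t0 t
        = ∑ σ : Equiv.Perm (Fin m), MvPolynomial.eval (Fin.cons t0 (t ∘ σ) : Fin (m + 1) → ℂ) U := by
      simp only [← hu, hs, Finset.sum_const, Finset.card_univ, Fintype.card_perm, Fintype.card_fin,
        nsmul_eq_mul]
    simp only [Pi.smul_apply, smul_eq_mul, Finset.sum_apply]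
    rw [h2]
    simp only [MvPolynomial.eval_eq']
    rw [Finset.sum_comm]
    refine Finset.sum_congr rfl fun α _ => ?_
    rw [← Finset.mul_sum]
    congr 1
    rw [← Equiv.sum_comp (Equiv.inv (Equiv.Perm (Fin m)))]
    refine Finset.sum_congr rfl fun σ _ => ?_
    simp only [Equiv.inv_apply, Fin.prod_univ_succ, Fin.cons_zero, Fin.cons_succ,
      Function.comp_apply]
    change _ = (X ^ (α 0) : ℂ[X]).eval t0 * ∏ i, (X ^ (α (σ i).succ) : ℂ[X]).eval (t i)
    simp only [eval_pow, eval_X]
    congr 1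
    rw [← Equiv.prod_comp σ]
    refine Finset.prod_congr rfl fun i _ => ?_
    simp
  have h3 : ((m.factorial : ℕ) : ℂ) • u ∈ Sp m := by
    rw [h1]
    refine Submodule.sum_mem _ fun α hα => Submodule.smul_mem _ _ ?_
    have e1 : (X ^ (α 0) : ℂ[X]).natDegree ≤ m := by
      rw [natDegree_X_pow]
      exact (MvPolynomial.degreeOf_le_iff.mp (hd 0) α hα)
    have e2 : ∀ i : Fin m, (X ^ (α i.succ) : ℂ[X]).natDegree ≤ m := by
      intro i
      rw [natDegree_X_pow]
      exact (MvPolynomial.degreeOf_le_iff.mp (hd i.succ) α hα)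
    exact Mg_symm_mem e1 (fun i => X ^ (α i.succ)) e2
  have h4 : ((m.factorial : ℕ) : ℂ) ≠ 0 := by exact_mod_cast m.factorial_ne_zero
  have h5 := Submodule.smul_mem (Sp m) (((m.factorial : ℕ) : ℂ)⁻¹) h3
  rwa [smul_smul, inv_mul_cancel₀ h4, one_smul] at h5

theorem rep (U : MvPolynomial (Fin (m + 1)) ℂ) (hd : ∀ i, MvPolynomial.degreeOf i U ≤ m)
    (u : ℂ → (Fin m → ℂ) → ℂ) (hu : ∀ t0 t, u t0 t = MvPolynomial.eval (Fin.cons t0 t) U)
    (hs : ∀ (t0 : ℂ) (t : Fin m → ℂ) (σ : Equiv.Perm (Fin m)), u t0 (t ∘ σ) = u t0 t) :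
    ∃ (n : ℕ) (f g : Fin n → ℂ[X]), (∀ s, (f s).Monic ∧ (f s).natDegree = m ∧
      (g s).natDegree ≤ m) ∧ ∀ (t0 : ℂ) (t : Fin m → ℂ),
      u t0 t = ∑ s, (g s).eval t0 * ∏ i, (f s).eval (t i) := by
  have h := rep_mem U hd u hu hs
  rw [Sp, Submodule.mem_span_set'] at h
  obtain ⟨n, a, r, hr⟩ := h
  choose f g hf hfd hg hfg using fun s => (r s).2
  refine ⟨n, f, fun s => C (a s) * g s, fun s => ⟨hf s, hfd s,
    (natDegree_C_mul_le _ _).trans (hg s)⟩, fun t0 t => ?_⟩
  have h2 := congrFun (congrFun hr t0) t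
  rw [← h2]
  simp only [Finset.sum_apply, Pi.smul_apply, smul_eq_mul]
  refine Finset.sum_congr rfl fun s _ => ?_
  rw [hfg s, gen, eval_mul, eval_C, mul_assoc]

end Vale.Agent.P181.H536.Dk
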