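import Vale.Agent.P181.H536.Dk6
import Vale.Agent.P181.H536.Rep

/-!
The vanishing theorem for symmetric cocycles of nearly tight degree.
-/

set_option autoImplicit false

namespace Vale.Agent.P181.H536.Dk

open MvPolynomial

theorem degreeOf_subst {σ τ : Type*} [Fintype σ] [DecidableEq σ] (θ : σ → MvPolynomial τ ℂ) (j : τ)
    (k0 : σ) (hθ : ∀ k, degreeOf j (θ k) ≤ if k = k0 then 1 else 0) (P : MvPolynomial σ ℂ) :
    degreeOf j (aeval θ P) ≤ degreeOf k0 P := by
  rw [aeval_def, eval₂_eq']
  refine (degreeOf_sum_le _ _ _).trans ?_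
  apply Finset.sup_le
  intro d hd
  rw [MvPolynomial.algebraMap_eq]
  refine (degreeOf_C_mul_le _ _ _).trans ?_
  refine (degreeOf_prod_le _ _ _).trans ?_
  have h1 : ∀ i ∈ Finset.univ, degreeOf j (θ i ^ d i) ≤ if i = k0 then d k0 else 0 := by
    intro i _
    refine (degreeOf_pow_le _ _ _).trans ?_
    have := hθ i
    split_ifs at this ⊢ with h
    · subst h; nlinarith
    · have h0 : degreeOf j (θ i) = 0 := by omega
      rw [h0, mul_zero]
  refine (Finset.sum_le_sum h1).trans ?_
  rw [Finset.sum_ite_eq' Finset.univ k0, if_pos (Finset.mem_univ _)]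
  exact degreeOf_le_iff.mp le_rfl d hd

theorem eval_aeval_mv {σ τ : Type*} (θ : σ → MvPolynomial τ ℂ) (v : τ → ℂ)
    (P : MvPolynomial σ ℂ) : eval v (aeval θ P) = eval (fun i => eval v (θ i)) P := by
  induction P using MvPolynomial.induction_on with
  | C a => simp [MvPolynomial.algebraMap_eq]
  | add p q hp hq => rw [map_add, map_add, hp, hq, map_add]
  | mul_X p i hp => rw [map_mul, map_mul, hp, aeval_X, map_mul, eval_X]

theorem eval_aeval_poly {σ : Type*} (θ : σ → Polynomial ℂ) (t : ℂ)
    (P : MvPolynomial σ ℂ) : (aeval θ P : Polynomial ℂ).eval t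
      = eval (fun i => (θ i).eval t) P := by
  induction P using MvPolynomial.induction_on with
  | C a => simp [MvPolynomial.aeval_C]
  | add p q hp hq => rw [map_add, Polynomial.eval_add, hp, hq, map_add]
  | mul_X p i hp => rw [map_mul, Polynomial.eval_mul, hp, aeval_X, map_mul, eval_X]

theorem map_univ_succAbove {n : ℕ} {α : Type*} (F : Fin (n + 1) → α) (j : Fin (n + 1)) :
    (Finset.univ : Finset (Fin (n + 1))).val.map F
      = F j ::ₘ (Finset.univ : Finset (Fin n)).val.map (fun i => F (j.succAbove i)) := by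
  rw [Fin.univ_succAbove n j, Finset.cons_val, Multiset.map_cons, Finset.map_val,
    Multiset.map_map]
  rfl

/-- the hypotheses of the theorem -/
structure Near (N : ℕ) (c : ℂ → ℂ → Multiset ℂ → ℂ) (P : MvPolynomial (Fin (N + 2)) ℂ) : Prop where
  symm : ∀ x y T, T.card = N → c x y T = c y x T
  coc : ∀ (x y z : ℂ) (R : Multiset ℂ), R.card + 1 = N →
    (x - y) * c x y (z ::ₘ R) + (y - z) * c y z (x ::ₘ R) + (z - x) * c z x (y ::ₘ R) = 0
  diag : ∀ (x : ℂ) (T : Multiset ℂ), T.card = N → c x x T = 0
  poly : ∀ v : Fin (N + 2) → ℂ, eval v P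
    = c (v 0) (v 1) ((Finset.univ : Finset (Fin N)).val.map fun i => v i.succ.succ)
  deg0 : degreeOf 0 P ≤ N
  deg1 : degreeOf 1 P ≤ N
  deg : ∀ i, degreeOf i P ≤ N + 1

section step

variable {n : ℕ} {c : ℂ → ℂ → Multiset ℂ → ℂ} {P : MvPolynomial (Fin (n + 1 + 2)) ℂ}

/-- `(x - y) c(x, y; T)` -/
def ww (c : ℂ → ℂ → Multiset ℂ → ℂ) (x y : ℂ) (T : Multiset ℂ) : ℂ := (x - y) * c x y T

/-- the potential -/
noncomputable def uu (n : ℕ) (c : ℂ → ℂ → Multiset ℂ → ℂ) (x : ℂ) (T : Multiset ℂ) : ℂ :=
  ((n : ℂ) + 3)⁻¹ * (T.map fun y => ww c x y (T.erase y)).sum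

theorem ww_eq (h : Near (n + 1) c P) (x y : ℂ) (R : Multiset ℂ) (hR : R.card = n + 1) :
    ww c x y R = uu n c x (y ::ₘ R) - uu n c y (x ::ₘ R) := by
  have hsum : ∀ x y : ℂ, ((y ::ₘ R).map fun z => ww c x z ((y ::ₘ R).erase z)).sum
      = ww c x y R + (R.map fun z => ww c x z (y ::ₘ R.erase z)).sum := by
    intro x y
    rw [Multiset.map_cons, Multiset.sum_cons, Multiset.erase_cons_head]
    congr 2
    apply Multiset.map_congr rfl
    intro z hz
    rw [Multiset.erase_cons_tail_of_mem hz]
  have hn : ((n : ℂ) + 3) ≠ 0 := by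
    have : ((n + 3 : ℕ) : ℂ) ≠ 0 := by exact_mod_cast Nat.succ_ne_zero (n + 2)
    push_cast at this
    exact this
  have hdiff : (R.map fun z => ww c x z (y ::ₘ R.erase z)).sum
      - (R.map fun z => ww c y z (x ::ₘ R.erase z)).sum = ((n : ℂ) + 1) * ww c x y R := by
    rw [← Multiset.sum_map_sub]
    have : R.map (fun z => ww c x z (y ::ₘ R.erase z) - ww c y z (x ::ₘ R.erase z))
        = R.map (fun _ => ww c x y R) := by
      apply Multiset.map_congr rfl
      intro z hz
      have hcard : (R.erase z).card + 1 = n + 1 := by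
        rw [Multiset.card_erase_add_one hz, hR]
      have h1 := h.coc x y z (R.erase z) hcard
      rw [Multiset.cons_erase hz] at h1
      have h2 := h.symm z x (y ::ₘ R.erase z) (by rw [Multiset.card_cons, hcard])
      simp only [ww]
      rw [h2] at h1
      linear_combination (-1 : ℂ) * h1
    rw [this, Multiset.map_const', Multiset.sum_replicate, hR, nsmul_eq_mul]
    push_cast
    ring
  rw [uu, uu, ← mul_sub, hsum, hsum]
  have hanti : ww c y x R = - ww c x y R := by
    rw [ww, ww, h.symm y x R hR]; ring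
  rw [hanti]
  have : ww c x y R + (R.map fun z => ww c x z (y ::ₘ R.erase z)).sum -
      (-ww c x y R + (R.map fun z => ww c y z (x ::ₘ R.erase z)).sum)
      = ((n : ℂ) + 3) * ww c x y R := by
    linear_combination hdiff
  rw [this, ← mul_assoc, inv_mul_cancel₀ hn, one_mul]

/-- substitution for one term of the potential -/
noncomputable def th (n : ℕ) (j : Fin (n + 2)) : Fin (n + 1 + 2) → Fin (n + 1 + 2) :=
  Fin.cons 0 (Fin.cons j.succ fun i : Fin (n + 1) => (j.succAbove i).succ)

/-- the potential as a polynomial -/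
noncomputable def UU (n : ℕ) (P : MvPolynomial (Fin (n + 1 + 2)) ℂ) :
    MvPolynomial (Fin (n + 1 + 2)) ℂ :=
  ∑ j : Fin (n + 2), C (((n : ℂ) + 3)⁻¹) *
    ((X 0 - X j.succ) * aeval (fun k => X (th n j k)) P)

theorem eval_UU (h : Near (n + 1) c P) (t0 : ℂ) (t : Fin (n + 2) → ℂ) :
    uu n c t0 ((Finset.univ : Finset (Fin (n + 2))).val.map t)
      = eval (Fin.cons t0 t) (UU n P) := by
  rw [uu, UU, map_sum, Multiset.map_map]
  change _ * (∑ j : Fin (n + 2), _) = _
  rw [Finset.mul_sum]
  refine Finset.sum_congr rfl fun j _ => ?_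
  simp only [Function.comp_apply]
  rw [map_univ_succAbove t j, Multiset.erase_cons_head, map_mul, eval_C, map_mul, map_sub,
    eval_X, eval_X, Fin.cons_zero, Fin.cons_succ, eval_aeval_mv, h.poly]
  congr 2
  · simp [th]
    rfl

theorem degreeOf_UU (h : Near (n + 1) c P) (i : Fin (n + 1 + 2)) :
    degreeOf i (UU n P) ≤ n + 2 := by
  rw [UU]
  refine (degreeOf_sum_le _ _ _).trans ?_
  apply Finset.sup_le
  intro j _
  refine (degreeOf_C_mul_le _ _ _).trans ?_
  refine (degreeOf_mul_le _ _ _).trans ?_
  have hX : degreeOf i (X 0 - X j.succ : MvPolynomial (Fin (n + 1 + 2)) ℂ)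
      ≤ if i = 0 ∨ i = j.succ then 1 else 0 := by
    refine (degreeOf_sub_le _ _ _).trans ?_
    rw [degreeOf_X, degreeOf_X]
    split_ifs <;> simp_all
  have hinj : Function.Injective (th n j) := by
    intro a b
    refine Fin.cases ?_ (fun a => ?_) a <;> refine Fin.cases ?_ (fun b => ?_) b
    · intro _; rfl
    · refine Fin.cases ?_ (fun b => ?_) b
      · intro h; simp only [th, Fin.cons_succ, Fin.cons_zero] at h
        exact absurd h.symm (Fin.succ_ne_zero _)
      · intro h; simp only [th, Fin.cons_succ, Fin.cons_zero] at h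
        exact absurd h.symm (Fin.succ_ne_zero _)
    · refine Fin.cases ?_ (fun a => ?_) a
      · intro h; simp only [th, Fin.cons_succ, Fin.cons_zero] at h
        exact absurd h (Fin.succ_ne_zero _)
      · intro h; simp only [th, Fin.cons_succ, Fin.cons_zero] at h
        exact absurd h (Fin.succ_ne_zero _)
    · refine Fin.cases ?_ (fun a => ?_) a <;> refine Fin.cases ?_ (fun b => ?_) b
      · intro _; rfl
      · intro h
        simp only [th, Fin.cons_succ, Fin.cons_zero, Fin.succ_inj] at h
        exact absurd h.symm (Fin.succAbove_ne j b)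
      · intro h
        simp only [th, Fin.cons_succ, Fin.cons_zero, Fin.succ_inj] at h
        exact absurd h (Fin.succAbove_ne j a)
      · intro h
        simp only [th, Fin.cons_succ, Fin.succ_inj] at h
        rw [Fin.succAbove_right_injective h]
  obtain ⟨k, rfl⟩ := (Finite.injective_iff_surjective.mp hinj) i
  have hP : degreeOf (th n j k) (aeval (fun k => X (th n j k)) P
      : MvPolynomial (Fin (n + 1 + 2)) ℂ) ≤ degreeOf k P := by
    apply degreeOf_subst
    intro l
    rw [degreeOf_X]
    by_cases hl : l = k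
    · subst hl; simp
    · rw [if_neg (fun hh => hl (hinj hh).symm), if_neg hl]
  have h0 : th n j 0 = 0 := rfl
  have h1 : th n j 1 = j.succ := rfl
  by_cases hk0 : k = 0
  · subst hk0
    have := h.deg0
    split_ifs at hX <;> omega
  by_cases hk1 : k = 1
  · subst hk1
    have := h.deg1
    split_ifs at hX <;> omega
  have hne : ¬ (th n j k = 0 ∨ th n j k = j.succ) := by
    rintro (hh | hh)
    · exact hk0 (hinj (hh.trans h0.symm))
    · exact hk1 (hinj (hh.trans h1.symm))
  rw [if_neg hne] at hX
  have := h.deg k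
  omega

theorem near_rep (h : Near (n + 1) c P) : ∃ (k : ℕ) (f g : Fin k → Polynomial ℂ),
    (∀ s, (f s).Monic ∧ (f s).natDegree = n + 1 + 1 ∧ (g s).natDegree ≤ n + 1 + 1) ∧
    ∀ (x y : ℂ) (R : Multiset ℂ), R.card = n + 1 →
      ww c x y R = ∑ s, ((g s).eval x * (f s).eval y - (g s).eval y * (f s).eval x) *
        (R.map fun z => (f s).eval z).prod := by
  obtain ⟨k, f, g, hfg, hrep⟩ := rep (m := n + 2) (UU n P) (degreeOf_UU h)
    (fun t0 t => uu n c t0 ((Finset.univ : Finset (Fin (n + 2))).val.map t))
    (fun t0 t => eval_UU h t0 t) (by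
      intro t0 t σ
      have : (Finset.univ : Finset (Fin (n + 2))).val.map (t ∘ σ)
          = (Finset.univ : Finset (Fin (n + 2))).val.map t := by
        rw [← Multiset.map_map]
        congr 1
        have := congrArg Finset.val (Finset.map_univ_equiv σ)
        rw [Finset.map_val] at this
        exact this
      simp only [this])
  refine ⟨k, f, g, hfg, fun x y R hR => ?_⟩
  have key : ∀ (x : ℂ) (T : Multiset ℂ), T.card = n + 2 →
      uu n c x T = ∑ s, (g s).eval x * (T.map fun z => (f s).eval z).prod := by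
    intro x T hT
    obtain ⟨t, rfl⟩ := exists_vec T hT
    rw [hrep x t]
    refine Finset.sum_congr rfl fun s _ => ?_
    rw [Multiset.map_map]
    rfl
  rw [ww_eq h x y R hR, key x _ (by rw [Multiset.card_cons, hR]),
    key y _ (by rw [Multiset.card_cons, hR]), ← Finset.sum_sub_distrib]
  refine Finset.sum_congr rfl fun s _ => ?_
  rw [Multiset.map_cons, Multiset.prod_cons, Multiset.map_cons, Multiset.prod_cons]
  ring

theorem near_H (h : Near (n + 1) c P) {k : ℕ} {f g : Fin k → Polynomial ℂ}
    (hw : ∀ (x y : ℂ) (R : Multiset ℂ), R.card = n + 1 →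
      ww c x y R = ∑ s, ((g s).eval x * (f s).eval y - (g s).eval y * (f s).eval x) *
        (R.map fun z => (f s).eval z).prod)
    (z : ℂ) (R : Multiset ℂ) (hR : R.card = n + 1) :
    ∑ s, (Wr (f s) (g s)).eval z * (R.map fun z => (f s).eval z).prod = 0 := by
  obtain ⟨y, rfl⟩ := exists_vec R hR
  set R : Multiset ℂ := (Finset.univ : Finset (Fin (n + 1))).val.map y with hRdef
  let p : Polynomial ℂ := aeval (Fin.cons Polynomial.X (Fin.cons (Polynomial.C z)
    (fun i => Polynomial.C (y i))) : Fin (n + 1 + 2) → Polynomial ℂ) P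
  have hp : ∀ x, p.eval x = c x z R := by
    intro x
    have h1 : p.eval x = eval (fun i => ((Fin.cons Polynomial.X (Fin.cons (Polynomial.C z)
      (fun i => Polynomial.C (y i))) : Fin (n + 1 + 2) → Polynomial ℂ) i).eval x) P :=
      eval_aeval_poly _ x P
    rw [h1, h.poly]
    have e0 : ((Fin.cons Polynomial.X (Fin.cons (Polynomial.C z)
      (fun i => Polynomial.C (y i))) : Fin (n + 1 + 2) → Polynomial ℂ) 0) = Polynomial.X := rfl
    have e1 : ((Fin.cons Polynomial.X (Fin.cons (Polynomial.C z)
      (fun i => Polynomial.C (y i))) : Fin (n + 1 + 2) → Polynomial ℂ) 1) = Polynomial.C z := rfl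
    rw [e0, e1, Polynomial.eval_X, Polynomial.eval_C, hRdef]
    congr 2
    funext i
    simp only [Fin.cons_succ, Polynomial.eval_C]
  have hpoly : ∑ s, Polynomial.C ((R.map fun z => (f s).eval z).prod) *
      (g s * Polynomial.C ((f s).eval z) - Polynomial.C ((g s).eval z) * f s)
      = (Polynomial.X - Polynomial.C z) * p := by
    apply Polynomial.funext
    intro x
    rw [Polynomial.eval_finsetSum, Polynomial.eval_mul, hp]
    have h1 := hw x z R hR
    simp only [ww] at h1
    rw [Polynomial.eval_sub, Polynomial.eval_X, Polynomial.eval_C, h1]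
    refine Finset.sum_congr rfl fun s _ => ?_
    simp only [Polynomial.eval_mul, Polynomial.eval_C, Polynomial.eval_sub]
    ring
  have hder := congrArg (fun q => (Polynomial.derivative q).eval z) hpoly
  simp only [Polynomial.derivative_sum, Polynomial.derivative_mul, Polynomial.derivative_sub,
    Polynomial.derivative_X, Polynomial.derivative_C, Polynomial.eval_finsetSum,
    Polynomial.eval_add, Polynomial.eval_mul, Polynomial.eval_sub, Polynomial.eval_X,
    Polynomial.eval_C, Polynomial.eval_one, Polynomial.eval_zero] at hder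
  rw [hp z, h.diag z R hR] at hder
  have : ∑ s, (Wr (f s) (g s)).eval z * (R.map fun z => (f s).eval z).prod
      = (1 - 0) * 0 + (z - z) * Polynomial.eval z (Polynomial.derivative p) := by
    rw [← hder]
    refine Finset.sum_congr rfl fun s _ => ?_
    simp only [Wr, Polynomial.eval_mul, Polynomial.eval_sub]
    ring
  rw [this]
  ring

theorem near_step (hDP : DP) (h : Near (n + 1) c P) :
    degreeOf 0 P ≤ n ∧ degreeOf 1 P ≤ n ∧ ∀ i, degreeOf i P ≤ n + 1 := by
  by_cases hP0 : P = 0
  · subst hP0
    simp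
  obtain ⟨k, f, g, hfg, hw⟩ := near_rep h
  obtain ⟨q, hq, hqdef, hZ⟩ := core hDP f g hfg (near_H h hw)
  have hf1 : ∀ s, (f s - Polynomial.X ^ (n + 2)).natDegree ≤ n + 1 := by
    intro s
    rw [Polynomial.natDegree_le_iff_coeff_eq_zero]
    intro l hl
    rw [Polynomial.coeff_sub, Polynomial.coeff_X_pow]
    by_cases hl1 : l = n + 2
    · subst hl1
      have : (f s).coeff (n + 2) = 1 := by
        have h1 := (hfg s).1
        rw [Polynomial.Monic, Polynomial.leadingCoeff, (hfg s).2.1] at h1
        exact h1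
      rw [this, if_pos rfl, sub_self]
    · rw [if_neg hl1, Polynomial.coeff_eq_zero_of_natDegree_lt, sub_zero]
      rw [(hfg s).2.1]; omega
  have hw2 : ∀ (x y : ℂ) (R : Multiset ℂ), R.card = n + 1 →
      ww c x y R = ∑ s, ((q s).eval x * (f s - Polynomial.X ^ (n + 2)).eval y
        - (q s).eval y * (f s - Polynomial.X ^ (n + 2)).eval x) *
        (R.map fun z => (f s).eval z).prod := by
    intro x y R hR
    have h1 := hZ x R hR
    have h2 := hZ y R hR
    have h3 : ∑ s, ((q s).eval x * (f s - Polynomial.X ^ (n + 2)).eval y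
        - (q s).eval y * (f s - Polynomial.X ^ (n + 2)).eval x) *
        (R.map fun z => (f s).eval z).prod
        = ∑ s, ((g s).eval x * (f s).eval y - (g s).eval y * (f s).eval x) *
          (R.map fun z => (f s).eval z).prod
          - y ^ (n + 2) * ∑ s, (q s).eval x * (R.map fun z => (f s).eval z).prod
          + x ^ (n + 2) * ∑ s, (q s).eval y * (R.map fun z => (f s).eval z).prod := by
      rw [Finset.mul_sum, Finset.mul_sum, ← Finset.sum_sub_distrib, ← Finset.sum_add_distrib]
      refine Finset.sum_congr rfl fun s _ => ?_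
      rw [hqdef s]
      simp only [Polynomial.eval_sub, Polynomial.eval_mul, Polynomial.eval_C, Polynomial.eval_pow,
        Polynomial.eval_X]
      ring
    rw [h3, h1, h2, hw x y R hR]
    ring
  let W : MvPolynomial (Fin (n + 1 + 2)) ℂ := ∑ s,
    (Polynomial.aeval (X 0) (q s) * Polynomial.aeval (X 1) (f s - Polynomial.X ^ (n + 2))
      - Polynomial.aeval (X 1) (q s) * Polynomial.aeval (X 0) (f s - Polynomial.X ^ (n + 2))) *
    ∏ i : Fin (n + 1), Polynomial.aeval (X i.succ.succ) (f s)
  have hWe : ∀ v : Fin (n + 1 + 2) → ℂ, eval v W = ww c (v 0) (v 1)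
      ((Finset.univ : Finset (Fin (n + 1))).val.map fun i => v i.succ.succ) := by
    intro v
    rw [hw2 _ _ _ (by simp), map_sum]
    refine Finset.sum_congr rfl fun s _ => ?_
    rw [map_mul, map_sub, map_mul, map_mul, eval_aeval_X, eval_aeval_X, eval_aeval_X,
      eval_aeval_X, map_prod, Multiset.map_map]
    congr 1
    exact Finset.prod_congr rfl fun i _ => eval_aeval_X v _ (f s)
  have hWP : (X 0 - X 1) * P = W := by
    apply MvPolynomial.funext
    intro v
    rw [hWe, map_mul, map_sub, eval_X, eval_X, h.poly, ww]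
  have h01 : (0 : Fin (n + 1 + 2)) ≠ 1 := by
    intro h; exact absurd (congrArg Fin.val h) (by simp)
  have hW0 : degreeOf 0 W ≤ n + 1 := by
    refine (degreeOf_sum_le _ _ _).trans ?_
    apply Finset.sup_le
    intro s _
    refine (degreeOf_mul_le _ _ _).trans ?_
    have e1 : degreeOf 0 (∏ i : Fin (n + 1), Polynomial.aeval
        (X i.succ.succ : MvPolynomial (Fin (n + 1 + 2)) ℂ) (f s)) ≤ 0 := by
      refine (degreeOf_prod_le _ _ _).trans ?_
      refine (Finset.sum_le_sum fun i _ => degreeOf_aeval_X_le i.succ.succ 0 (f s)).trans ?_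
      rw [Finset.sum_eq_zero]
      intro i _
      rw [if_neg (Fin.succ_ne_zero _).symm]
    have e2 := degreeOf_aeval_X_le 0 (0 : Fin (n + 1 + 2)) (q s)
    have e3 := degreeOf_aeval_X_le 1 (0 : Fin (n + 1 + 2)) (q s)
    have e4 := degreeOf_aeval_X_le 0 (0 : Fin (n + 1 + 2)) (f s - Polynomial.X ^ (n + 2))
    have e5 := degreeOf_aeval_X_le 1 (0 : Fin (n + 1 + 2)) (f s - Polynomial.X ^ (n + 2))
    rw [if_pos rfl] at e2 e4
    rw [if_neg h01] at e3 e5
    have e6 := hq s
    have e7 := hf1 s
    have e8 := degreeOf_sub_le (0 : Fin (n + 1 + 2)) (Polynomial.aeval (X 0) (q s) *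
      Polynomial.aeval (X 1) (f s - Polynomial.X ^ (n + 2)) : MvPolynomial _ ℂ)
      (Polynomial.aeval (X 1) (q s) * Polynomial.aeval (X 0) (f s - Polynomial.X ^ (n + 2)))
    have e9 := degreeOf_mul_le (0 : Fin (n + 1 + 2)) (Polynomial.aeval (X 0) (q s) :
      MvPolynomial _ ℂ) (Polynomial.aeval (X 1) (f s - Polynomial.X ^ (n + 2)))
    have e10 := degreeOf_mul_le (0 : Fin (n + 1 + 2)) (Polynomial.aeval (X 1) (q s) :
      MvPolynomial _ ℂ) (Polynomial.aeval (X 0) (f s - Polynomial.X ^ (n + 2)))
    omega
  have hW1 : degreeOf 1 W ≤ n + 1 := by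
    refine (degreeOf_sum_le _ _ _).trans ?_
    apply Finset.sup_le
    intro s _
    refine (degreeOf_mul_le _ _ _).trans ?_
    have e1 : degreeOf 1 (∏ i : Fin (n + 1), Polynomial.aeval
        (X i.succ.succ : MvPolynomial (Fin (n + 1 + 2)) ℂ) (f s)) ≤ 0 := by
      refine (degreeOf_prod_le _ _ _).trans ?_
      refine (Finset.sum_le_sum fun i _ => degreeOf_aeval_X_le i.succ.succ 1 (f s)).trans ?_
      rw [Finset.sum_eq_zero]
      intro i _
      rw [if_neg]
      intro h
      exact absurd (congrArg Fin.val h) (by simp)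
    have e2 := degreeOf_aeval_X_le 0 (1 : Fin (n + 1 + 2)) (q s)
    have e3 := degreeOf_aeval_X_le 1 (1 : Fin (n + 1 + 2)) (q s)
    have e4 := degreeOf_aeval_X_le 0 (1 : Fin (n + 1 + 2)) (f s - Polynomial.X ^ (n + 2))
    have e5 := degreeOf_aeval_X_le 1 (1 : Fin (n + 1 + 2)) (f s - Polynomial.X ^ (n + 2))
    rw [if_pos rfl] at e3 e5
    rw [if_neg h01.symm] at e2 e4
    have e6 := hq s
    have e7 := hf1 s
    have e8 := degreeOf_sub_le (1 : Fin (n + 1 + 2)) (Polynomial.aeval (X 0) (q s) *
      Polynomial.aeval (X 1) (f s - Polynomial.X ^ (n + 2)) : MvPolynomial _ ℂ)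
      (Polynomial.aeval (X 1) (q s) * Polynomial.aeval (X 0) (f s - Polynomial.X ^ (n + 2)))
    have e9 := degreeOf_mul_le (1 : Fin (n + 1 + 2)) (Polynomial.aeval (X 0) (q s) :
      MvPolynomial _ ℂ) (Polynomial.aeval (X 1) (f s - Polynomial.X ^ (n + 2)))
    have e10 := degreeOf_mul_le (1 : Fin (n + 1 + 2)) (Polynomial.aeval (X 1) (q s) :
      MvPolynomial _ ℂ) (Polynomial.aeval (X 0) (f s - Polynomial.X ^ (n + 2)))
    omega
  have hX01 : (X 0 - X 1 : MvPolynomial (Fin (n + 1 + 2)) ℂ) ≠ 0 := X_sub_ne h01
  have hdegmul : ∀ i, degreeOf i W = degreeOf i (X 0 - X 1 : MvPolynomial (Fin (n + 1 + 2)) ℂ)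
      + degreeOf i P := fun i => by rw [← hWP, degreeOf_mul_eq hX01 hP0]
  have hd0 : degreeOf 0 (X 0 - X 1 : MvPolynomial (Fin (n + 1 + 2)) ℂ) = 1 := degreeOf_X_sub h01
  have hd1 : degreeOf 1 (X 0 - X 1 : MvPolynomial (Fin (n + 1 + 2)) ℂ) = 1 := by
    have := degreeOf_X_sub (K := ℂ) h01.symm
    rw [← degreeOf_neg, neg_sub]
    exact this
  have r0 : degreeOf 0 P ≤ n := by have := hdegmul 0; omega
  have r1 : degreeOf 1 P ≤ n := by have := hdegmul 1; omega
  refine ⟨r0, r1, fun i => ?_⟩
  refine Fin.cases (by omega) (fun i => ?_) i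
  refine Fin.cases (by have : (Fin.succ 0 : Fin (n + 1 + 2)) = 1 := rfl
                       rw [this]; omega) (fun i => ?_) i
  -- the other variables
  set k2 : Fin (n + 1 + 2) := i.succ.succ with hk2
  have hk0 : k2 ≠ 0 := Fin.succ_ne_zero _
  have hk1 : k2 ≠ 1 := by
    intro h
    exact absurd (congrArg Fin.val h) (by simp [hk2])
  let s1 : Fin (n + 1 + 2) → Fin (n + 1 + 2) := fun l =>
    if l = 0 then 1 else if l = 1 then k2 else if l = k2 then 0 else l
  let s2 : Fin (n + 1 + 2) → Fin (n + 1 + 2) := fun l =>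
    if l = 0 then k2 else if l = 1 then 0 else if l = k2 then 1 else l
  have hrel : W = - aeval (fun l => X (s1 l)) W - aeval (fun l => X (s2 l)) W := by
    apply MvPolynomial.funext
    intro v
    rw [map_sub, map_neg, eval_aeval_mv, eval_aeval_mv]
    simp only [eval_X]
    rw [hWe, hWe, hWe]
    have a0 : s1 0 = 1 := rfl
    have a1 : s1 1 = k2 := by simp only [s1, if_neg h01.symm, if_true]
    have b0 : s2 0 = k2 := rfl
    have b1 : s2 1 = 0 := by simp only [s2, if_neg h01.symm, if_true]
    have ak : s1 k2 = 0 := by simp only [s1, if_neg hk0, if_neg hk1, if_true]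
    have bk : s2 k2 = 1 := by simp only [s2, if_neg hk0, if_neg hk1, if_true]
    have al : ∀ l : Fin n, s1 (i.succAbove l).succ.succ = (i.succAbove l).succ.succ := by
      intro l
      have e1 : (i.succAbove l).succ.succ ≠ k2 := by
        rw [hk2]; intro h
        exact Fin.succAbove_ne i l (Fin.succ_injective _ (Fin.succ_injective _ h))
      have e2 : ((i.succAbove l).succ.succ : Fin (n + 1 + 2)) ≠ 1 := by
        intro h
        exact absurd (congrArg Fin.val h) (by simp)
      simp only [s1, if_neg (Fin.succ_ne_zero _), if_neg e2, if_neg e1]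
    have bl : ∀ l : Fin n, s2 (i.succAbove l).succ.succ = (i.succAbove l).succ.succ := by
      intro l
      have e1 : (i.succAbove l).succ.succ ≠ k2 := by
        rw [hk2]; intro h
        exact Fin.succAbove_ne i l (Fin.succ_injective _ (Fin.succ_injective _ h))
      have e2 : ((i.succAbove l).succ.succ : Fin (n + 1 + 2)) ≠ 1 := by
        intro h
        exact absurd (congrArg Fin.val h) (by simp)
      simp only [s2, if_neg (Fin.succ_ne_zero _), if_neg e2, if_neg e1]
    rw [a0, a1, b0, b1, map_univ_succAbove (fun i => v i.succ.succ) i,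
      map_univ_succAbove (fun i => v (s1 i.succ.succ)) i,
      map_univ_succAbove (fun i => v (s2 i.succ.succ)) i]
    simp only [al, bl]
    rw [← hk2, ak, bk]
    have hc := h.coc (v 0) (v 1) (v k2) ((Finset.univ : Finset (Fin n)).val.map
      fun l => v (i.succAbove l).succ.succ) (by simp)
    simp only [ww]
    linear_combination hc
  have hW2 : degreeOf k2 W ≤ n + 1 := by
    rw [hrel]
    refine (degreeOf_sub_le _ _ _).trans (max_le ?_ ?_)
    · rw [degreeOf_neg]
      refine (degreeOf_subst _ k2 1 ?_ W).trans hW1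
      intro l
      rw [degreeOf_X]
      by_cases hl : l = 1
      · rw [if_pos hl]; split_ifs <;> omega
      · rw [if_neg hl, if_neg]
        simp only [s1]
        split_ifs with c0 c2
        · exact hk1
        · exact hk0
        · exact fun h => c2 h.symm
    · refine (degreeOf_subst _ k2 0 ?_ W).trans hW0
      intro l
      rw [degreeOf_X]
      by_cases hl : l = 0
      · rw [if_pos hl]; split_ifs <;> omega
      · rw [if_neg hl, if_neg]
        simp only [s2, if_neg hl]
        split_ifs with c0 c2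
        · exact hk0
        · exact hk1
        · exact fun h => c2 h.symm
  have := hdegmul k2
  omega

end step

theorem group_near_aux (hDP : DP) : ∀ (N : ℕ) (c : ℂ → ℂ → Multiset ℂ → ℂ)
    (P : MvPolynomial (Fin (N + 2)) ℂ), Near N c P →
    ∀ (x y : ℂ) (T : Multiset ℂ), T.card = N → c x y T = 0 := by
  intro N
  induction N with
  | zero =>
      intro c P h x y T hT
      have hP : ∀ i, degreeOf i P = 0 := by
        intro i
        have h0 := h.deg0
        have h1 := h.deg1
        have : i = 0 ∨ i = 1 := by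
          revert i; decide
        rcases this with rfl | rfl <;> omega
      have hC := eq_C_of_degreeOf hP
      have hT0 : T = 0 := Multiset.card_eq_zero.mp hT
      subst hT0
      have e1 := h.poly ![x, y]
      have e2 := h.poly ![x, x]
      rw [hC, eval_C] at e1 e2
      simp only [Matrix.cons_val_zero, Matrix.cons_val_one] at e1 e2
      have e3 : ((Finset.univ : Finset (Fin 0)).val.map fun i : Fin 0 =>
        (![x, y] : Fin 2 → ℂ) i.succ.succ) = 0 := rfl
      have e4 : ((Finset.univ : Finset (Fin 0)).val.map fun i : Fin 0 =>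
        (![x, x] : Fin 2 → ℂ) i.succ.succ) = 0 := rfl
      erw [e3] at e1
      erw [e4] at e2
      rw [← e1, e2]
      exact h.diag x 0 rfl
  | succ n ih =>
      intro c P h x y T hT
      obtain ⟨d0, d1, d2⟩ := near_step hDP h
      obtain ⟨a, ha⟩ := Multiset.card_pos_iff_exists_mem.mp (by rw [hT]; omega : 0 < T.card)
      obtain ⟨R, rfl⟩ := Multiset.exists_cons_of_mem ha
      have hR : R.card = n := by rw [Multiset.card_cons] at hT; omega
      let θ : Fin (n + 1 + 2) → MvPolynomial (Fin (n + 2)) ℂ :=
        Fin.cons (X 0) (Fin.cons (X 1) (Fin.cons (C a) fun i : Fin n => X i.succ.succ))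
      have t0 : θ 0 = X 0 := rfl
      have t1 : θ (Fin.succ 0) = X 1 := rfl
      have t1' : θ 1 = X 1 := rfl
      have t2 : θ (Fin.succ (Fin.succ 0)) = C a := rfl
      have t3 : ∀ i : Fin n, θ i.succ.succ.succ = X i.succ.succ := fun i => rfl
      have h01 : (0 : Fin (n + 2)) ≠ 1 := by
        intro h; exact absurd (congrArg Fin.val h) (by simp)
      have h01' : (0 : Fin (n + 1 + 2)) ≠ 1 := by
        intro h; exact absurd (congrArg Fin.val h) (by simp)
      have hs1 : ∀ i : Fin n, (1 : Fin (n + 2)) ≠ i.succ.succ := by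
        intro i h; exact absurd (congrArg Fin.val h) (by simp)
      have hs1' : ∀ i : Fin (n + 1), (1 : Fin (n + 1 + 2)) ≠ i.succ.succ := by
        intro i h; exact absurd (congrArg Fin.val h) (by simp)
      have g0 : degreeOf 0 (aeval θ P) ≤ degreeOf 0 P := by
        apply degreeOf_subst
        intro k
        refine Fin.cases ?_ (fun k => ?_) k
        · rw [t0, if_pos rfl, degreeOf_X_self]
        · rw [if_neg (Fin.succ_ne_zero k)]
          refine Fin.cases ?_ (fun k => ?_) k
          · rw [t1, degreeOf_X_of_ne h01]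
          · refine Fin.cases ?_ (fun k => ?_) k
            · rw [t2, degreeOf_C]
            · rw [t3, degreeOf_X_of_ne (Fin.succ_ne_zero _).symm]
      have g1 : degreeOf 1 (aeval θ P) ≤ degreeOf 1 P := by
        apply degreeOf_subst
        intro k
        refine Fin.cases ?_ (fun k => ?_) k
        · rw [t0, if_neg h01', degreeOf_X_of_ne h01.symm]
        · refine Fin.cases ?_ (fun k => ?_) k
          · have e : (Fin.succ 0 : Fin (n + 1 + 2)) = 1 := rfl
            rw [t1, if_pos e, degreeOf_X_self]
          · rw [if_neg (hs1' k).symm]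
            refine Fin.cases ?_ (fun k => ?_) k
            · rw [t2, degreeOf_C]
            · rw [t3, degreeOf_X_of_ne (hs1 k)]
      have g2 : ∀ i : Fin n, degreeOf i.succ.succ (aeval θ P) ≤ degreeOf i.succ.succ.succ P := by
        intro i
        apply degreeOf_subst
        intro k
        refine Fin.cases ?_ (fun k => ?_) k
        · rw [t0, if_neg (Fin.succ_ne_zero _).symm, degreeOf_X_of_ne (Fin.succ_ne_zero _)]
        · refine Fin.cases ?_ (fun k => ?_) k
          · rw [t1, if_neg, degreeOf_X_of_ne (hs1 i).symm]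
            intro h
            exact (Fin.succ_ne_zero _) (Fin.succ_injective _ h).symm
          · refine Fin.cases ?_ (fun k => ?_) k
            · rw [t2, degreeOf_C]; exact Nat.zero_le _
            · rw [t3, degreeOf_X]
              by_cases hk : k = i
              · subst hk; simp
              · rw [if_neg, if_neg]
                · intro h
                  exact hk (Fin.succ_injective _ (Fin.succ_injective _ (Fin.succ_injective _ h)))
                · intro h
                  exact hk (Fin.succ_injective _ (Fin.succ_injective _ h)).symm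
      have hnear : Near n (fun x y T => c x y (a ::ₘ T)) (aeval θ P) := by
        refine ⟨?_, ?_, ?_, ?_, ?_, ?_, ?_⟩
        · intro x y T hT
          exact h.symm x y _ (by rw [Multiset.card_cons, hT])
        · intro x y z R' hR'
          have := h.coc x y z (a ::ₘ R') (by rw [Multiset.card_cons, hR'])
          rw [Multiset.cons_swap z a, Multiset.cons_swap x a, Multiset.cons_swap y a] at this
          exact this
        · intro x T hT
          exact h.diag x _ (by rw [Multiset.card_cons, hT])
        · intro v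
          rw [eval_aeval_mv, h.poly, map_univ_succAbove _ (0 : Fin (n + 1))]
          simp only [Fin.zero_succAbove, t0, t1', t2, t3, eval_X, eval_C]
        · exact g0.trans d0
        · exact g1.trans d1
        · intro i
          refine Fin.cases ?_ (fun i => ?_) i
          · exact g0.trans (d2 _)
          · refine Fin.cases ?_ (fun i => ?_) i
            · exact g1.trans (d2 _)
            · exact (g2 i).trans (d2 _)
      exact ih _ _ hnear x y R hR

end Vale.Agent.P181.H536.Dk
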