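import Vale.Agent.P181.H536.Dk7
import Vale.Agent.P181.H78.DProd

/-!
The vanishing theorem for symmetric cocycles of nearly tight degree, final form.
-/

set_option autoImplicit false

namespace Vale.Agent.P181.H536

open MvPolynomial

/-- **Group theorem, nearly tight degree.** -/
theorem group_near {N : ℕ} (c : ℂ → ℂ → Multiset ℂ → ℂ)
    (hsymm : ∀ x y T, c x y T = c y x T)
    (hcoc : ∀ (x y z : ℂ) (R : Multiset ℂ), R.card + 1 = N →
      (x - y) * c x y (z ::ₘ R) + (y - z) * c y z (x ::ₘ R) + (z - x) * c z x (y ::ₘ R) = 0)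
    (hdiag : ∀ (x : ℂ) (T : Multiset ℂ), T.card = N → c x x T = 0)
    (hpoly : ∃ P : MvPolynomial (Fin (N + 2)) ℂ, (∀ v : Fin (N + 2) → ℂ, eval v P
      = c (v 0) (v 1) ((Finset.univ : Finset (Fin N)).val.map fun i => v i.succ.succ)) ∧
      degreeOf 0 P ≤ N ∧ degreeOf 1 P ≤ N ∧ ∀ i, degreeOf i P ≤ N + 1)
    (x y : ℂ) (T : Multiset ℂ) (hT : T.card = N) : c x y T = 0 := by
  obtain ⟨P, h1, h2, h3, h4⟩ := hpoly
  refine Dk.group_near_aux ?_ N c P ⟨fun x y T _ => hsymm x y T, hcoc, hdiag, h1, h2, h3, h4⟩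
    x y T hT
  intro m f
  exact H78.D_prod f m

end Vale.Agent.P181.H536
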