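import Vale.Agent.P181.H536.Poly
import Vale.Agent.P181.H536.Class
import Vale.Agent.P181.H536.Near

set_option autoImplicit false

open MvPolynomial

namespace Vale.Agent.P181.H536

open Vale.Agent.P181

variable {A : Type*} [CommRing A] [Algebra ℂ A]

/-- The linear forms of the pencil spanned by `p` and `q`. -/
def lin (p q : A) (x : ℂ) : A := p + x • q

/-- Products of linear forms of the pencil. -/
def Lam (p q : A) (T : Multiset ℂ) : A := (T.map (lin p q)).prod

lemma Lam_cons (p q : A) (z : ℂ) (T : Multiset ℂ) : Lam p q (z ::ₘ T) = lin p q z * Lam p q T := by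
  rw [Lam, Multiset.map_cons, Multiset.prod_cons, Lam]

omit [Algebra ℂ A] in
lemma degreeOf_lin {σ : Type*} [DecidableEq σ] (i j : σ) (p q : A) :
    degreeOf i (C p + X j * C q : MvPolynomial σ A) ≤ if i = j then 1 else 0 := by
  rcases subsingleton_or_nontrivial A with h | h
  · rw [Subsingleton.elim (C p + X j * C q : MvPolynomial σ A) 0, degreeOf_zero]
    exact Nat.zero_le _
  · refine (degreeOf_add_le _ _ _).trans ?_
    rw [degreeOf_C]
    refine max_le (Nat.zero_le _) ?_
    refine (degreeOf_mul_le _ _ _).trans ?_
    rw [degreeOf_C, degreeOf_X, add_zero]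

lemma evA_lin {σ : Type*} (x : σ → ℂ) (j : σ) (p q : A) :
    evA x (C p + X j * C q : MvPolynomial σ A) = lin p q (x j) := by
  rw [map_add, map_mul, evA_C, evA_X, evA_C, lin, Algebra.smul_def]

/-- **Group theorem.** -/
theorem group_form {k N : ℕ} (hk : k ≤ N)
    (G : MultilinearMap ℂ (fun _ : Fin (k + 1) => A) ℂ) (p q V W : A)
    (hdiag : ∀ (x : ℂ) (T : Multiset ℂ), Multiset.card T = N →
      G.curryLeft (V * Lam p q T) (fun _ => lin p q x * lin p q x * (Lam p q T * W)) = 0)
    (x y : ℂ) (T : Multiset ℂ) (hT : Multiset.card T = N) :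
    G.curryLeft (V * Lam p q T) (fun _ => lin p q x * lin p q y * (Lam p q T * W)) = 0 := by
  apply group_near (N := N) (fun x y T => G.curryLeft (V * Lam p q T)
    (fun _ => lin p q x * lin p q y * (Lam p q T * W))) _ _ hdiag _ x y T hT
  · intro x y T
    rw [mul_comm (lin p q x) (lin p q y)]
  · intro x y z R _
    simp only [Lam_cons]
    let S : A := lin p q x * lin p q y * (lin p q z * Lam p q R * W)
    have h1 : lin p q y * lin p q z * (lin p q x * Lam p q R * W) = S := by
      simp only [S]; ring
    have h2 : lin p q z * lin p q x * (lin p q y * Lam p q R * W) = S := by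
      simp only [S]; ring
    rw [h1, h2]
    have h3 : (x - y) • (V * (lin p q z * Lam p q R)) + (y - z) • (V * (lin p q x * Lam p q R)) +
        (z - x) • (V * (lin p q y * Lam p q R)) = 0 := by
      simp only [lin, Algebra.smul_def, map_sub]
      ring
    have h4 := congrArg (fun v => G.curryLeft v (fun _ => S)) h3
    simp only [map_add, map_smul, map_zero] at h4
    exact h4
  · let M : MvPolynomial (Fin (N + 2)) A := ∏ i : Fin N, (C p + X i.succ.succ * C q)
    obtain ⟨P, hP, hPd⟩ := mv_exists (σ := Fin (N + 2)) G (Fin.cons (C V * M)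
      (fun _ => (C p + X 0 * C q) * (C p + X 1 * C q) * (M * C W)))
    have hM : ∀ v : Fin (N + 2) → ℂ, evA v M
        = Lam p q ((Finset.univ : Finset (Fin N)).val.map fun i => v i.succ.succ) := by
      intro v
      rw [map_prod, Lam, Multiset.map_map]
      exact Finset.prod_congr rfl fun i _ => evA_lin v _ p q
    have h01 : (0 : Fin (N + 2)) ≠ 1 := by
      intro h; exact absurd (congrArg Fin.val h) (by simp)
    have hM0 : degreeOf 0 M ≤ 0 := by
      refine (degreeOf_prod_le _ _ _).trans ?_
      refine (Finset.sum_le_sum fun i _ => degreeOf_lin 0 i.succ.succ p q).trans ?_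
      rw [Finset.sum_eq_zero]
      intro i _
      rw [if_neg (Fin.succ_ne_zero _).symm]
    have hM1 : degreeOf 1 M ≤ 0 := by
      refine (degreeOf_prod_le _ _ _).trans ?_
      refine (Finset.sum_le_sum fun i _ => degreeOf_lin 1 i.succ.succ p q).trans ?_
      rw [Finset.sum_eq_zero]
      intro i _
      rw [if_neg]
      intro h; exact absurd (congrArg Fin.val h) (by simp)
    have hM2 : ∀ j : Fin N, degreeOf j.succ.succ M ≤ 1 := by
      intro j
      refine (degreeOf_prod_le _ _ _).trans ?_
      refine (Finset.sum_le_sum fun i _ => degreeOf_lin j.succ.succ i.succ.succ p q).trans ?_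
      rw [Finset.sum_eq_single j]
      · simp
      · intro i _ hi
        rw [if_neg]
        intro h
        exact hi (Fin.succ_injective _ (Fin.succ_injective _ h)).symm
      · intro h; exact absurd (Finset.mem_univ _) h
    have hslot0 : ∀ i, degreeOf i (C V * M) ≤ degreeOf i M := by
      intro i
      refine (degreeOf_mul_le _ _ _).trans ?_
      rw [degreeOf_C, zero_add]
    have hslot : ∀ i, degreeOf i ((C p + X 0 * C q) * (C p + X 1 * C q) * (M * C W))
        ≤ (if i = 0 then 1 else 0) + (if i = 1 then 1 else 0) + degreeOf i M := by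
      intro i
      refine (degreeOf_mul_le _ _ _).trans ?_
      have h2 := degreeOf_mul_le i (C p + X 0 * C q : MvPolynomial (Fin (N + 2)) A)
        (C p + X 1 * C q)
      have h3 := degreeOf_mul_le i M (C W)
      have h5 := degreeOf_lin i 0 p q
      have h6 := degreeOf_lin i 1 p q
      rw [degreeOf_C] at h3
      omega
    have htot : ∀ i, degreeOf i P ≤ degreeOf i M +
        k * ((if i = 0 then 1 else 0) + (if i = 1 then 1 else 0) + degreeOf i M) := by
      intro i
      refine (hPd i).trans ?_
      rw [Fin.sum_univ_succ]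
      simp only [Fin.cons_zero, Fin.cons_succ]
      refine Nat.add_le_add (hslot0 i) ?_
      refine (Finset.sum_le_sum fun _ _ => hslot i).trans ?_
      simp
    have hP0 : degreeOf 0 P ≤ N := by
      have h := htot 0
      rw [if_pos rfl, if_neg h01, Nat.le_zero.1 hM0] at h
      omega
    have hP1 : degreeOf 1 P ≤ N := by
      have h := htot 1
      rw [if_pos rfl, if_neg h01.symm, Nat.le_zero.1 hM1] at h
      omega
    refine ⟨P, ?_, hP0, hP1, ?_⟩
    · intro v
      rw [hP, MultilinearMap.curryLeft_apply]
      congr 1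
      funext i
      refine Fin.cases ?_ (fun i => ?_) i
      · rw [Fin.cons_zero, Fin.cons_zero, map_mul, evA_C, hM]
      · rw [Fin.cons_succ, Fin.cons_succ, map_mul, map_mul, map_mul, evA_lin, evA_lin,
          evA_C, hM]
    · intro i
      refine Fin.cases (by omega) (fun i => ?_) i
      refine Fin.cases ?_ (fun i => ?_) i
      · have : (Fin.succ 0 : Fin (N + 2)) = 1 := rfl
        rw [this]; omega
      · have h := htot i.succ.succ
        have h1 : ¬ (i.succ.succ : Fin (N + 2)) = 1 := by
          intro h; exact absurd (congrArg Fin.val h) (by simp)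
        rw [if_neg (Fin.succ_ne_zero _), if_neg h1] at h
        have h2 := hM2 i
        have h3 : k * (0 + 0 + degreeOf i.succ.succ M) ≤ k * 1 :=
          Nat.mul_le_mul_left k (by omega)
        omega

end Vale.Agent.P181.H536
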