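import Mathlib.Algebra.MvPolynomial.Funext
import Mathlib.Algebra.MvPolynomial.NoZeroDivisors
import Vale.Agent.P181.Bdl.B1
import Mathlib.RingTheory.MvPolynomial.Homogeneous

set_option autoImplicit false

open MvPolynomial

namespace Vale.Agent.P181.H536

section Exists

variable {A : Type*} [CommRing A] [Algebra ℂ A]

/-- Evaluation of a polynomial with coefficients in `A` at complex numbers. -/
noncomputable def evA {σ : Type*} (x : σ → ℂ) : MvPolynomial σ A →+* A :=
  eval (fun j => algebraMap ℂ A (x j))

lemma evA_C {σ : Type*} (x : σ → ℂ) (a : A) : evA x (C a) = a := eval_C _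

lemma evA_X {σ : Type*} (x : σ → ℂ) (j : σ) :
    evA x (X j : MvPolynomial σ A) = algebraMap ℂ A (x j) := eval_X _

/-- A multilinear form of polynomial expressions is a polynomial. -/
lemma mv_exists {σ : Type*} {a : ℕ} (F : MultilinearMap ℂ (fun _ : Fin a => A) ℂ)
    (P : Fin a → MvPolynomial σ A) :
    ∃ p : MvPolynomial σ ℂ, (∀ x : σ → ℂ, eval x p = F (fun i => evA x (P i))) ∧
      ∀ j, degreeOf j p ≤ ∑ i, degreeOf j (P i) := by
  classical
  refine ⟨∑ r ∈ Fintype.piFinset (fun i => (P i).support),
    monomial (∑ i, r i) (F (fun i => coeff (r i) (P i))), ?_, ?_⟩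
  · intro x
    have h1 : (fun i => evA x (P i)) =
        fun i => ∑ d ∈ (P i).support, ((d.prod fun n e => x n ^ e) • coeff d (P i)) := by
      funext i
      rw [evA, eval_eq]
      apply Finset.sum_congr rfl
      intro d _
      rw [Algebra.smul_def, mul_comm, Finsupp.prod, map_prod]
      congr 1
      apply Finset.prod_congr rfl
      intro j _
      rw [map_pow]
    rw [h1, MultilinearMap.map_sum_finset, map_sum]
    apply Finset.sum_congr rfl
    intro r _
    rw [MultilinearMap.map_smul_univ, eval_monomial, smul_eq_mul, mul_comm]
    congr 1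
    rw [Finsupp.prod_finsetSum_index (fun _ => pow_zero _) (fun _ _ _ => pow_add _ _ _)]
  · intro j
    rw [degreeOf_le_iff]
    intro d hd
    obtain ⟨r, hr, hd'⟩ := Finset.mem_biUnion.1 (support_sum hd)
    have h1 := support_monomial_subset hd'
    rw [Finset.mem_singleton] at h1
    rw [h1, Finsupp.finsetSum_apply]
    apply Finset.sum_le_sum
    intro i _
    exact monomial_le_degreeOf j (Fintype.mem_piFinset.1 hr i)

/-- The one-variable version. -/
lemma poly_exists {a : ℕ} (F : MultilinearMap ℂ (fun _ : Fin a => A) ℂ)
    (P : Fin a → Polynomial A) :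
    ∃ p : Polynomial ℂ, ∀ t : ℂ, p.eval t = F (fun i => (P i).eval (algebraMap ℂ A t)) := by
  obtain ⟨p, -, hp⟩ := exists_poly F (fun i t => (P i).eval (algebraMap ℂ A t))
    (fun i => (P i).natDegree) (fun i => ⟨fun l => (P i).coeff l, fun s => by
      simp only
      rw [Polynomial.eval_eq_sum_range]
      apply Finset.sum_congr rfl
      intro l _
      rw [Algebra.smul_def, map_pow, mul_comm]⟩)
  exact ⟨p, hp⟩

end Exists

/-- A polynomial of small degree which vanishes as soon as `e` of the variables of `K` vanish is
zero. -/
lemma lemmaZ {σ : Type*} [Fintype σ] [DecidableEq σ] (P : MvPolynomial σ ℂ) (K : Finset σ)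
    (e ρ : ℕ) (hK : ρ + e ≤ K.card)
    (h0 : ∀ ζ : σ → ℂ, e ≤ (K.filter (fun k => ζ k = 0)).card → eval ζ P = 0)
    (hdeg : ∀ ζ : σ → ℂ, ∃ p : Polynomial ℂ, p.natDegree ≤ ρ ∧
      ∀ t, t ≠ 0 → p.eval t = eval (fun k => t * ζ k) P) : P = 0 := by
  by_contra hP
  obtain ⟨d, hd⟩ := support_nonempty.2 hP
  -- the total degree
  have hd1 : d.degree ≤ ρ := by
    by_contra hlt
    push Not at hlt
    have hcomp : homogeneousComponent d.degree P = 0 := by
      apply MvPolynomial.funext
      intro ζ
      rw [map_zero]
      obtain ⟨p, hp, hpt⟩ := hdeg ζ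
      let g : Polynomial ℂ := ∑ f ∈ P.support,
        Polynomial.C (coeff f P * ∏ i, ζ i ^ f i) * Polynomial.X ^ f.degree
      have hg : g = p := by
        apply Polynomial.eq_of_infinite_eval_eq
        apply Set.Infinite.mono (s := ({0} : Set ℂ)ᶜ)
        · intro t ht
          rw [Set.mem_ofPred_eq, hpt t ht, eval_eq']
          simp only [g, Polynomial.eval_finsetSum, Polynomial.eval_mul, Polynomial.eval_C,
            Polynomial.eval_pow, Polynomial.eval_X]
          apply Finset.sum_congr rfl
          intro f _
          rw [mul_assoc]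
          congr 1
          simp only [mul_pow]
          rw [Finset.prod_mul_distrib, mul_comm]
          congr 1
          rw [Finset.prod_pow_eq_pow_sum, Finsupp.degree_eq_sum]
        · exact (Set.finite_singleton (0 : ℂ)).infinite_compl
      have hgc : g.coeff d.degree = 0 := by
        rw [hg]
        exact Polynomial.coeff_eq_zero_of_natDegree_lt (lt_of_le_of_lt hp hlt)
      rw [homogeneousComponent_apply, map_sum, ← hgc]
      simp only [g, Polynomial.finsetSum_coeff, Polynomial.coeff_C_mul, Polynomial.coeff_X_pow]
      rw [Finset.sum_filter]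
      apply Finset.sum_congr rfl
      intro f _
      by_cases hf : f.degree = d.degree
      · rw [if_pos hf, if_pos hf.symm, eval_monomial, mul_one, Finsupp.prod_fintype]
        intro i
        exact pow_zero _
      · rw [if_neg hf, if_neg (Ne.symm hf), mul_zero]
    have h1 : coeff d (homogeneousComponent d.degree P) = coeff d P := by
      rw [coeff_homogeneousComponent, if_pos rfl]
    rw [hcomp, coeff_zero] at h1
    exact (mem_support_iff.1 hd) h1.symm
  -- the support
  have hd2 : (K \ d.support).card < e := by
    by_contra hge
    push Not at hge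
    let Q : MvPolynomial σ ℂ := aeval (fun k => if k ∈ d.support then X k else 0) P
    have hQ : Q = 0 := by
      apply MvPolynomial.funext
      intro ζ
      have h2 : (aeval ζ : MvPolynomial σ ℂ →ₐ[ℂ] ℂ).comp
          (aeval (fun k => if k ∈ d.support then (X k : MvPolynomial σ ℂ) else 0)) =
          aeval (fun k => if k ∈ d.support then ζ k else 0) := by
        apply MvPolynomial.algHom_ext
        intro i
        rw [AlgHom.comp_apply, aeval_X, aeval_X]
        split_ifs
        · rw [aeval_X]
        · rw [map_zero]
      have h3 := congrArg (fun f => f P) h2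
      simp only [AlgHom.comp_apply] at h3
      rw [map_zero]
      have h4 : eval ζ Q = eval (fun k => if k ∈ d.support then ζ k else 0) P := by
        rw [← coe_aeval_eq_eval, RingHom.coe_coe, h3, ← RingHom.coe_coe, coe_aeval_eq_eval]
      rw [h4]
      apply h0
      refine hge.trans (Finset.card_le_card ?_)
      intro k hk
      rw [Finset.mem_sdiff] at hk
      rw [Finset.mem_filter]
      exact ⟨hk.1, if_neg hk.2⟩
    have h5 : coeff d Q = coeff d P := by
      have h6 : Q = ∑ f ∈ P.support, (if f.support ⊆ d.support then monomial f (coeff f P) else 0) := by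
        simp only [Q]
        rw [aeval_def, eval₂_eq']
        apply Finset.sum_congr rfl
        intro f _
        split_ifs with hf
        · rw [monomial_eq, Finsupp.prod_fintype _ _ (fun i => pow_zero _)]
          rw [MvPolynomial.algebraMap_eq]
          congr 1
          apply Finset.prod_congr rfl
          intro i _
          by_cases hi : i ∈ d.support
          · rw [if_pos hi]
          · have hi' : f i = 0 := by
              by_contra hne
              exact hi (hf (Finsupp.mem_support_iff.2 hne))
            rw [hi', pow_zero, pow_zero]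
        · rw [Finset.not_subset] at hf
          obtain ⟨i, hi, hid⟩ := hf
          rw [Finset.prod_eq_zero (Finset.mem_univ i), mul_zero]
          rw [if_neg hid, zero_pow]
          exact Finsupp.mem_support_iff.1 hi
      rw [h6, coeff_sum, Finset.sum_eq_single d]
      · rw [if_pos (Finset.Subset.refl _), coeff_monomial, if_pos rfl]
      · intro f _ hf
        split_ifs
        · rw [coeff_monomial, if_neg hf]
        · rw [coeff_zero]
      · intro h
        exact absurd hd h
    rw [hQ, coeff_zero] at h5
    exact (mem_support_iff.1 hd) h5.symm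
  have hd3 : d.support.card ≤ d.degree := by
    rw [Finsupp.degree]
    rw [Finset.card_eq_sum_ones]
    apply Finset.sum_le_sum
    intro i hi
    exact Nat.one_le_iff_ne_zero.2 (Finsupp.mem_support_iff.1 hi)
  have hd4 : K.card ≤ (K \ d.support).card + d.support.card := by
    rw [← Finset.card_sdiff_add_card_inter K d.support]
    exact Nat.add_le_add_left (Finset.card_le_card Finset.inter_subset_right) _
  omega

end Vale.Agent.P181.H536
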