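import Vale.Agent.P181.H536.Poly
import Vale.Agent.P181.H534.Net4
import Vale.Agent.P181.H534.ThinHW

/-!
Freeing arguments of a multilinear form which vanishes when all its arguments are divisible by
the same power of a linear form.
-/

set_option autoImplicit false

open Polynomial

namespace Vale.Agent.P181.H536

open Vale.Agent.P181 Vale.Agent.P181.H534

variable {A : Type*} [CommRing A] [Algebra ℂ A]

lemma pow_split (q ζ : A) (t : ℂ) {c κ : ℕ} (hκ : κ ≤ c) :
    q ^ c = (q + t • ζ) ^ κ * (∑ l ∈ Finset.range (c - κ + 1),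
        (((c.choose l : ℂ) * (-1) ^ l) * t ^ l) • ((q + t • ζ) ^ (c - κ - l) * ζ ^ l)) +
      t ^ (c - κ + 1) • (∑ l ∈ Finset.range κ,
        (((c.choose (c - κ + 1 + l) : ℂ) * (-1) ^ (c - κ + 1 + l)) * t ^ l) •
          ((q + t • ζ) ^ (κ - 1 - l) * ζ ^ (c - κ + 1 + l))) := by
  have h3 : q ^ c = ∑ l ∈ Finset.range (c + 1),
      ((c.choose l : ℂ) * (-1) ^ l * t ^ l) • ((q + t • ζ) ^ (c - l) * ζ ^ l) := by
    have h4 : q = (-t) • ζ + (q + t • ζ) := by
      rw [neg_smul]; abel
    calc q ^ c = ((-t) • ζ + (q + t • ζ)) ^ c := by rw [← h4]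
      _ = _ := by
        rw [add_pow]
        apply Finset.sum_congr rfl
        intro l _
        simp only [Algebra.smul_def, map_natCast, map_pow, map_mul, map_neg, map_one]
        rw [neg_mul, neg_pow]
        ring_nf
  have h5 : c + 1 = (c - κ + 1) + κ := by omega
  rw [h3, h5, Finset.sum_range_add]
  congr 1
  · rw [Finset.mul_sum]
    apply Finset.sum_congr rfl
    intro l hl
    rw [Finset.mem_range] at hl
    rw [mul_smul_comm, ← mul_assoc, ← pow_add]
    congr 4
    omega
  · rw [Finset.smul_sum]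
    apply Finset.sum_congr rfl
    intro l hl
    rw [Finset.mem_range] at hl
    rw [smul_smul]
    have h6 : c - (c - κ + 1 + l) = κ - 1 - l := by omega
    rw [h6]
    congr 1
    rw [pow_add t]
    ring

/-- Freeing several slots at once with the same power. -/
lemma step_free {L : Submodule ℂ A} {k c κ : ℕ} (T : MultilinearMap ℂ (fun _ : Fin k => A) ℂ)
    (K M : Finset (Fin k)) (hKM : Disjoint K M) (R : Fin k → A)
    (h : ∀ θ ∈ L, ∀ f : Fin k → A, (∀ i, f i ∈ L ^ (c - κ)) →
      T (fun i => if i ∈ K ∪ M then θ ^ κ * f i else R i) = 0)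
    (hc : κ * M.card + κ ≤ c) {θ q : A} (hθ : θ ∈ L) (hq : q ∈ L) (f : Fin k → A)
    (hf : ∀ i, f i ∈ L ^ (c - κ)) :
    T (fun i => if i ∈ K then q ^ c else if i ∈ M then θ ^ κ * f i else R i) = 0 := by
  classical
  have hκ : κ ≤ c := by omega
  set ζ : A := θ - q with hζ
  have hζL : ζ ∈ L := L.sub_mem hθ hq
  -- the polynomial of small degree
  obtain ⟨p, hpd, hp⟩ := exists_poly T
    (fun i s => if i ∈ K then q ^ c else if i ∈ M then (q + s • ζ) ^ κ * f i else R i)
    (fun i => if i ∈ M then κ else 0) (by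
      intro i
      by_cases hi : i ∈ M
      · have hiK : i ∉ K := fun h => Finset.disjoint_left.1 hKM h hi
        simp only [hi, hiK, if_true, if_false]
        exact isCurve_pow _ _ _ _
      · simp only [hi, if_false]
        exact isCurve_const _)
  have hpd' : p.natDegree ≤ κ * M.card := by
    refine hpd.trans (le_of_eq ?_)
    rw [← Finset.sum_filter, Finset.sum_const, smul_eq_mul, mul_comm]
    congr 2
    ext i; simp
  -- the polynomial in two variables
  let Θ : MvPolynomial (Fin 2) A := MvPolynomial.C q + MvPolynomial.X 0 * MvPolynomial.C ζ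
  let PA : MvPolynomial (Fin 2) A := ∑ l ∈ Finset.range (c - κ + 1),
    MvPolynomial.C (algebraMap ℂ A ((c.choose l : ℂ) * (-1) ^ l)) * MvPolynomial.X 0 ^ l *
      (Θ ^ (c - κ - l) * MvPolynomial.C ζ ^ l)
  let PB : MvPolynomial (Fin 2) A := ∑ l ∈ Finset.range κ,
    MvPolynomial.C (algebraMap ℂ A ((c.choose (c - κ + 1 + l) : ℂ) * (-1) ^ (c - κ + 1 + l))) *
      MvPolynomial.X 0 ^ l * (Θ ^ (κ - 1 - l) * MvPolynomial.C ζ ^ (c - κ + 1 + l))
  let SA : ℂ → A := fun t => ∑ l ∈ Finset.range (c - κ + 1),
        (((c.choose l : ℂ) * (-1) ^ l) * t ^ l) • ((q + t • ζ) ^ (c - κ - l) * ζ ^ l)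
  let SB : ℂ → A := fun t => ∑ l ∈ Finset.range κ,
        (((c.choose (c - κ + 1 + l) : ℂ) * (-1) ^ (c - κ + 1 + l)) * t ^ l) •
          ((q + t • ζ) ^ (κ - 1 - l) * ζ ^ (c - κ + 1 + l))
  have hΘ : ∀ t u : ℂ, evA ![t, u] Θ = q + t • ζ := by
    intro t u
    simp only [Θ, map_add, map_mul, evA_C, evA_X, Matrix.cons_val_zero, Algebra.smul_def]
  have hPA : ∀ t u : ℂ, evA ![t, u] PA = SA t := by
    intro t u
    simp only [PA, SA, map_sum, map_mul, map_pow, hΘ, evA_C, evA_X, Matrix.cons_val_zero]
    apply Finset.sum_congr rfl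
    intro l _
    simp only [Algebra.smul_def, map_mul, map_pow]
  have hPB : ∀ t u : ℂ, evA ![t, u] PB = SB t := by
    intro t u
    simp only [PB, SB, map_sum, map_mul, map_pow, hΘ, evA_C, evA_X, Matrix.cons_val_zero]
    apply Finset.sum_congr rfl
    intro l _
    simp only [Algebra.smul_def, map_mul, map_pow]
  obtain ⟨Q, hQ, -⟩ := mv_exists (σ := Fin 2) T (fun i =>
    if i ∈ K then Θ ^ κ * PA + MvPolynomial.X 1 * PB
    else if i ∈ M then Θ ^ κ * MvPolynomial.C (f i) else MvPolynomial.C (R i))
  have hQ' : ∀ t u : ℂ, MvPolynomial.eval ![t, u] Q =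
      T (fun i => if i ∈ K then (q + t • ζ) ^ κ * SA t + u • SB t
        else if i ∈ M then (q + t • ζ) ^ κ * f i else R i) := by
    intro t u
    rw [hQ]
    congr 1
    funext i
    split_ifs
    · have hu : (![t, u] : Fin 2 → ℂ) 1 = u := rfl
      rw [map_add, map_mul, map_mul, map_pow, hΘ, hPA, hPB, evA_X, hu, Algebra.smul_def u]
    · rw [map_mul, map_pow, hΘ, evA_C]
    · rw [evA_C]
  have hLt : ∀ t : ℂ, q + t • ζ ∈ L := fun t => L.add_mem hq (L.smul_mem _ hζL)
  have hSA : ∀ t, SA t ∈ L ^ (c - κ) := by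
    intro t
    apply Submodule.sum_mem
    intro l hl
    rw [Finset.mem_range] at hl
    apply Submodule.smul_mem
    have h1 : c - κ = (c - κ - l) + l := by omega
    rw [h1, pow_add]
    have h2 : c - κ - l + l - l = c - κ - l := by omega
    rw [h2]
    exact Submodule.mul_mem_mul (Submodule.pow_mem_pow _ (hLt t) _)
      (Submodule.pow_mem_pow _ hζL _)
  have hz : (two Q).eval 0 = 0 := by
    apply Polynomial.funext
    intro t
    rw [two_eval, eval_zero, hQ']
    have h1 := h (q + t • ζ) (hLt t) (fun i => if i ∈ K then SA t else f i) (by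
      intro i
      split_ifs
      · exact hSA t
      · exact hf i)
    refine Eq.trans ?_ h1
    congr 1
    funext i
    by_cases hK : i ∈ K
    · simp [hK]
    · by_cases hM : i ∈ M
      · simp [hK, hM]
      · simp [hK, hM]
  obtain ⟨P', hP'⟩ : X ∣ two Q := by
    rw [X_dvd_iff, coeff_zero_eq_eval_zero, hz]
  have hdvd : X ^ (c - κ + 1) ∣ (two Q).eval (X ^ (c - κ + 1)) := by
    rw [hP', eval_mul, eval_X]
    exact Dvd.intro _ rfl
  have hfp : (two Q).eval (X ^ (c - κ + 1)) = p := by
    apply Polynomial.funext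
    intro t
    rw [two_eval, hQ', hp, eval_pow, eval_X]
    congr 1
    funext i
    split_ifs
    · exact (pow_split q ζ t hκ).symm
    · rfl
    · rfl
  rw [hfp] at hdvd
  have hp0 : p = 0 := by
    apply Polynomial.eq_zero_of_dvd_of_natDegree_lt hdvd
    rw [natDegree_X_pow]
    omega
  have h8 := hp 1
  rw [hp0, eval_zero] at h8
  rw [h8]
  congr 1
  funext i
  simp only [one_smul, hζ, add_sub_cancel]

/-- Freeing the slots of `I`. -/
lemma free_all {L : Submodule ℂ A} {k c κ : ℕ} (T : MultilinearMap ℂ (fun _ : Fin k => A) ℂ)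
    (I : Finset (Fin k)) (hc : (I.card + 1) * κ ≤ c)
    (h : ∀ θ ∈ L, ∀ f : Fin k → A, (∀ i, f i ∈ L ^ (c - κ)) → T (fun i => θ ^ κ * f i) = 0)
    {p : A} (hp : p ∈ L) (x : Fin k → A) (hx : ∀ i ∈ I, x i ∈ L ^ c) :
    T (fun i => if i ∈ I then x i else p ^ c) = 0 := by
  classical
  have hα : ∀ θ ∈ L, ∀ f : Fin k → A, (∀ i, f i ∈ L ^ (c - κ)) →
      T (fun i => if i ∈ I then θ ^ κ * f i else p ^ c) = 0 := by
    intro θ hθ f hf
    have h1 := step_free T Iᶜ I disjoint_compl_left (fun _ => 0) (by
      intro θ hθ f hf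
      rw [← h θ hθ f hf]
      congr 1
      funext i
      rw [if_pos]
      by_cases hi : i ∈ I <;> simp [hi]) (by nlinarith) hθ hp f hf
    rw [← h1]
    congr 1
    funext i
    by_cases hi : i ∈ I <;> simp [hi]
  have hβ : ∀ J : Finset (Fin k), J ⊆ I → ∀ θ ∈ L, ∀ f : Fin k → A, (∀ i, f i ∈ L ^ (c - κ)) →
      T (fun i => if i ∈ J then x i else if i ∈ I then θ ^ κ * f i else p ^ c) = 0 := by
    intro J
    induction J using Finset.induction_on with
    | empty =>
      intro _ θ hθ f hf
      simpa using hα θ hθ f hf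
    | insert i₀ J hi₀ ih =>
      intro hJ θ hθ f hf
      have hi₀I : i₀ ∈ I := hJ (Finset.mem_insert_self _ _)
      have hJI : J ⊆ I := fun i hi => hJ (Finset.mem_insert_of_mem hi)
      let base : Fin k → A := fun i =>
        if i ∈ insert i₀ J then x i else if i ∈ I then θ ^ κ * f i else p ^ c
      let G : A →ₗ[ℂ] ℂ := T.toLinearMap base i₀
      have hG : ∀ x, G x = T (Function.update base i₀ x) := fun x => rfl
      have hker : L ^ c ≤ LinearMap.ker G := by
        refine (pow_le_span_pow L _).trans ?_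
        rw [Submodule.span_le]
        rintro _ ⟨q, hq, rfl⟩
        simp only [SetLike.mem_coe, LinearMap.mem_ker]
        have h1 := step_free T {i₀} (I \ insert i₀ J) (by
          rw [Finset.disjoint_singleton_left]
          simp) (fun i => if i ∈ J then x i else p ^ c) (by
          intro θ hθ f hf
          rw [← ih hJI θ hθ f hf]
          congr 1
          funext i
          by_cases hii : i = i₀
          · subst hii
            simp [hi₀, hi₀I]
          · by_cases hiJ : i ∈ J
            · have : i ∈ I := hJI hiJ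
              simp [hii, hiJ, this]
            · by_cases hiI : i ∈ I
              · simp [hii, hiJ, hiI]
              · simp [hii, hiJ, hiI]) (by
          have h2 : (I \ insert i₀ J).card + 1 ≤ I.card := by
            have h3 : I \ insert i₀ J ⊆ I.erase i₀ := by
              intro i hi
              rw [Finset.mem_sdiff, Finset.mem_insert, not_or] at hi
              exact Finset.mem_erase.2 ⟨hi.2.1, hi.1⟩
            have h4 := Finset.card_le_card h3
            rw [Finset.card_erase_of_mem hi₀I] at h4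
            have h5 : 0 < I.card := Finset.card_pos.2 ⟨i₀, hi₀I⟩
            omega
          nlinarith) hθ hq f hf
        rw [hG, ← h1]
        congr 1
        funext i
        by_cases hii : i = i₀
        · subst hii
          simp
        · rw [Function.update_of_ne hii]
          by_cases hiJ : i ∈ J
          · simp [base, hii, hiJ]
          · by_cases hiI : i ∈ I
            · simp [base, hii, hiJ, hiI]
            · simp [base, hii, hiJ, hiI]
      have h1 := hker (hx i₀ hi₀I)
      rw [LinearMap.mem_ker, hG] at h1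
      have h2 : Function.update base i₀ (x i₀) = base := by
        rw [Function.update_eq_self_iff]
        simp [base]
      rwa [h2] at h1
  have h1 := hβ I (le_refl _) 0 L.zero_mem (fun _ => 0) (fun i => Submodule.zero_mem _)
  rw [← h1]
  congr 1
  funext i
  by_cases hi : i ∈ I <;> simp [hi]

/-- **Freeing lemma.** -/
lemma free_div {L : Submodule ℂ A} {k b c κ : ℕ} (T : MultilinearMap ℂ (fun _ : Fin k => A) ℂ)
    (I : Finset (Fin k)) (hc : (I.card + 1) * κ ≤ c) (hcb : c ≤ b)
    (h : ∀ θ ∈ L, ∀ f : Fin k → A, (∀ i, f i ∈ L ^ (b - κ)) → T (fun i => θ ^ κ * f i) = 0)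
    {p : A} (hp : p ∈ L) (P : Fin k → A) (hI : ∀ i ∈ I, P i ∈ L ^ b)
    (hJ : ∀ i, i ∉ I → ∃ Q ∈ L ^ (b - c), P i = p ^ c * Q) : T P = 0 := by
  classical
  have hκ : κ ≤ c := by nlinarith
  apply multilinear_zero_of_span' T (fun i => if i ∈ I then
    {z | ∃ x ∈ L ^ c, ∃ y ∈ L ^ (b - c), z = x * y} else {P i})
  · intro w hw
    have h1 : ∀ i, ∃ x y : A, (i ∈ I → x ∈ L ^ c) ∧ y ∈ L ^ (b - c) ∧
        w i = (if i ∈ I then x else p ^ c) * y := by
      intro i
      have h2 := hw i
      by_cases hi : i ∈ I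
      · rw [if_pos hi] at h2
        obtain ⟨x, hx, y, hy, hxy⟩ := h2
        exact ⟨x, y, fun _ => hx, hy, by rw [if_pos hi, hxy]⟩
      · rw [if_neg hi, Set.mem_singleton_iff] at h2
        obtain ⟨Q, hQ, hPQ⟩ := hJ i hi
        exact ⟨0, Q, fun h => absurd h hi, hQ, by rw [if_neg hi, h2, hPQ]⟩
    choose x y hx hy hxy using h1
    have h3 := free_all (mulArg T y) I hc (by
      intro θ hθ f hf
      rw [mulArg_apply, ← h θ hθ (fun i => y i * f i) (by
        intro i
        have h4 : b - κ = (b - c) + (c - κ) := by omega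
        rw [h4, pow_add]
        exact Submodule.mul_mem_mul (hy i) (hf i))]
      congr 1
      funext i
      ring) hp x hx
    rw [mulArg_apply] at h3
    rw [← h3]
    congr 1
    funext i
    rw [hxy i, mul_comm]
  · intro i
    by_cases hi : i ∈ I
    · rw [if_pos hi]
      have h1 := hI i hi
      have h2 : b = c + (b - c) := by omega
      rw [h2, pow_add] at h1
      refine Submodule.mul_induction_on h1 ?_ ?_
      · intro x hx y hy
        exact Submodule.subset_span ⟨x, hx, y, hy, rfl⟩
      · intro x y hx hy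
        exact Submodule.add_mem _ hx hy
    · rw [if_neg hi]
      exact Submodule.subset_span (Set.mem_singleton _)

end Vale.Agent.P181.H536
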