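import Vale.Agent.P181.H536.Row1
import Mathlib.Data.Fin.Tuple.Sort

/-!
Kernel elements of the canonical map with few boxes below the first row.
-/

set_option autoImplicit false

open Polynomial

namespace Vale.Agent.P181.H536

open Vale.Agent.P181 Vale.Agent.P181.H534

variable {A : Type*} [CommRing A] [Algebra ℂ A]

/-- The form vanishes in `Z`-degree above `r`. -/
def ZV (L Z : Submodule ℂ A) (b r : ℕ) {m : ℕ}
    (G : MultilinearMap ℂ (fun _ : Fin m => A) ℂ) : Prop :=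
  ∀ d : Fin m → ℕ, (∀ i, d i ≤ b) → ∀ P : Fin m → A, (∀ i, P i ∈ Z ^ d i * L ^ (b - d i)) →
    r < ∑ i, d i → G P = 0

lemma ZV.curry {L Z : Submodule ℂ A} {b r r' d₀ m : ℕ}
    {G : MultilinearMap ℂ (fun _ : Fin (m + 1) => A) ℂ} (hG : ZV L Z b r G) {P₀ : A}
    (hd₀ : d₀ ≤ b) (hP₀ : P₀ ∈ Z ^ d₀ * L ^ (b - d₀)) (hr : r ≤ r' + d₀) :
    ZV L Z b r' (G.curryLeft P₀) := by
  intro d hd P hP hlt
  rw [MultilinearMap.curryLeft_apply]
  apply hG (Fin.cons d₀ d)
  · intro i
    refine Fin.cases ?_ (fun i => ?_) i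
    · exact hd₀
    · exact hd i
  · intro i
    refine Fin.cases ?_ (fun i => ?_) i
    · exact hP₀
    · exact hP i
  · rw [Fin.sum_univ_succ, Fin.cons_zero]
    simp only [Fin.cons_succ]
    omega

lemma ZV.mul {L Z : Submodule ℂ A} {b r k m : ℕ}
    {G : MultilinearMap ℂ (fun _ : Fin m => A) ℂ} (hG : ZV L Z b r G) {θ : A} (hθ : θ ∈ L)
    (hk : k ≤ b) : ZV L Z (b - k) r (mulArg G (fun _ => θ ^ k)) := by
  intro d hd P hP hlt
  rw [mulArg_apply]
  refine hG d (fun i => (hd i).trans (Nat.sub_le _ _)) _ (fun i => ?_) hlt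
  have h1 : b - d i = k + (b - k - d i) := by have := hd i; omega
  rw [h1, pow_add, mul_left_comm]
  exact Submodule.mul_mem_mul (Submodule.pow_mem_pow _ hθ _) (hP i)

/-- The monomials. -/
def Mono (p : A) (Z : Submodule ℂ A) (b e : ℕ) : Set A :=
  {x | ∃ d w, e ≤ d ∧ d ≤ b ∧ w ∈ Z ^ d ∧ x = p ^ (b - d) * w}

lemma pow_le_mono (p : A) (Z : Submodule ℂ A) (b : ℕ) :
    (Submodule.span ℂ {p} ⊔ Z) ^ b ≤ Submodule.span ℂ (Mono p Z b 0) := by
  induction b with
  | zero =>
    rw [pow_zero, Submodule.one_eq_span, Submodule.span_le, Set.singleton_subset_iff]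
    refine Submodule.subset_span ⟨0, 1, le_rfl, le_rfl, ?_, by simp⟩
    rw [pow_zero]; exact Submodule.one_le.1 le_rfl
  | succ b ih =>
    rw [pow_succ, Submodule.mul_le]
    intro m hm n hn
    have hm' := ih hm
    obtain ⟨u, hu, z, hz, rfl⟩ := Submodule.mem_sup.1 hn
    obtain ⟨α, rfl⟩ := Submodule.mem_span_singleton.1 hu
    clear hm
    induction hm' using Submodule.span_induction with
    | mem x hx =>
      obtain ⟨d, w, -, hd, hw, rfl⟩ := hx
      have h1 : p ^ (b - d) * w * (α • p + z) =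
          α • (p ^ (b + 1 - d) * w) + p ^ (b + 1 - (d + 1)) * (w * z) := by
        have h2 : b + 1 - d = (b - d) + 1 := by omega
        have h3 : b + 1 - (d + 1) = b - d := by omega
        rw [h2, h3, pow_succ]
        simp only [Algebra.smul_def]
        ring
      rw [h1]
      refine Submodule.add_mem _ (Submodule.smul_mem _ _ (Submodule.subset_span
        ⟨d, w, Nat.zero_le _, by omega, hw, rfl⟩)) (Submodule.subset_span
        ⟨d + 1, w * z, Nat.zero_le _, by omega, ?_, rfl⟩)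
      rw [pow_succ]
      exact Submodule.mul_mem_mul hw hz
    | zero => rw [zero_mul]; exact Submodule.zero_mem _
    | add x y _ _ hx hy => rw [add_mul]; exact Submodule.add_mem _ hx hy
    | smul c x _ hx => rw [smul_mul_assoc]; exact Submodule.smul_mem _ _ hx

lemma mul_le_mono (p : A) (Z : Submodule ℂ A) {b e : ℕ} (he : e ≤ b) :
    Z ^ e * (Submodule.span ℂ {p} ⊔ Z) ^ (b - e) ≤ Submodule.span ℂ (Mono p Z b e) := by
  rw [Submodule.mul_le]
  intro m hm n hn
  have hn' := pow_le_mono p Z (b - e) hn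
  clear hn
  induction hn' using Submodule.span_induction with
  | mem x hx =>
    obtain ⟨d, w, -, hd, hw, rfl⟩ := hx
    refine Submodule.subset_span ⟨e + d, m * w, by omega, by omega, ?_, ?_⟩
    · rw [pow_add]; exact Submodule.mul_mem_mul hm hw
    · have h1 : b - (e + d) = b - e - d := by omega
      rw [h1]; ring
  | zero => rw [mul_zero]; exact Submodule.zero_mem _
  | add x y _ _ hx hy => rw [mul_add]; exact Submodule.add_mem _ hx hy
  | smul c x _ hx => rw [mul_smul_comm]; exact Submodule.smul_mem _ _ hx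

lemma mono_mem {p : A} {L Z : Submodule ℂ A} (hp : p ∈ L) {b d : ℕ} {w : A}
    (hw : w ∈ Z ^ d) : p ^ (b - d) * w ∈ Z ^ d * L ^ (b - d) := by
  rw [mul_comm (p ^ (b - d)) w]
  exact Submodule.mul_mem_mul hw (Submodule.pow_mem_pow _ hp _)

/-- Sorted monomials. -/
lemma key_sorted {p : A} {L Z : Submodule ℂ A} (hp : p ∈ L) (hZL : Z ≤ L) (hroot : HasRoots L)
    {k b r t : ℕ} (hk : t + 1 ≤ k)
    (ih : ∀ (b r : ℕ) (F : MultilinearMap ℂ (fun _ : Fin (k + 1) => A) ℂ), IsSymm F →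
      IsK L b F → ZV L Z b r F → t * (t + 1) + (k + 1) * k ≤ 2 * b →
      2 * r + (k + 1) ^ 2 * k ≤ (k + 1) * (2 * b + t + 2) →
      ∀ P : Fin (k + 1) → A, (∀ i, P i ∈ L ^ b) → F P = 0)
    (F : MultilinearMap ℂ (fun _ : Fin (k + 1 + 1) => A) ℂ) (hs : IsSymm F) (hK : IsK L b F)
    (hZ : ZV L Z b r F) (ht : t * (t + 1) + (k + 2) * (k + 1) ≤ 2 * b)
    (hr : 2 * r + (k + 2) ^ 2 * (k + 1) ≤ (k + 2) * (2 * b + t + 2))
    (d : Fin (k + 1 + 1) → ℕ) (hdb : ∀ i, d i ≤ b) (hd : Antitone d) (hsum : ∑ i, d i = r)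
    (w : Fin (k + 1 + 1) → A) (hw : ∀ i, w i ∈ Z ^ d i) :
    F (fun i => p ^ (b - d i) * w i) = 0 := by
  classical
  have hkb : k + 1 ≤ b := by
    by_contra hlt
    push Not at hlt
    have h1 : b ≤ k := by omega
    nlinarith
  have hmem : ∀ i, p ^ (b - d i) * w i ∈ L ^ b := by
    intro i
    have h1 : b = (b - d i) + d i := by have := hdb i; omega
    have h2 : p ^ (b - d i) * w i ∈ L ^ (b - d i) * L ^ d i :=
      Submodule.mul_mem_mul (Submodule.pow_mem_pow _ hp _) (pow_le_pow_left' hZL _ (hw i))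
    rw [← pow_add, ← h1] at h2
    exact h2
  have h1 : (fun i => p ^ (b - d i) * w i) = (Fin.cons (p ^ (b - d 0) * w 0)
      (fun i : Fin (k + 1) => p ^ (b - d i.succ) * w i.succ) : Fin (k + 1 + 1) → A) := by
    funext i
    refine Fin.cases ?_ (fun i => ?_) i
    · rfl
    · rfl
  rw [h1, ← MultilinearMap.curryLeft_apply]
  have hd0 : d 0 ≤ r := by
    rw [← hsum]
    exact Finset.single_le_sum (f := d) (fun _ _ => Nat.zero_le _) (Finset.mem_univ 0)
  have hmax : r ≤ (k + 2) * d 0 := by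
    rw [← hsum]
    calc ∑ i, d i ≤ ∑ _i : Fin (k + 1 + 1), d 0 :=
          Finset.sum_le_sum (fun i _ => hd (Fin.zero_le i))
      _ = (k + 2) * d 0 := by rw [Finset.sum_const, Finset.card_univ, Fintype.card_fin, smul_eq_mul]
  obtain ⟨b', rfl⟩ : ∃ b', b = b' + (k + 1) := ⟨b - (k + 1), by omega⟩
  obtain ⟨r', hr'⟩ : ∃ r', r = r' + d 0 := ⟨r - d 0, by omega⟩
  have hineq : 2 * r' + (k + 1) ^ 2 * k ≤ (k + 1) * (2 * b' + t + 2) := by
    have h2 : r' ≤ (k + 1) * d 0 := by
      have h3 : (k + 2) * d 0 = (k + 1) * d 0 + d 0 := by ring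
      omega
    have h4 : (k + 2) * (2 * r' + (k + 1) ^ 2 * k) ≤
        (k + 2) * ((k + 1) * (2 * b' + t + 2)) := by
      have h5 : (k + 1) * (2 * r + (k + 2) ^ 2 * (k + 1)) ≤
          (k + 1) * ((k + 2) * (2 * (b' + (k + 1)) + t + 2)) := Nat.mul_le_mul_left _ hr
      rw [hr'] at h5
      nlinarith
    exact Nat.le_of_mul_le_mul_left h4 (by omega)
  have hT : ∀ θ ∈ L, ∀ f : Fin (k + 1) → A, (∀ i, f i ∈ L ^ (b' + (k + 1) - (k + 1))) →
      F.curryLeft (p ^ (b' + (k + 1) - d 0) * w 0) (fun i => θ ^ (k + 1) * f i) = 0 := by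
    intro θ hθ f hf
    have h2 := ih (b' + (k + 1) - (k + 1)) r'
      (mulArg (F.curryLeft (p ^ (b' + (k + 1) - d 0) * w 0)) (fun _ => θ ^ (k + 1)))
      ((hs.curryLeft _).mulArg_const _) ?_ ?_ ?_ ?_ f hf
    · exact h2
    · intro m hm hmL
      rw [mulArg_apply]
      have h4 := lemmaC hroot (Nat.succ_pos k) F hs hK hθ m hmL 0 (by simp) (by
        rw [Multiset.card_zero, hm]; omega) (p ^ (b' + (k + 1) - d 0) * w 0) (by
        have h5 : k + 1 + m.card = b' + (k + 1) := by omega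
        rw [h5]; exact hmem 0)
      simpa only [MultilinearMap.curryLeft_apply, Nat.succ_eq_add_one, Multiset.prod_zero,
        mul_one] using h4
    · exact ZV.mul (ZV.curry hZ (hdb 0) (mono_mem hp (hw 0)) (by omega)) hθ (by omega)
    · rw [Nat.add_sub_cancel]; nlinarith
    · rw [Nat.add_sub_cancel]; exact hineq
  -- a small slot
  obtain ⟨i, hi⟩ : ∃ i : Fin (k + 1), d i.succ + ((i : ℕ) + 1) * (k + 1) ≤ b' + (k + 1) := by
    by_contra hno
    push Not at hno
    have h2 : ∀ i : Fin (k + 1), b' + (k + 1) + 1 ≤ d i.succ + ((i : ℕ) + 1) * (k + 1) :=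
      fun i => hno i
    have h3 : ∑ _i : Fin (k + 1), (b' + (k + 1) + 1) ≤
        ∑ i : Fin (k + 1), (d i.succ + ((i : ℕ) + 1) * (k + 1)) :=
      Finset.sum_le_sum (fun i _ => h2 i)
    rw [Finset.sum_const, Finset.card_univ, Fintype.card_fin, smul_eq_mul,
      Finset.sum_add_distrib, ← Finset.sum_mul] at h3
    have h4 : 2 * ∑ i : Fin (k + 1), ((i : ℕ) + 1) = (k + 1) * (k + 2) := by
      rw [Fin.sum_univ_eq_sum_range (fun i => i + 1) (k + 1)]
      clear * -
      induction k with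
      | zero => rfl
      | succ k ih => rw [Finset.sum_range_succ, mul_add, ih]; ring
    have h5 := h2 0
    have h6 : d (Fin.succ 0) ≤ d 0 := hd (Fin.zero_le _)
    have h7 : ∑ i, d i = d 0 + ∑ i : Fin (k + 1), d i.succ := Fin.sum_univ_succ _
    have h8 : ((0 : Fin (k + 1)) : ℕ) = 0 := rfl
    rw [h8, zero_add, one_mul] at h5
    set s := ∑ i : Fin (k + 1), ((i : ℕ) + 1)
    set s' := ∑ i : Fin (k + 1), d i.succ
    have h9 : 2 * ((k + 1) * (b' + (k + 1) + 1)) ≤ 2 * s' + (k + 1) * (k + 2) * (k + 1) := by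
      rw [← h4]; nlinarith
    have h10 : r = d 0 + s' := by rw [← hsum, h7]
    nlinarith
  have hcard : (Finset.univ.filter (fun j : Fin (k + 1) => j < i)).card = (i : ℕ) := by
    rw [show (Finset.univ.filter (fun j : Fin (k + 1) => j < i)) = Finset.Iio i by ext; simp]
    exact Fin.card_Iio i
  apply free_div (L := L) (κ := k + 1) (c := ((i : ℕ) + 1) * (k + 1)) (b := b' + (k + 1))
    (F.curryLeft (p ^ (b' + (k + 1) - d 0) * w 0))
    (Finset.univ.filter (fun j : Fin (k + 1) => j < i)) (by rw [hcard]) (by omega) hT hp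
  · intro j _
    exact hmem j.succ
  · intro j hj
    have hij : i ≤ j := by
      simpa using hj
    have h2 : d j.succ ≤ d i.succ := hd (Fin.succ_le_succ_iff.2 hij)
    refine ⟨p ^ (b' + (k + 1) - ((i : ℕ) + 1) * (k + 1) - d j.succ) * w j.succ, ?_, ?_⟩
    · have h3 : b' + (k + 1) - ((i : ℕ) + 1) * (k + 1) =
          (b' + (k + 1) - ((i : ℕ) + 1) * (k + 1) - d j.succ) + d j.succ := by omega
      rw [h3, pow_add]
      refine Submodule.mul_mem_mul ?_ (pow_le_pow_left' hZL _ (hw _))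
      rw [Nat.add_sub_cancel]
      exact Submodule.pow_mem_pow _ hp _
    · rw [← mul_assoc, ← pow_add]
      congr 2
      omega

/-- Monomials in any order. -/
lemma key_mono {p : A} {L Z : Submodule ℂ A} (hp : p ∈ L) (hZL : Z ≤ L) (hroot : HasRoots L)
    {k b r t : ℕ} (hk : t + 1 ≤ k)
    (ih : ∀ (b r : ℕ) (F : MultilinearMap ℂ (fun _ : Fin (k + 1) => A) ℂ), IsSymm F →
      IsK L b F → ZV L Z b r F → t * (t + 1) + (k + 1) * k ≤ 2 * b →
      2 * r + (k + 1) ^ 2 * k ≤ (k + 1) * (2 * b + t + 2) →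
      ∀ P : Fin (k + 1) → A, (∀ i, P i ∈ L ^ b) → F P = 0)
    (F : MultilinearMap ℂ (fun _ : Fin (k + 1 + 1) => A) ℂ) (hs : IsSymm F) (hK : IsK L b F)
    (hZ : ZV L Z b r F) (ht : t * (t + 1) + (k + 2) * (k + 1) ≤ 2 * b)
    (hr : 2 * r + (k + 2) ^ 2 * (k + 1) ≤ (k + 2) * (2 * b + t + 2))
    (d : Fin (k + 1 + 1) → ℕ) (hdb : ∀ i, d i ≤ b) (hsum : ∑ i, d i = r)
    (w : Fin (k + 1 + 1) → A) (hw : ∀ i, w i ∈ Z ^ d i) :
    F (fun i => p ^ (b - d i) * w i) = 0 := by
  let σ : Equiv.Perm (Fin (k + 1 + 1)) := Tuple.sort (fun i => OrderDual.toDual (d i))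
  have hσ : Antitone (fun i => d (σ i)) := by
    intro i j hij
    exact Tuple.monotone_sort (fun i => OrderDual.toDual (d i)) hij
  have h1 := key_sorted hp hZL hroot hk ih F hs hK hZ ht hr (fun i => d (σ i)) (fun i => hdb _) hσ
    (by rw [← hsum]; exact Equiv.sum_comp σ d) (fun i => w (σ i)) (fun i => hw _)
  rw [← h1]
  exact (hs σ (fun i => p ^ (b - d i) * w i)).symm

lemma ZV_step {p : A} {L Z : Submodule ℂ A} (hL : L = Submodule.span ℂ {p} ⊔ Z)
    (hroot : HasRoots L) {k b t : ℕ} (hk : t + 1 ≤ k)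
    (ih : ∀ (b r : ℕ) (F : MultilinearMap ℂ (fun _ : Fin (k + 1) => A) ℂ), IsSymm F →
      IsK L b F → ZV L Z b r F → t * (t + 1) + (k + 1) * k ≤ 2 * b →
      2 * r + (k + 1) ^ 2 * k ≤ (k + 1) * (2 * b + t + 2) →
      ∀ P : Fin (k + 1) → A, (∀ i, P i ∈ L ^ b) → F P = 0)
    (F : MultilinearMap ℂ (fun _ : Fin (k + 1 + 1) => A) ℂ) (hs : IsSymm F) (hK : IsK L b F)
    (r : ℕ) (hZ : ZV L Z b r F) (ht : t * (t + 1) + (k + 2) * (k + 1) ≤ 2 * b)
    (hr : 2 * r + (k + 2) ^ 2 * (k + 1) ≤ (k + 2) * (2 * b + t + 2)) :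
    ∀ P : Fin (k + 1 + 1) → A, (∀ i, P i ∈ L ^ b) → F P = 0 := by
  have hp : p ∈ L := by
    rw [hL]; exact Submodule.mem_sup_left (Submodule.mem_span_singleton_self p)
  have hZL : Z ≤ L := by rw [hL]; exact le_sup_right
  induction r with
  | zero =>
    intro P hP
    apply multilinear_zero_of_span' F (fun _ => Mono p Z b 0)
    · intro w hw
      choose d v _ hdb hv hx using hw
      have h1 : w = fun i => p ^ (b - d i) * v i := funext hx
      by_cases hsum : ∑ i, d i = 0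
      · rw [h1]
        exact key_mono hp hZL hroot hk ih F hs hK hZ ht hr d hdb hsum v hv
      · rw [h1]
        exact hZ d hdb _ (fun i => mono_mem hp (hv i)) (Nat.pos_of_ne_zero hsum)
    · intro i
      have h2 := hP i
      rw [hL] at h2
      exact pow_le_mono p Z b h2
  | succ r ihr =>
    apply ihr _ (by omega)
    intro e he P hP hlt
    apply multilinear_zero_of_span' F (fun i => Mono p Z b (e i))
    · intro w hw
      choose d v hed hdb hv hx using hw
      have h1 : w = fun i => p ^ (b - d i) * v i := funext hx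
      have h2 : ∑ i, e i ≤ ∑ i, d i := Finset.sum_le_sum (fun i _ => hed i)
      by_cases hsum : ∑ i, d i = r + 1
      · rw [h1]
        exact key_mono hp hZL hroot hk ih F hs hK hZ ht hr d hdb hsum v hv
      · rw [h1]
        exact hZ d hdb _ (fun i => mono_mem hp (hv i)) (by omega)
    · intro i
      have h2 := hP i
      rw [hL] at h2
      exact mul_le_mono p Z (he i) h2

/-- **Main theorem.** -/
theorem long_main {p : A} {L Z : Submodule ℂ A} (hL : L = Submodule.span ℂ {p} ⊔ Z)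
    (hroot : HasRoots L) (t k : ℕ) :
    ∀ (b r : ℕ) (F : MultilinearMap ℂ (fun _ : Fin (k + 1) => A) ℂ), IsSymm F →
      IsK L b F → ZV L Z b r F → t * (t + 1) + (k + 1) * k ≤ 2 * b →
      2 * r + (k + 1) ^ 2 * k ≤ (k + 1) * (2 * b + t + 2) →
      ∀ P : Fin (k + 1) → A, (∀ i, P i ∈ L ^ b) → F P = 0 := by
  induction k with
  | zero =>
    intro b r F hs hK _ _ _ P hP
    exact core2 hroot 1 b (by simp) F hs hK P hP
  | succ k ih =>
    intro b r F hs hK hZ ht hr P hP
    by_cases hk : t + 1 ≤ k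
    · exact ZV_step hL hroot hk ih F hs hK r hZ ht hr P hP
    · refine core2 hroot (k + 1 + 1) b ?_ F hs hK P hP
      have h1 : k ≤ t := by omega
      rw [Nat.add_sub_cancel]
      nlinarith

end Vale.Agent.P181.H536
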