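import Vale.Agent.P181.H536.Row2

/-!
Kernel elements of the canonical map with few boxes below the first row: the sharper bound.
-/

set_option autoImplicit false

open Polynomial

namespace Vale.Agent.P181.H536

open Vale.Agent.P181 Vale.Agent.P181.H534

variable {A : Type*} [CommRing A] [Algebra ℂ A]

/-- The form vanishes when one argument has `Z`-degree above `D`. -/
def ZD (L Z : Submodule ℂ A) (b D : ℕ) {m : ℕ}
    (G : MultilinearMap ℂ (fun _ : Fin m => A) ℂ) : Prop :=
  ∀ (i₀ : Fin m) (P : Fin m → A), D + 1 ≤ b → (∀ i, P i ∈ L ^ b) →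
    P i₀ ∈ Z ^ (D + 1) * L ^ (b - (D + 1)) → G P = 0

lemma ZD.curry {L Z : Submodule ℂ A} {b D m : ℕ}
    {G : MultilinearMap ℂ (fun _ : Fin (m + 1) => A) ℂ} (hG : ZD L Z b D G) {P₀ : A}
    (hP₀ : P₀ ∈ L ^ b) : ZD L Z b D (G.curryLeft P₀) := by
  intro i₀ P hb hP hi₀
  rw [MultilinearMap.curryLeft_apply]
  apply hG i₀.succ _ hb
  · intro i
    refine Fin.cases ?_ (fun i => ?_) i
    · exact hP₀
    · exact hP i
  · exact hi₀

lemma ZD.mul {L Z : Submodule ℂ A} {b D k m : ℕ}
    {G : MultilinearMap ℂ (fun _ : Fin m => A) ℂ} (hG : ZD L Z b D G) {θ : A} (hθ : θ ∈ L)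
    (hk : k ≤ b) : ZD L Z (b - k) D (mulArg G (fun _ => θ ^ k)) := by
  intro i₀ P hb hP hi₀
  rw [mulArg_apply]
  apply hG i₀ _ (by omega)
  · intro i
    have h1 : b = k + (b - k) := by omega
    rw [h1, pow_add]
    have h2 : k + (b - k) - k = b - k := by omega
    have := hP i
    exact Submodule.mul_mem_mul (Submodule.pow_mem_pow _ hθ _) this
  · have h1 : b - (D + 1) = k + (b - k - (D + 1)) := by omega
    rw [h1, pow_add L, mul_left_comm]
    exact Submodule.mul_mem_mul (Submodule.pow_mem_pow _ hθ _) hi₀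

/-- Sorted monomials. -/
lemma key_sorted' {p : A} {L Z : Submodule ℂ A} (hp : p ∈ L) (hZL : Z ≤ L) (hroot : HasRoots L)
    {k b r r₀ e D : ℕ} (hkb : k + 1 ≤ b)
    (ih : ∀ (r D : ℕ) (F : MultilinearMap ℂ (fun _ : Fin (k + 1) => A) ℂ), IsSymm F →
      IsK L (b - (k + 1)) F → ZV L Z (b - (k + 1)) r F → ZD L Z (b - (k + 1)) D F →
      r + (e + 1) * D ≤ r₀ → ∀ P : Fin (k + 1) → A, (∀ i, P i ∈ L ^ (b - (k + 1))) → F P = 0)
    (F : MultilinearMap ℂ (fun _ : Fin (k + 1 + 1) => A) ℂ) (hs : IsSymm F) (hK : IsK L b F)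
    (hZ : ZV L Z b r F) (hZD : ZD L Z b D F) (hrD : r + e * D ≤ r₀)
    (hr₀ : r₀ < (e + 1) * (b - (k + 1) + 1) +
      ∑ i : Fin (k + 1), (b + 1 - ((i : ℕ) + 1) * (k + 1)))
    (d : Fin (k + 1 + 1) → ℕ) (hdb : ∀ i, d i ≤ b) (hd : Antitone d) (hd0 : d 0 = D)
    (hsum : ∑ i, d i ≤ r)
    (w : Fin (k + 1 + 1) → A) (hw : ∀ i, w i ∈ Z ^ d i) :
    F (fun i => p ^ (b - d i) * w i) = 0 := by
  classical
  have hmem : ∀ i, p ^ (b - d i) * w i ∈ L ^ b := by
    intro i
    have h1 : b = (b - d i) + d i := by have := hdb i; omega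
    have h2 : p ^ (b - d i) * w i ∈ L ^ (b - d i) * L ^ d i :=
      Submodule.mul_mem_mul (Submodule.pow_mem_pow _ hp _) (pow_le_pow_left' hZL _ (hw i))
    rw [← pow_add, ← h1] at h2
    exact h2
  have h1 : (fun i => p ^ (b - d i) * w i) = (Fin.cons (p ^ (b - d 0) * w 0)
      (fun i : Fin (k + 1) => p ^ (b - d i.succ) * w i.succ) : Fin (k + 1 + 1) → A) := by
    funext i
    refine Fin.cases ?_ (fun i => ?_) i
    · rfl
    · rfl
  rw [h1, ← MultilinearMap.curryLeft_apply]
  have hd0r : d 0 ≤ r :=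
    (Finset.single_le_sum (f := d) (fun _ _ => Nat.zero_le _) (Finset.mem_univ 0)).trans hsum
  obtain ⟨r', hr'⟩ : ∃ r', r = r' + d 0 := ⟨r - d 0, by omega⟩
  have hT : ∀ θ ∈ L, ∀ f : Fin (k + 1) → A, (∀ i, f i ∈ L ^ (b - (k + 1))) →
      F.curryLeft (p ^ (b - d 0) * w 0) (fun i => θ ^ (k + 1) * f i) = 0 := by
    intro θ hθ f hf
    have h2 := ih r' D
      (mulArg (F.curryLeft (p ^ (b - d 0) * w 0)) (fun _ => θ ^ (k + 1)))
      ((hs.curryLeft _).mulArg_const _) ?_ ?_ ?_ ?_ f hf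
    · exact h2
    · intro m hm hmL
      rw [mulArg_apply]
      have h4 := lemmaC hroot (Nat.succ_pos k) F hs hK hθ m hmL 0 (by simp) (by
        rw [Multiset.card_zero, hm]; omega) (p ^ (b - d 0) * w 0) (by
        have h5 : k + 1 + m.card = b := by omega
        rw [h5]; exact hmem 0)
      simpa only [MultilinearMap.curryLeft_apply, Nat.succ_eq_add_one, Multiset.prod_zero,
        mul_one] using h4
    · exact ZV.mul (ZV.curry hZ (hdb 0) (mono_mem hp (hw 0)) (by omega)) hθ (by omega)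
    · exact ZD.mul (ZD.curry hZD (hmem 0)) hθ hkb
    · rw [add_mul, one_mul]; omega
  -- a small slot
  obtain ⟨i, hi⟩ : ∃ i : Fin (k + 1), d i.succ + ((i : ℕ) + 1) * (k + 1) ≤ b := by
    by_contra hno
    push Not at hno
    have h3 : ∑ i : Fin (k + 1), (b + 1 - ((i : ℕ) + 1) * (k + 1)) ≤
        ∑ i : Fin (k + 1), d i.succ := by
      apply Finset.sum_le_sum
      intro i _
      have := hno i
      omega
    have h5 := hno 0
    have h6 : d (Fin.succ 0) ≤ d 0 := hd (Fin.zero_le _)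
    have h7 : ∑ i, d i = d 0 + ∑ i : Fin (k + 1), d i.succ := Fin.sum_univ_succ _
    have h8 : ((0 : Fin (k + 1)) : ℕ) = 0 := rfl
    rw [h8, zero_add, one_mul] at h5
    have h9 : b - (k + 1) + 1 ≤ D := by omega
    have h10 : (e + 1) * (b - (k + 1) + 1) ≤ (e + 1) * D := Nat.mul_le_mul_left _ h9
    have h11 : (e + 1) * D = e * D + D := by ring
    omega
  have hcard : (Finset.univ.filter (fun j : Fin (k + 1) => j < i)).card = (i : ℕ) := by
    rw [show (Finset.univ.filter (fun j : Fin (k + 1) => j < i)) = Finset.Iio i by ext; simp]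
    exact Fin.card_Iio i
  apply free_div (L := L) (κ := k + 1) (c := ((i : ℕ) + 1) * (k + 1)) (b := b)
    (F.curryLeft (p ^ (b - d 0) * w 0))
    (Finset.univ.filter (fun j : Fin (k + 1) => j < i)) (by rw [hcard]) (by omega) hT hp
  · intro j _
    exact hmem j.succ
  · intro j hj
    have hij : i ≤ j := by
      simpa using hj
    have h2 : d j.succ ≤ d i.succ := hd (Fin.succ_le_succ_iff.2 hij)
    refine ⟨p ^ (b - ((i : ℕ) + 1) * (k + 1) - d j.succ) * w j.succ, ?_, ?_⟩
    · have h3 : b - ((i : ℕ) + 1) * (k + 1) =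
          (b - ((i : ℕ) + 1) * (k + 1) - d j.succ) + d j.succ := by omega
      rw [h3, pow_add]
      refine Submodule.mul_mem_mul ?_ (pow_le_pow_left' hZL _ (hw _))
      rw [Nat.add_sub_cancel]
      exact Submodule.pow_mem_pow _ hp _
    · rw [← mul_assoc, ← pow_add]
      congr 2
      omega

lemma ZD_step {p : A} {L Z : Submodule ℂ A} (hL : L = Submodule.span ℂ {p} ⊔ Z)
    (hroot : HasRoots L) {k b r₀ e : ℕ} (hkb : k + 1 ≤ b)
    (ih : ∀ (r D : ℕ) (F : MultilinearMap ℂ (fun _ : Fin (k + 1) => A) ℂ), IsSymm F →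
      IsK L (b - (k + 1)) F → ZV L Z (b - (k + 1)) r F → ZD L Z (b - (k + 1)) D F →
      r + (e + 1) * D ≤ r₀ → ∀ P : Fin (k + 1) → A, (∀ i, P i ∈ L ^ (b - (k + 1))) → F P = 0)
    (hr₀ : r₀ < (e + 1) * (b - (k + 1) + 1) +
      ∑ i : Fin (k + 1), (b + 1 - ((i : ℕ) + 1) * (k + 1)))
    (F : MultilinearMap ℂ (fun _ : Fin (k + 1 + 1) => A) ℂ) (hs : IsSymm F) (hK : IsK L b F)
    (r : ℕ) (hZ : ZV L Z b r F) (D : ℕ) (hZD : ZD L Z b D F) (hrD : r + e * D ≤ r₀) :
    ∀ P : Fin (k + 1 + 1) → A, (∀ i, P i ∈ L ^ b) → F P = 0 := by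
  classical
  have hp : p ∈ L := by
    rw [hL]; exact Submodule.mem_sup_left (Submodule.mem_span_singleton_self p)
  have hZL : Z ≤ L := by rw [hL]; exact le_sup_right
  -- a monomial input whose largest degree is `D`
  have main : ∀ D : ℕ, ZD L Z b D F → r + e * D ≤ r₀ → ∀ (d : Fin (k + 1 + 1) → ℕ)
      (w : Fin (k + 1 + 1) → A), (∀ i, d i ≤ b) → (∀ i, w i ∈ Z ^ d i) → (∀ i, d i ≤ D) →
      (∃ i, d i = D) → F (fun i => p ^ (b - d i) * w i) = 0 := by
    intro D hZD hrD d w hdb hw hdD hex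
    by_cases hsum : ∑ i, d i ≤ r
    · let σ : Equiv.Perm (Fin (k + 1 + 1)) := Tuple.sort (fun i => OrderDual.toDual (d i))
      have hσ : Antitone (fun i => d (σ i)) := by
        intro i j hij
        exact Tuple.monotone_sort (fun i => OrderDual.toDual (d i)) hij
      have h0 : d (σ 0) = D := by
        obtain ⟨i, hi⟩ := hex
        apply le_antisymm (hdD _)
        rw [← hi]
        have h1 : d (σ (σ.symm i)) ≤ d (σ 0) := hσ (Fin.zero_le _)
        rwa [Equiv.apply_symm_apply] at h1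
      have h1 := key_sorted' hp hZL hroot hkb ih F hs hK hZ hZD hrD hr₀ (fun i => d (σ i))
        (fun i => hdb _) hσ h0
        (by rw [show ∑ i, d (σ i) = ∑ i, d i from Equiv.sum_comp σ d]; exact hsum)
        (fun i => w (σ i)) (fun i => hw _)
      rw [← h1]
      exact (hs σ (fun i => p ^ (b - d i) * w i)).symm
    · exact hZ d hdb _ (fun i => mono_mem hp (hw i)) (by omega)
  have hmm : ∀ (d : ℕ) (w : A), d ≤ b → w ∈ Z ^ d → p ^ (b - d) * w ∈ L ^ b := by
    intro d w hd hw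
    have h1 : b = (b - d) + d := by omega
    have h2 : p ^ (b - d) * w ∈ L ^ (b - d) * L ^ d :=
      Submodule.mul_mem_mul (Submodule.pow_mem_pow _ hp _) (pow_le_pow_left' hZL _ hw)
    rw [← pow_add, ← h1] at h2
    exact h2
  have hbig : ∀ D : ℕ, ZD L Z b D F → ∀ (d : Fin (k + 1 + 1) → ℕ) (w : Fin (k + 1 + 1) → A),
      (∀ i, d i ≤ b) → (∀ i, w i ∈ Z ^ d i) → (∃ i, D < d i) →
      F (fun i => p ^ (b - d i) * w i) = 0 := by
    intro D hZD d w hdb hw hex
    obtain ⟨i, hi⟩ := hex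
    have hib := hdb i
    apply hZD i _ (by omega) (fun i => hmm _ _ (hdb i) (hw i))
    have h1 : d i = (D + 1) + (d i - (D + 1)) := by omega
    have h2 : w i ∈ Z ^ (D + 1) * Z ^ (d i - (D + 1)) := by
      rw [← pow_add, ← h1]; exact hw i
    have h3 : b - (D + 1) = (d i - (D + 1)) + (b - d i) := by omega
    rw [mul_comm (p ^ (b - d i)) (w i), h3, pow_add L, ← mul_assoc]
    refine Submodule.mul_mem_mul ?_ (Submodule.pow_mem_pow _ hp _)
    exact (mul_le_mul' (le_refl _) (pow_le_pow_left' hZL _)) h2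
  induction D with
  | zero =>
    intro P hP
    apply multilinear_zero_of_span' F (fun _ => Mono p Z b 0)
    · intro w hw
      choose d v _ hdb hv hx using hw
      have h1 : w = fun i => p ^ (b - d i) * v i := funext hx
      rw [h1]
      by_cases hbd : ∃ i, 0 < d i
      · exact hbig 0 hZD d v hdb hv hbd
      · push Not at hbd
        exact main 0 hZD hrD d v hdb hv (fun i => hbd i) ⟨0, Nat.le_zero.1 (hbd 0)⟩
    · intro i
      have h2 := hP i
      rw [hL] at h2
      exact pow_le_mono p Z b h2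
  | succ D ihD =>
    apply ihD _ (le_trans (by nlinarith) hrD)
    intro i₀ P hDb hP hi₀
    apply multilinear_zero_of_span' F (fun i => if i = i₀ then Mono p Z b (D + 1)
      else Mono p Z b 0)
    · intro w hw
      have h0 : ∀ i, ∃ d v, (i = i₀ → D + 1 ≤ d) ∧ d ≤ b ∧ v ∈ Z ^ d ∧ w i = p ^ (b - d) * v := by
        intro i
        have h2 := hw i
        by_cases hi : i = i₀
        · rw [if_pos hi] at h2
          obtain ⟨d, v, h3, h4, h5, h6⟩ := h2
          exact ⟨d, v, fun _ => h3, h4, h5, h6⟩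
        · rw [if_neg hi] at h2
          obtain ⟨d, v, h3, h4, h5, h6⟩ := h2
          exact ⟨d, v, fun h => absurd h hi, h4, h5, h6⟩
      choose d v hd0 hdb hv hx using h0
      have h1 : w = fun i => p ^ (b - d i) * v i := funext hx
      rw [h1]
      by_cases hbd : ∃ i, D + 1 < d i
      · exact hbig (D + 1) hZD d v hdb hv hbd
      · push Not at hbd
        exact main (D + 1) hZD hrD d v hdb hv (fun i => hbd i)
          ⟨i₀, le_antisymm (hbd i₀) (hd0 i₀ rfl)⟩
    · intro i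
      by_cases hi : i = i₀
      · rw [if_pos hi]
        rw [← hi] at hi₀
        rw [hL] at hi₀
        exact mul_le_mono p Z hDb hi₀
      · rw [if_neg hi]
        have h2 := hP i
        rw [hL] at h2
        exact pow_le_mono p Z b h2

/-- **Main theorem, sharper bound.** -/
theorem long_main' {p : A} {L Z : Submodule ℂ A} (hL : L = Submodule.span ℂ {p} ⊔ Z)
    (hroot : HasRoots L) (s a r₀ : ℕ)
    (hcond : ∀ i : ℕ, 2 ≤ i → i ≤ a → 2 * s < (i - 1) * (i - 2) →
      r₀ < (a - i + 1) * (s + (i - 1) * (i - 2) / 2 + 1) +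
        ∑ l ∈ Finset.range (i - 1), (s + i * (i - 1) / 2 + 1 - (l + 1) * (i - 1)))
    (k : ℕ) : ∀ (e : ℕ), k + 1 + e = a → ∀ (r D : ℕ)
      (F : MultilinearMap ℂ (fun _ : Fin (k + 1) => A) ℂ), IsSymm F →
      IsK L (s + (k + 1) * k / 2) F → ZV L Z (s + (k + 1) * k / 2) r F →
      ZD L Z (s + (k + 1) * k / 2) D F → r + e * D ≤ r₀ →
      ∀ P : Fin (k + 1) → A, (∀ i, P i ∈ L ^ (s + (k + 1) * k / 2)) → F P = 0 := by
  induction k with
  | zero =>
    intro e _ r D F hs hK _ _ _ P hP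
    exact core2 hroot 1 _ (by simp) F hs hK P hP
  | succ k ih =>
    intro e he r D F hs hK hZ hZD hrD P hP
    have h2 : (k + 1 + 1) * (k + 1) / 2 = (k + 1) * k / 2 + (k + 1) := by
      have h3 : (k + 1 + 1) * (k + 1) = (k + 1) * k + (k + 1) * 2 := by ring
      rw [h3, Nat.add_mul_div_right _ _ (by norm_num)]
    have hb : s + (k + 1 + 1) * (k + 1) / 2 - (k + 1) = s + (k + 1) * k / 2 := by omega
    by_cases hk : 2 * s < (k + 1) * k
    · have hkk : 1 ≤ k := by
        by_contra h0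
        have : k = 0 := by omega
        rw [this] at hk; omega
      have h4 := hcond (k + 1 + 1) (by omega) (by omega) (by
        have h5 : k + 1 + 1 - 1 = k + 1 := by omega
        have h6 : k + 1 + 1 - 2 = k := by omega
        rw [h5, h6]; exact hk)
      have h5 : k + 1 + 1 - 1 = k + 1 := by omega
      have h6 : k + 1 + 1 - 2 = k := by omega
      rw [h5, h6] at h4
      have h7 : a - (k + 1 + 1) = e := by omega
      rw [h7] at h4
      refine ZD_step hL hroot (r₀ := r₀) (e := e) (by omega) ?_ ?_ F hs hK r hZ D hZD hrD P hP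
      · rw [hb]
        exact ih (e + 1) (by omega)
      · rw [hb, Fin.sum_univ_eq_sum_range
          (fun i => s + (k + 1 + 1) * (k + 1) / 2 + 1 - (i + 1) * (k + 1)) (k + 1)]
        exact h4
    · refine core2 hroot (k + 1 + 1) _ ?_ F hs hK P hP
      rw [Nat.add_sub_cancel, h2]
      push Not at hk
      have h3 : (k + 1) * k / 2 * 2 = (k + 1) * k := Nat.div_mul_cancel
        (by have := (Nat.even_mul_succ_self k).two_dvd; rwa [mul_comm] at this)
      nlinarith

end Vale.Agent.P181.H536
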