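import Vale.Agent.P181.H536.Row2
import Vale.Agent.P181.H693.Row1

/-!
Highest weight vectors with few boxes below the first row.
-/

set_option autoImplicit false

open scoped TensorProduct

namespace Vale.Agent.P181.H536

open Vale.Agent.P181 MvPolynomial H280

/-- The canonical map is injective on highest weight vectors with a long first row. -/
theorem foulkesHowe_injOn_row {k b n t : ℕ} (ht : t * (t + 1) + (k + 1) * k ≤ 2 * b)
    (lam : Fin (n + 1) → ℕ)
    (hlam : 2 * (∑ i : Fin n, lam i.succ) + (k + 1) ^ 2 * k ≤ (k + 1) * (2 * b + t + 2))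
    (x : Sym[ℂ]^(k + 1) (Sym[ℂ]^b (Fin (n + 1) → ℂ)))
    (hx : x ∈ hwSpace lam (plethAct (k + 1) b (n + 1)))
    (h0 : foulkesHowe (k + 1) b (Fin (n + 1) → ℂ) x = 0) : x = 0 := by
  obtain ⟨l, rfl⟩ := exists_elOf x
  apply elOf_eq_zero
  exact long_main (p := X 0) (Z := H693.ZZ1 n) (H693.sup_eq1 n).symm (H693.hasRoots_linS (n + 1))
    t k b (∑ i : Fin n, lam i.succ) (formOf l) (formOf_symm l) (isK_formOf l h0)
    (fun d hd P hP hr => H693.zv_formOf lam l hx d hd P hP hr) ht hlam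

theorem plethMult_le_row {k b n t : ℕ} (ht : t * (t + 1) + (k + 1) * k ≤ 2 * b)
    (lam : Fin (n + 1) → ℕ)
    (hlam : 2 * (∑ i : Fin n, lam i.succ) + (k + 1) ^ 2 * k ≤ (k + 1) * (2 * b + t + 2)) :
    plethMult (k + 1) b (n + 1) lam ≤ plethMult b (k + 1) (n + 1) lam :=
  finrank_le_of_inj (foulkesHowe (k + 1) b (Fin (n + 1) → ℂ)) _ _
    (fun x hx => foulkesHowe_hwSpace lam x hx)
    (fun x hx h0 => foulkesHowe_injOn_row ht lam hlam x hx h0)

end Vale.Agent.P181.H536
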