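import Vale.Agent.P181.H536.RowHW
import Vale.Agent.P181.H536.Row3

/-!
Highest weight vectors with few boxes below the first row: the sharper bound.
-/

set_option autoImplicit false

open scoped TensorProduct

namespace Vale.Agent.P181.H536

open Vale.Agent.P181 MvPolynomial H280

theorem foulkesHowe_injOn_row' {k s n : ℕ} (lam : Fin (n + 1) → ℕ)
    (hcond : ∀ i : ℕ, 2 ≤ i → i ≤ k + 1 → 2 * s < (i - 1) * (i - 2) →
      (∑ i : Fin n, lam i.succ) < (k + 1 - i + 1) * (s + (i - 1) * (i - 2) / 2 + 1) +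
        ∑ l ∈ Finset.range (i - 1), (s + i * (i - 1) / 2 + 1 - (l + 1) * (i - 1)))
    (x : Sym[ℂ]^(k + 1) (Sym[ℂ]^(s + (k + 1) * k / 2) (Fin (n + 1) → ℂ)))
    (hx : x ∈ hwSpace lam (plethAct (k + 1) (s + (k + 1) * k / 2) (n + 1)))
    (h0 : foulkesHowe (k + 1) (s + (k + 1) * k / 2) (Fin (n + 1) → ℂ) x = 0) : x = 0 := by
  obtain ⟨l, rfl⟩ := exists_elOf x
  apply elOf_eq_zero
  exact long_main' (p := X 0) (Z := H693.ZZ1 n) (H693.sup_eq1 n).symm
    (H693.hasRoots_linS (n + 1)) s (k + 1) (∑ i : Fin n, lam i.succ) hcond k 0 rfl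
    (∑ i : Fin n, lam i.succ) (s + (k + 1) * k / 2) (formOf l) (formOf_symm l) (isK_formOf l h0)
    (fun d hd P hP hr => H693.zv_formOf lam l hx d hd P hP hr)
    (fun _ _ hD _ _ => absurd hD (by omega)) (by omega)

theorem plethMult_le_row' {k s n : ℕ} (lam : Fin (n + 1) → ℕ)
    (hcond : ∀ i : ℕ, 2 ≤ i → i ≤ k + 1 → 2 * s < (i - 1) * (i - 2) →
      (∑ i : Fin n, lam i.succ) < (k + 1 - i + 1) * (s + (i - 1) * (i - 2) / 2 + 1) +
        ∑ l ∈ Finset.range (i - 1), (s + i * (i - 1) / 2 + 1 - (l + 1) * (i - 1))) :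
    plethMult (k + 1) (s + (k + 1) * k / 2) (n + 1) lam ≤
      plethMult (s + (k + 1) * k / 2) (k + 1) (n + 1) lam :=
  finrank_le_of_inj (foulkesHowe (k + 1) (s + (k + 1) * k / 2) (Fin (n + 1) → ℂ)) _ _
    (fun x hx => foulkesHowe_hwSpace lam x hx)
    (fun x hx h0 => foulkesHowe_injOn_row' lam hcond x hx h0)

end Vale.Agent.P181.H536
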