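import Vale.Agent.P181.H536.Form

set_option autoImplicit false

open Polynomial

namespace Vale.Agent.P181.H536

open Vale.Agent.P181

variable {A : Type*} [CommRing A] [Algebra ℂ A]

/-- The statement `D_j`: the first-order form with `j` lines removed vanishes. -/
def DD (L : Submodule ℂ A) (b : ℕ) {k : ℕ} (G : MultilinearMap ℂ (fun _ : Fin (k + 1) => A) ℂ)
    (j : ℕ) : Prop :=
  ∀ v S R : Multiset A, Multiset.card v = j → Multiset.card S = j → j + Multiset.card R = b →
    (∀ x ∈ v, x ∈ L) → (∀ x ∈ S, x ∈ L) → (∀ x ∈ R, x ∈ L) →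
    G.curryLeft (v.prod * R.prod) (fun _ => S.prod * R.prod) = 0

lemma curryLeft_const {k : ℕ} (G : MultilinearMap ℂ (fun _ : Fin (k + 1) => A) ℂ) (x : A) :
    G.curryLeft x (fun _ => x) = G (fun _ => x) := by
  rw [MultilinearMap.curryLeft_apply]
  congr 1
  funext i
  refine Fin.cases ?_ (fun i => ?_) i
  · rfl
  · rfl

lemma DD_zero {L : Submodule ℂ A} {b k : ℕ} {G : MultilinearMap ℂ (fun _ : Fin (k + 1) => A) ℂ}
    (hK : IsK L b G) : DD L b G 0 := by
  intro v S R hv hS hR _ _ hRL
  rw [Multiset.card_eq_zero] at hv hS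
  rw [hv, hS, Multiset.prod_zero, one_mul, curryLeft_const]
  exact hK R (by omega) hRL

lemma DD_one {L : Submodule ℂ A} {b k : ℕ} {G : MultilinearMap ℂ (fun _ : Fin (k + 1) => A) ℂ}
    (hs : IsSymm G) (hK : IsK L b G) : DD L b G 1 := by
  intro v S R hv hS hR hvL hSL hRL
  obtain ⟨w, rfl⟩ := Multiset.card_eq_one.1 hv
  obtain ⟨s, rfl⟩ := Multiset.card_eq_one.1 hS
  rw [Multiset.prod_singleton, Multiset.prod_singleton]
  apply firstSlot hs
  intro t
  have h1 : s * R.prod + t • (w * R.prod) = ((s + t • w) ::ₘ R).prod := by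
    rw [Multiset.prod_cons, add_mul, smul_mul_assoc]
  rw [h1]
  apply hK
  · rw [Multiset.card_cons]; omega
  · intro x hx
    rcases Multiset.mem_cons.1 hx with rfl | hx
    · exact L.add_mem (hSL s (by simp)) (L.smul_mem _ (hvL w (by simp)))
    · exact hRL x hx

/-- A polynomial function vanishing away from `0` vanishes at `0`. -/
lemma limit_zero (P : ℂ[X]) (h : ∀ t, t ≠ 0 → P.eval t = 0) : P.eval 0 = 0 := by
  have h1 : X * P = 0 := by
    apply Polynomial.funext
    intro t
    rw [eval_mul, eval_X, eval_zero]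
    by_cases ht : t = 0
    · rw [ht, zero_mul]
    · rw [h t ht, mul_zero]
  have h2 := (mul_eq_zero.1 h1).resolve_left X_ne_zero
  rw [h2, eval_zero]

section StepLemmas

variable {L : Submodule ℂ A} {b k j : ℕ} {G : MultilinearMap ℂ (fun _ : Fin (k + 1) => A) ℂ}

/-- (A) -/
lemma stepA (hD : DD L b G (j + 1)) {l₁ l₂ : A} (h1 : l₁ ∈ L) (h2 : l₂ ∈ L) (v S R : Multiset A)
    (hv : Multiset.card v = j + 1) (hS : Multiset.card S = j) (hR : j + 2 + Multiset.card R = b)
    (hvL : ∀ x ∈ v, x ∈ L) (hSL : ∀ x ∈ S, x ∈ L) (hRL : ∀ x ∈ R, x ∈ L) :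
    G.curryLeft (l₁ * (v.prod * R.prod)) (fun _ => l₁ * l₂ * (S.prod * R.prod)) = 0 := by
  have h3 := hD v (l₂ ::ₘ S) (l₁ ::ₘ R) hv (by rw [Multiset.card_cons, hS])
    (by rw [Multiset.card_cons]; omega) hvL (by
      intro x hx
      rcases Multiset.mem_cons.1 hx with rfl | hx
      · exact h2
      · exact hSL x hx) (by
      intro x hx
      rcases Multiset.mem_cons.1 hx with rfl | hx
      · exact h1
      · exact hRL x hx)
  rw [Multiset.prod_cons, Multiset.prod_cons] at h3
  have h4 : l₁ * (v.prod * R.prod) = v.prod * (l₁ * R.prod) := by ring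
  have h5 : l₁ * l₂ * (S.prod * R.prod) = l₂ * S.prod * (l₁ * R.prod) := by ring
  rw [h4, h5]
  exact h3

/-- (B) -/
lemma stepB (hD : DD L b G (j + 1)) {l w : A} (hl : l ∈ L) (hw : w ∈ L) (v S R : Multiset A)
    (hv : Multiset.card v = j + 1) (hS : Multiset.card S = j) (hR : j + 2 + Multiset.card R = b)
    (hvL : ∀ x ∈ v, x ∈ L) (hSL : ∀ x ∈ S, x ∈ L) (hRL : ∀ x ∈ R, x ∈ L) :
    G.curryLeft (w * (v.prod * R.prod)) (fun _ => l * l * (S.prod * R.prod)) = 0 := by
  obtain ⟨P, hP⟩ := poly_exists (G.curryLeft (w * (v.prod * R.prod)))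
    (fun _ => C l * (C l + X * C w) * C (S.prod * R.prod))
  have hP' : ∀ t : ℂ, P.eval t = G.curryLeft (w * (v.prod * R.prod))
      (fun _ => l * (l + t • w) * (S.prod * R.prod)) := by
    intro t
    rw [hP]
    congr 1
    funext i
    simp only [eval_mul, eval_add, eval_C, eval_X, Algebra.smul_def]
  have h0 := limit_zero P (by
    intro t ht
    rw [hP']
    have hlt : l + t • w ∈ L := L.add_mem hl (L.smul_mem _ hw)
    have h1 := stepA hD hl hlt v S R hv hS hR hvL hSL hRL
    have h2 := stepA hD hlt hl v S R hv hS hR hvL hSL hRL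
    rw [mul_comm (l + t • w) l] at h2
    have h3 : (l + t • w) * (v.prod * R.prod) = l * (v.prod * R.prod) +
        t • (w * (v.prod * R.prod)) := by
      rw [add_mul, smul_mul_assoc]
    rw [h3, map_add, map_smul, add_apply, smul_apply, h1, zero_add,
      smul_eq_mul] at h2
    exact (mul_eq_zero.1 h2).resolve_left ht)
  rw [hP', zero_smul, add_zero] at h0
  exact h0

/-- (C) -/
lemma stepC {N : ℕ} (hN : 1 ≤ N) (hk : k ≤ N) (hD : DD L b G (j + 1)) {p q : A}
    (hp : p ∈ L) (hq : q ∈ L) (v S R : Multiset A)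
    (hv : Multiset.card v = j + 2) (hS : Multiset.card S = j)
    (hR : j + 2 + (N + Multiset.card R) = b)
    (hvL : ∀ x ∈ v, x ∈ L) (hSL : ∀ x ∈ S, x ∈ L) (hRL : ∀ x ∈ R, x ∈ L)
    (x y : ℂ) (T : Multiset ℂ) (hT : Multiset.card T = N) (hT' : T.Nodup) :
    G.curryLeft (v.prod * (Lam p q T * R.prod))
      (fun _ => lin p q x * lin p q y * (S.prod * (Lam p q T * R.prod))) = 0 := by
  have hlin : ∀ x, lin p q x ∈ L := fun x => L.add_mem hp (L.smul_mem _ hq)
  have h1 := group_form hk G p q (v.prod * R.prod) (S.prod * R.prod) (by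
    intro x T hT
    obtain ⟨w, v', rfl⟩ : ∃ w v', v = w ::ₘ v' := by
      obtain ⟨z, hz⟩ := Multiset.card_pos_iff_exists_mem.1 (by omega : 0 < Multiset.card v)
      obtain ⟨R, hR⟩ := Multiset.exists_cons_of_mem hz
      exact ⟨z, R, hR⟩
    have h2 := stepB hD (hlin x) (hvL w (Multiset.mem_cons_self _ _)) v' S
      (T.map (lin p q) + R) (by rw [Multiset.card_cons] at hv; omega) hS
      (by rw [Multiset.card_add, Multiset.card_map, hT]; exact hR)
      (fun x hx => hvL x (Multiset.mem_cons_of_mem hx)) hSL (by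
        intro z hz
        rcases Multiset.mem_add.1 hz with hz | hz
        · obtain ⟨s, -, rfl⟩ := Multiset.mem_map.1 hz
          exact hlin s
        · exact hRL z hz)
    rw [Multiset.prod_add] at h2
    have h3 : (w ::ₘ v').prod * R.prod * Lam p q T =
        w * (v'.prod * ((T.map (lin p q)).prod * R.prod)) := by
      rw [Multiset.prod_cons, Lam]; ring
    have h4 : lin p q x * lin p q x * (Lam p q T * (S.prod * R.prod)) =
        lin p q x * lin p q x * (S.prod * ((T.map (lin p q)).prod * R.prod)) := by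
      rw [Lam]; ring
    rw [h3, h4]
    exact h2) x y T hT
  have h3 : v.prod * (Lam p q T * R.prod) = v.prod * R.prod * Lam p q T := by ring
  have h4 : lin p q x * lin p q y * (S.prod * (Lam p q T * R.prod)) =
      lin p q x * lin p q y * (Lam p q T * (S.prod * R.prod)) := by ring
  rw [h3, h4]
  exact h1

end StepLemmas

end Vale.Agent.P181.H536
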