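import Vale.Agent.P181.H536.Cube

set_option autoImplicit false

namespace Vale.Agent.P181.H536

open Vale.Agent.P181

variable {A : Type*} [CommRing A] [Algebra ℂ A]

section

variable {p q : A} {Z : Submodule ℂ A} {τ : ℂ → A →ₐ[ℂ] A} {b r k j N : ℕ}
  {G : MultilinearMap ℂ (fun _ : Fin (k + 1) => A) ℂ}

lemma stepE_aux (h : Setup p q Z τ) (hN : 1 ≤ N) (hk : k ≤ N) (hr : r + N ≤ b)
    (hG : Cls p q Z τ b r G) (hD : DD (Submodule.span ℂ {p, q} ⊔ Z) b G (j + 1)) {m : ℕ}
    (hm : j + 2 + m = b) (x y : ℂ) (hxy : x ≠ y) (s : Fin j → ℂ) (zs : Fin j → A)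
    (hzs : ∀ i, zs i ∈ Z) (e : Fin m → ℂ) (he : Function.Injective e) (ze : Fin m → A)
    (hze : ∀ i, ze i ∈ Z) (v : Multiset A) (hvL : ∀ x ∈ v, x ∈ Submodule.span ℂ {p, q} ⊔ Z) :
    ∀ w : Multiset A, Multiset.card v + Multiset.card w = j + 2 → (∀ x ∈ w, x ∈ Z) →
    G.curryLeft (v.prod * w.prod * ∏ i, (lin p q (e i) + ze i))
      (fun _ => lin p q x * lin p q y *
        ((∏ i, (lin p q (s i) + zs i)) * ∏ i, (lin p q (e i) + ze i))) = 0 := by
  induction v using Multiset.induction with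
  | empty =>
    intro w hw hwZ
    rw [Multiset.card_zero, zero_add] at hw
    rw [Multiset.prod_zero, one_mul]
    exact stepD h hN hk hr hG hD w hw hwZ hm x y s zs hzs e he ze hze
  | cons a v ih =>
    intro w hw hwZ
    rw [Multiset.card_cons] at hw
    obtain ⟨u, hu, z, hz, rfl⟩ := Submodule.mem_sup.1 (hvL a (Multiset.mem_cons_self _ _))
    have hvL' : ∀ x ∈ v, x ∈ Submodule.span ℂ {p, q} ⊔ Z :=
      fun x hx => hvL x (Multiset.mem_cons_of_mem hx)
    set E : A := ∏ i, (lin p q (e i) + ze i) with hE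
    set S : A := ∏ i, (lin p q (s i) + zs i) with hS
    -- the part of the vector in the pencil does not contribute
    let φ : A →ₗ[ℂ] ℂ :=
      { toFun := fun u => G.curryLeft (u * (v.prod * w.prod * E))
          (fun _ => lin p q x * lin p q y * (S * E))
        map_add' := fun a b => by rw [add_mul, map_add]; rfl
        map_smul' := fun c a => by rw [smul_mul_assoc, map_smul]; rfl }
    have hφ : ∀ u, φ u = G.curryLeft (u * (v.prod * w.prod * E))
          (fun _ => lin p q x * lin p q y * (S * E)) := fun u => rfl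
    have hA : ∀ x' y' : ℂ, lin p q x' * lin p q y' = lin p q x * lin p q y →
        φ (lin p q x') = 0 := by
      intro x' y' hxy'
      have h1 := stepA hD (mem_lin p q Z x') (mem_lin p q Z y') (v + w)
        (Multiset.map (fun i => lin p q (s i) + zs i) Finset.univ.val)
        (Multiset.map (fun i => lin p q (e i) + ze i) Finset.univ.val)
        (by rw [Multiset.card_add]; omega) (by rw [Multiset.card_map]; simp)
        (by rw [Multiset.card_map]; simp [hm])
        (by
          intro x hx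
          rcases Multiset.mem_add.1 hx with hx | hx
          · exact hvL' x hx
          · exact mem_Z (hwZ x hx))
        (by
          intro z hz
          obtain ⟨i, -, rfl⟩ := Multiset.mem_map.1 hz
          exact Submodule.add_mem _ (mem_lin p q Z _) (mem_Z (hzs i)))
        (by
          intro z hz
          obtain ⟨i, -, rfl⟩ := Multiset.mem_map.1 hz
          exact Submodule.add_mem _ (mem_lin p q Z _) (mem_Z (hze i)))
      rw [hxy', Multiset.prod_add] at h1
      rw [hφ]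
      exact h1
    have hx0 : φ (lin p q x) = 0 := hA x y rfl
    have hy0 : φ (lin p q y) = 0 := hA y x (mul_comm _ _)
    have hq0 : φ q = 0 := by
      have h1 : (x - y) • q = lin p q x - lin p q y := by
        rw [lin, lin, sub_smul]; abel
      have h2 : φ ((x - y) • q) = 0 := by rw [h1, map_sub, hx0, hy0, sub_zero]
      rw [map_smul, smul_eq_mul] at h2
      exact (mul_eq_zero.1 h2).resolve_left (sub_ne_zero.2 hxy)
    have hp0 : φ p = 0 := by
      have h1 : φ (lin p q x) = φ p + x • φ q := by rw [lin, map_add, map_smul]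
      rw [hx0, hq0, smul_zero, add_zero] at h1
      exact h1.symm
    have hu0 : φ u = 0 := by
      have h1 : Submodule.span ℂ {p, q} ≤ LinearMap.ker φ := by
        rw [Submodule.span_le]
        rintro _ (rfl | rfl)
        · exact hp0
        · exact hq0
      exact h1 hu
    have hz0 : φ z = 0 := by
      have h1 := ih hvL' (z ::ₘ w) (by rw [Multiset.card_cons]; omega) (by
        intro x hx
        rcases Multiset.mem_cons.1 hx with rfl | hx
        · exact hz
        · exact hwZ x hx)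
      rw [hφ, ← h1, Multiset.prod_cons]
      congr 2
      ring
    have h1 : (u + z) * v.prod * w.prod * E = (u + z) * (v.prod * w.prod * E) := by ring
    rw [Multiset.prod_cons, h1, ← hφ, map_add, hu0, hz0, add_zero]

/-- (E) -/
lemma stepE (h : Setup p q Z τ) (hN : 1 ≤ N) (hk : k ≤ N) (hr : r + N ≤ b)
    (hG : Cls p q Z τ b r G) (hD : DD (Submodule.span ℂ {p, q} ⊔ Z) b G (j + 1)) {m : ℕ}
    (hm : j + 2 + m = b) (x y : ℂ) (hxy : x ≠ y) (s : Fin j → ℂ) (zs : Fin j → A)
    (hzs : ∀ i, zs i ∈ Z) (e : Fin m → ℂ) (he : Function.Injective e) (ze : Fin m → A)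
    (hze : ∀ i, ze i ∈ Z) (v : Multiset A) (hv : Multiset.card v = j + 2)
    (hvL : ∀ x ∈ v, x ∈ Submodule.span ℂ {p, q} ⊔ Z) :
    G.curryLeft (v.prod * ∏ i, (lin p q (e i) + ze i))
      (fun _ => lin p q x * lin p q y *
        ((∏ i, (lin p q (s i) + zs i)) * ∏ i, (lin p q (e i) + ze i))) = 0 := by
  have h1 := stepE_aux h hN hk hr hG hD hm x y hxy s zs hzs e he ze hze v hvL 0
    (by rw [Multiset.card_zero, hv]) (by simp)
  rw [Multiset.prod_zero, mul_one] at h1
  exact h1

lemma IsShear.map_mem {U Z : Submodule ℂ A} {g : A →ₐ[ℂ] A} (hg : IsShear U Z g) {l : A}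
    (hl : l ∈ U ⊔ Z) : g l ∈ U ⊔ Z := by
  obtain ⟨u, hu, z, hz, rfl⟩ := Submodule.mem_sup.1 hl
  rw [map_add, hg.1 z hz]
  have h1 : g u + z = u + ((g u - u) + z) := by abel
  rw [h1]
  exact Submodule.add_mem _ (Submodule.mem_sup_left hu)
    (Submodule.mem_sup_right (Z.add_mem (hg.2 u hu) hz))

lemma IsShear.exists_preimage {U Z : Submodule ℂ A} {g : A →ₐ[ℂ] A} (hg : IsShear U Z g) {l : A}
    (hl : l ∈ U ⊔ Z) : ∃ l' ∈ U ⊔ Z, g l' = l := by
  obtain ⟨u, hu, z, hz, rfl⟩ := Submodule.mem_sup.1 hl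
  refine ⟨u + (z - (g u - u)), Submodule.add_mem _ (Submodule.mem_sup_left hu)
    (Submodule.mem_sup_right (Z.sub_mem hz (hg.2 u hu))), ?_⟩
  rw [map_add, hg.1 _ (Z.sub_mem hz (hg.2 u hu))]
  abel

lemma IsShear.comp {U Z : Submodule ℂ A} {g g' : A →ₐ[ℂ] A} (hg : IsShear U Z g)
    (hg' : IsShear U Z g') : IsShear U Z (g.comp g') := by
  refine ⟨fun z hz => ?_, fun u hu => ?_⟩
  · rw [AlgHom.comp_apply, hg'.1 z hz, hg.1 z hz]
  · rw [AlgHom.comp_apply]
    have h1 : g' u = u + (g' u - u) := by abel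
    rw [h1, map_add, hg.1 _ (hg'.2 u hu)]
    have h2 : g u + (g' u - u) - u = (g u - u) + (g' u - u) := by abel
    rw [h2]
    exact Z.add_mem (hg.2 u hu) (hg'.2 u hu)

lemma Cls.comp {m : ℕ} {G : MultilinearMap ℂ (fun _ : Fin m => A) ℂ} (hG : Cls p q Z τ b r G)
    {g : A →ₐ[ℂ] A} (hg : IsShear (Submodule.span ℂ {p, q}) Z g) :
    Cls p q Z τ b r (H536.comp G g) where
  symm := by
    intro σ P
    rw [comp_apply, comp_apply]
    exact hG.symm σ (fun i => g (P i))
  isK := by
    intro m hm hmL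
    rw [comp_apply, map_multiset_prod]
    apply hG.isK
    · rw [Multiset.card_map, hm]
    · intro x hx
      obtain ⟨l, hl, rfl⟩ := Multiset.mem_map.1 hx
      exact hg.map_mem (hmL l hl)
  good := by
    intro g' hg'
    exact hG.good (g.comp g') (hg.comp hg')

lemma exists_map_eq {L : Submodule ℂ A} {g : A →ₐ[ℂ] A} (hg : ∀ l ∈ L, ∃ l' ∈ L, g l' = l)
    (v : Multiset A) (hv : ∀ x ∈ v, x ∈ L) :
    ∃ v' : Multiset A, Multiset.card v' = Multiset.card v ∧ (∀ x ∈ v', x ∈ L) ∧
      g v'.prod = v.prod := by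
  induction v using Multiset.induction with
  | empty => exact ⟨0, rfl, by simp, by simp⟩
  | cons a v ih =>
    obtain ⟨v', h1, h2, h3⟩ := ih (fun x hx => hv x (Multiset.mem_cons_of_mem hx))
    obtain ⟨a', ha', hga⟩ := hg a (hv a (Multiset.mem_cons_self _ _))
    refine ⟨a' ::ₘ v', by rw [Multiset.card_cons, Multiset.card_cons, h1], ?_, ?_⟩
    · intro x hx
      rcases Multiset.mem_cons.1 hx with rfl | hx
      · exact ha'
      · exact h2 x hx
    · rw [Multiset.prod_cons, Multiset.prod_cons, map_mul, hga, h3]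

/-- (F) -/
lemma stepF (h : Setup p q Z τ) (hN : 1 ≤ N) (hk : k ≤ N) (hr : r + N ≤ b)
    (hG : Cls p q Z τ b r G)
    (hD : ∀ G : MultilinearMap ℂ (fun _ : Fin (k + 1) => A) ℂ, Cls p q Z τ b r G →
      DD (Submodule.span ℂ {p, q} ⊔ Z) b G (j + 1)) {m : ℕ}
    (hm : j + 2 + m = b) (x y : ℂ) (hxy : x ≠ y) (z₁ z₂ : A) (hz₁ : z₁ ∈ Z) (hz₂ : z₂ ∈ Z)
    (s : Fin j → ℂ) (zs : Fin j → A)
    (hzs : ∀ i, zs i ∈ Z) (e : Fin m → ℂ) (he : Function.Injective e) (ze : Fin m → A)
    (hze : ∀ i, ze i ∈ Z) (v : Multiset A) (hv : Multiset.card v = j + 2)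
    (hvL : ∀ x ∈ v, x ∈ Submodule.span ℂ {p, q} ⊔ Z) :
    G.curryLeft (v.prod * ∏ i, (lin p q (e i) + ze i))
      (fun _ => (lin p q x + z₁) * (lin p q y + z₂) *
        ((∏ i, (lin p q (s i) + zs i)) * ∏ i, (lin p q (e i) + ze i))) = 0 := by
  let c : A := (x - y)⁻¹ • (z₁ - z₂)
  let a : A := z₁ - x • c
  have hc : c ∈ Z := Z.smul_mem _ (Z.sub_mem hz₁ hz₂)
  have ha : a ∈ Z := Z.sub_mem hz₁ (Z.smul_mem _ hc)
  obtain ⟨g, hg, hgp, hgq⟩ := h.shear a ha c hc
  have hline : ∀ t z, z ∈ Z → g (lin p q t + (z - (a + t • c))) = lin p q t + z := by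
    intro t z hz
    rw [map_add, lin, map_add, map_smul, hgp, hgq,
      hg.1 _ (Z.sub_mem hz (Z.add_mem ha (Z.smul_mem _ hc))), smul_add]
    abel
  have hx : g (lin p q x) = lin p q x + z₁ := by
    rw [lin, map_add, map_smul, hgp, hgq, smul_add]
    simp only [a]
    abel
  have hy : g (lin p q y) = lin p q y + z₂ := by
    rw [lin, map_add, map_smul, hgp, hgq, smul_add]
    have h1 : a + y • c = z₂ := by
      have h2 : (x - y) • c = z₁ - z₂ := by
        simp only [c]
        rw [smul_smul, mul_inv_cancel₀ (sub_ne_zero.2 hxy), one_smul]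
      have h3 : a + y • c = z₁ - (x - y) • c := by
        simp only [a]
        rw [sub_smul]; abel
      rw [h3, h2]; abel
    calc p + a + (y • q + y • c) = p + y • q + (a + y • c) := by abel
      _ = _ := by rw [h1]
  obtain ⟨v', hv'c, hv'L, hv'⟩ := exists_map_eq (L := Submodule.span ℂ {p, q} ⊔ Z) (g := g)
    (fun l hl => hg.exists_preimage hl) v hvL
  have h1 := stepE h hN hk hr (hG.comp hg) (hD _ (hG.comp hg)) hm x y hxy s
    (fun i => zs i - (a + s i • c)) (fun i => Z.sub_mem (hzs i) (Z.add_mem ha (Z.smul_mem _ hc)))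
    e he (fun i => ze i - (a + e i • c))
    (fun i => Z.sub_mem (hze i) (Z.add_mem ha (Z.smul_mem _ hc))) v' (by rw [hv'c, hv]) hv'L
  rw [MultilinearMap.curryLeft_apply, comp_apply] at h1
  rw [← h1, MultilinearMap.curryLeft_apply]
  congr 1
  funext i
  have hE : ∏ i, (lin p q (e i) + ze i) = g (∏ i, (lin p q (e i) + (ze i - (a + e i • c)))) := by
    rw [map_prod]
    exact Finset.prod_congr rfl (fun i _ => (hline _ _ (hze i)).symm)
  have hS : ∏ i, (lin p q (s i) + zs i) = g (∏ i, (lin p q (s i) + (zs i - (a + s i • c)))) := by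
    rw [map_prod]
    exact Finset.prod_congr rfl (fun i _ => (hline _ _ (hzs i)).symm)
  refine Fin.cases ?_ (fun i => ?_) i
  · rw [Fin.cons_zero, Fin.cons_zero, map_mul, hv', ← hE]
  · rw [Fin.cons_succ, Fin.cons_succ, map_mul, map_mul, map_mul, hx, hy, ← hE, ← hS]

end

end Vale.Agent.P181.H536
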