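import Vale.Agent.P181.H536.Steps2

set_option autoImplicit false

open Polynomial

namespace Vale.Agent.P181.H536

open Vale.Agent.P181

variable {A : Type*} [CommRing A] [Algebra ℂ A]

lemma exists_coords {p q : A} {Z : Submodule ℂ A} {l : A}
    (hl : l ∈ Submodule.span ℂ {p, q} ⊔ Z) :
    ∃ (α β : ℂ) (z : A), z ∈ Z ∧ l = α • p + β • q + z := by
  obtain ⟨u, hu, z, hz, rfl⟩ := Submodule.mem_sup.1 hl
  obtain ⟨α, β, rfl⟩ := Submodule.mem_span_pair.1 hu
  exact ⟨α, β, z, hz, rfl⟩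

/-- The normal form of a perturbed line. -/
lemma line_eq (p q z : A) (α β y t : ℂ) (h : α + t ≠ 0) :
    α • p + β • q + z + t • (p + y • q) =
      (α + t) • (lin p q ((β + t * y) / (α + t)) + (α + t)⁻¹ • z) := by
  have h1 : (α + t) • (lin p q ((β + t * y) / (α + t)) + (α + t)⁻¹ • z) =
      (α + t) • p + (β + t * y) • q + z := by
    rw [lin, smul_add, smul_add, smul_smul, smul_smul, mul_inv_cancel₀ h, one_smul,
      mul_div_cancel₀ _ h]
  rw [h1, smul_add, smul_smul, add_smul, add_smul]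
  abel

/-- The polynomial whose nonvanishing separates two lines of the pencil. -/
noncomputable def sep (α β y α' β' y' : ℂ) : ℂ[X] :=
  (C β + C y * X) * (C α' + X) - (C β' + C y' * X) * (C α + X)

lemma sep_ne_zero (α β y α' β' y' : ℂ) (h : y ≠ y') : sep α β y α' β' y' ≠ 0 := by
  intro h0
  have h1 : (sep α β y α' β' y').coeff 2 = y - y' := by
    have h2 : sep α β y α' β' y' = C (β * α' - β' * α) + C (β + y * α' - β' - y' * α) * X +
        C (y - y') * X ^ 2 := by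
      simp only [sep, map_sub, map_add, map_mul]
      ring
    rw [h2]
    simp only [coeff_add, coeff_C_mul, coeff_X_pow, coeff_X, coeff_C]
    norm_num
  rw [h0, coeff_zero] at h1
  exact h (sub_eq_zero.1 h1.symm)

lemma sep_eval (α β y α' β' y' t : ℂ) (ha : α + t ≠ 0) (ha' : α' + t ≠ 0)
    (h : (sep α β y α' β' y').eval t ≠ 0) :
    (β + t * y) / (α + t) ≠ (β' + t * y') / (α' + t) := by
  intro h1
  apply h
  rw [div_eq_div_iff ha ha'] at h1
  simp only [sep, eval_sub, eval_mul, eval_add, eval_C, eval_X]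
  linear_combination h1

lemma curryLeft_smul_smul {k : ℕ} (G : MultilinearMap ℂ (fun _ : Fin (k + 1) => A) ℂ) (c d : ℂ)
    (x y : A) (h : G.curryLeft x (fun _ => y) = 0) :
    G.curryLeft (c • x) (fun _ => d • y) = 0 := by
  rw [map_smul, smul_apply, MultilinearMap.map_smul_univ, h, smul_zero, smul_zero]

variable {p q : A} {Z : Submodule ℂ A} {τ : ℂ → A →ₐ[ℂ] A} {b r k j N : ℕ}
  {G : MultilinearMap ℂ (fun _ : Fin (k + 1) => A) ℂ}

/-- (G) -/
lemma stepG (h : Setup p q Z τ) (hN : 1 ≤ N) (hk : k ≤ N) (hr : r + N ≤ b)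
    (hD : ∀ G : MultilinearMap ℂ (fun _ : Fin (k + 1) => A) ℂ, Cls p q Z τ b r G →
      DD (Submodule.span ℂ {p, q} ⊔ Z) b G (j + 1))
    (hG : Cls p q Z τ b r G) : DD (Submodule.span ℂ {p, q} ⊔ Z) b G (j + 2) := by
  intro v S R hv hS hR hvL hSL hRL
  obtain ⟨l₁, S₁, rfl⟩ : ∃ w v', S = w ::ₘ v' := by
    obtain ⟨z, hz⟩ := Multiset.card_pos_iff_exists_mem.1 (by omega : 0 < Multiset.card S)
    obtain ⟨R, hR⟩ := Multiset.exists_cons_of_mem hz
    exact ⟨z, R, hR⟩
  rw [Multiset.card_cons] at hS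
  obtain ⟨l₂, S₂, rfl⟩ : ∃ w v', S₁ = w ::ₘ v' := by
    obtain ⟨z, hz⟩ := Multiset.card_pos_iff_exists_mem.1 (by omega : 0 < Multiset.card S₁)
    obtain ⟨R, hR⟩ := Multiset.exists_cons_of_mem hz
    exact ⟨z, R, hR⟩
  rw [Multiset.card_cons] at hS
  obtain ⟨f, hf⟩ := exists_fin_map S₂ j (by omega)
  obtain ⟨m, hm⟩ : ∃ m, Multiset.card R = m := ⟨_, rfl⟩
  obtain ⟨g, hg⟩ := exists_fin_map R m hm
  have hfL : ∀ i, f i ∈ Submodule.span ℂ {p, q} ⊔ Z := by
    intro i
    apply hSL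
    rw [hf]
    exact Multiset.mem_cons_of_mem (Multiset.mem_cons_of_mem
      (Multiset.mem_map_of_mem f (Finset.mem_univ_val i)))
  have hgL : ∀ i, g i ∈ Submodule.span ℂ {p, q} ⊔ Z := by
    intro i
    apply hRL
    rw [hg]
    exact Multiset.mem_map_of_mem g (Finset.mem_univ_val i)
  obtain ⟨α₁, β₁, z₁, hz₁, hl₁⟩ := exists_coords (hSL l₁ (Multiset.mem_cons_self _ _))
  obtain ⟨α₂, β₂, z₂, hz₂, hl₂⟩ := exists_coords
    (hSL l₂ (Multiset.mem_cons_of_mem (Multiset.mem_cons_self _ _)))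
  choose αs βs zs hzs hfs using fun i => exists_coords (hfL i)
  choose αe βe ze hze hge using fun i => exists_coords (hgL i)
  obtain ⟨P, hP⟩ := poly_exists G (Fin.cons (C v.prod * ∏ i, (C (g i) + X * C (p + (i : ℂ) • q)))
    (fun _ => (C l₁ + X * C (p + (0 : ℂ) • q)) * (C l₂ + X * C (p + (1 : ℂ) • q)) *
      ((∏ i, (C (f i) + X * C (p + (0 : ℂ) • q))) * ∏ i, (C (g i) + X * C (p + (i : ℂ) • q)))))
  have hP' : ∀ t, P.eval t = G.curryLeft (v.prod * ∏ i, (g i + t • (p + ((i : ℕ) : ℂ) • q)))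
      (fun _ => (l₁ + t • (p + (0 : ℂ) • q)) * (l₂ + t • (p + (1 : ℂ) • q)) *
        ((∏ i, (f i + t • (p + (0 : ℂ) • q))) * ∏ i, (g i + t • (p + ((i : ℕ) : ℂ) • q)))) := by
    intro t
    rw [hP, MultilinearMap.curryLeft_apply]
    congr 1
    funext i
    refine Fin.cases ?_ (fun i => ?_) i
    · simp only [Fin.cons_zero, eval_mul, eval_prod, eval_add, eval_C, eval_X, Algebra.smul_def]
    · simp only [Fin.cons_succ, eval_mul, eval_prod, eval_add, eval_C, eval_X, Algebra.smul_def]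
  let B : ℂ[X] := (X + C α₁) * (X + C α₂) * (∏ i, (X + C (αs i))) * (∏ i, (X + C (αe i))) *
    sep α₁ β₁ 0 α₂ β₂ 1 * ∏ i : Fin m, ∏ i' : Fin m,
      (if i = i' then 1 else sep (αe i) (βe i) (i : ℕ) (αe i') (βe i') (i' : ℕ))
  have hB : B ≠ 0 := by
    refine mul_ne_zero (mul_ne_zero (mul_ne_zero (mul_ne_zero (mul_ne_zero (X_add_C_ne_zero _)
      (X_add_C_ne_zero _)) (Finset.prod_ne_zero_iff.2 fun i _ => X_add_C_ne_zero _))
      (Finset.prod_ne_zero_iff.2 fun i _ => X_add_C_ne_zero _))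
      (sep_ne_zero _ _ _ _ _ _ zero_ne_one)) (Finset.prod_ne_zero_iff.2 fun i _ =>
        Finset.prod_ne_zero_iff.2 fun i' _ => ?_)
    split_ifs with hii
    · exact one_ne_zero
    · apply sep_ne_zero
      intro h1
      apply hii
      exact Fin.ext (by exact_mod_cast h1)
  have hPB : B * P = 0 := by
    apply Polynomial.funext
    intro t
    rw [eval_mul, eval_zero]
    by_cases hBt : B.eval t = 0
    · rw [hBt, zero_mul]
    rw [mul_eq_zero]
    right
    simp only [B, eval_mul, eval_prod, eval_add, eval_X, eval_C, mul_ne_zero_iff,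
      Finset.prod_ne_zero_iff, Finset.mem_univ, true_implies, ne_eq] at hBt
    obtain ⟨⟨⟨⟨⟨h1, h2⟩, h3⟩, h4⟩, h5⟩, h6⟩ := hBt
    have h1' : α₁ + t ≠ 0 := by rw [add_comm]; exact h1
    have h2' : α₂ + t ≠ 0 := by rw [add_comm]; exact h2
    have h3' : ∀ i, αs i + t ≠ 0 := by intro i; rw [add_comm]; exact h3 i
    have h4' : ∀ i, αe i + t ≠ 0 := by intro i; rw [add_comm]; exact h4 i
    have hinj : Function.Injective
        (fun i : Fin m => (βe i + t * ((i : ℕ) : ℂ)) / (αe i + t)) := by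
      intro i i' hii
      by_contra hne
      have h7 := h6 i i'
      rw [if_neg hne] at h7
      exact sep_eval _ _ _ _ _ _ t (h4' i) (h4' i') h7 hii
    have h7 := stepF h hN hk hr hG hD (m := m) (by omega)
      ((β₁ + t * 0) / (α₁ + t)) ((β₂ + t * 1) / (α₂ + t))
      (sep_eval _ _ _ _ _ _ t h1' h2' h5) ((α₁ + t)⁻¹ • z₁) ((α₂ + t)⁻¹ • z₂)
      (Z.smul_mem _ hz₁) (Z.smul_mem _ hz₂) (fun i => (βs i + t * 0) / (αs i + t))
      (fun i => (αs i + t)⁻¹ • zs i) (fun i => Z.smul_mem _ (hzs i))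
      (fun i => (βe i + t * ((i : ℕ) : ℂ)) / (αe i + t)) hinj
      (fun i => (αe i + t)⁻¹ • ze i) (fun i => Z.smul_mem _ (hze i)) v hv hvL
    have hE : ∏ i, (g i + t • (p + ((i : ℕ) : ℂ) • q)) = (∏ i, (αe i + t)) •
        ∏ i : Fin m, (lin p q ((βe i + t * ((i : ℕ) : ℂ)) / (αe i + t)) + (αe i + t)⁻¹ • ze i) := by
      rw [← Finset.prod_smul]
      apply Finset.prod_congr rfl
      intro i _
      rw [hge i, line_eq p q (ze i) _ _ _ _ (h4' i)]
    have hS : ∏ i, (f i + t • (p + (0 : ℂ) • q)) = (∏ i, (αs i + t)) •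
        ∏ i : Fin j, (lin p q ((βs i + t * 0) / (αs i + t)) + (αs i + t)⁻¹ • zs i) := by
      rw [← Finset.prod_smul]
      apply Finset.prod_congr rfl
      intro i _
      rw [hfs i, line_eq p q (zs i) _ _ _ _ (h3' i)]
    rw [hP', hE, hS, hl₁, hl₂, line_eq p q z₁ _ _ _ _ h1', line_eq p q z₂ _ _ _ _ h2']
    rw [mul_smul_comm, smul_mul_smul_comm, smul_mul_smul_comm, smul_mul_smul_comm]
    exact curryLeft_smul_smul G _ _ _ _ h7
  have hP0 : P = 0 := (mul_eq_zero.1 hPB).resolve_left hB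
  have h1 := hP' 0
  simp only [hP0, eval_zero, zero_smul, add_zero] at h1
  rw [Multiset.prod_cons, Multiset.prod_cons, hf, hg]
  have h2 : l₁ * (l₂ * (Multiset.map f Finset.univ.val).prod) *
      (Multiset.map g Finset.univ.val).prod = l₁ * l₂ * ((∏ i, f i) * ∏ i, g i) := by
    have h3 : (Multiset.map f Finset.univ.val).prod = ∏ i, f i := rfl
    have h4 : (Multiset.map g Finset.univ.val).prod = ∏ i, g i := rfl
    rw [h3, h4]
    ring
  rw [h2]
  exact h1.symm

end Vale.Agent.P181.H536
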